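import Vale.Agent.P237.Basic
import Vale.Agent.Lib.PrekopaLeindler

open MeasureTheory Metric Set Filter Topology
open scoped RealInnerProductSpace Pointwise ENNReal NNReal

namespace Vale.Agent.P237

variable {n : ℕ}

/-- Volume of the part of `A` below level `z` in direction `u`. -/
noncomputable def bmLo (u : E n) (A : Set (E n)) (z : ℝ) : ℝ := vol (A ∩ {x | ⟪x, u⟫ ≤ z})

/-- Volume of the part of `A` above level `z` in direction `u`. -/
noncomputable def bmHi (u : E n) (A : Set (E n)) (z : ℝ) : ℝ := vol (A ∩ {x | z ≤ ⟪x, u⟫})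

theorem bmeq_cont (u : E n) : Continuous fun x : E n => ⟪x, u⟫ := by fun_prop

theorem bmeq_lo_compact (u : E n) {A : Set (E n)} (hA : IsCompact A) (z : ℝ) :
    IsCompact (A ∩ {x | ⟪x, u⟫ ≤ z}) :=
  hA.inter_right (isClosed_le (bmeq_cont u) continuous_const)

theorem bmeq_hi_compact (u : E n) {A : Set (E n)} (hA : IsCompact A) (z : ℝ) :
    IsCompact (A ∩ {x | z ≤ ⟪x, u⟫}) :=
  hA.inter_right (isClosed_le continuous_const (bmeq_cont u))

theorem bmeq_hyper {u : E n} (hu : ‖u‖ = 1) (z : ℝ) : volume {x : E n | ⟪x, u⟫ = z} = 0 := by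
  have huu : ⟪u, u⟫ = 1 := by rw [real_inner_self_eq_norm_sq, hu, one_pow]
  have e : {x : E n | ⟪x, u⟫ = z} =
      (fun x => -(z • u) + x) ⁻¹' ((ℝ ∙ u)ᗮ : Submodule ℝ (E n)) := by
    ext x
    simp only [mem_ofPred_eq, mem_preimage, SetLike.mem_coe,
      Submodule.mem_orthogonal_singleton_iff_inner_left, inner_add_left, inner_neg_left,
      real_inner_smul_left, huu, mul_one]
    constructor <;> intro h <;> linarith
  rw [e, measure_preimage_add]
  refine Measure.addHaar_submodule _ _ fun h => ?_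
  have : u ∈ ((ℝ ∙ u)ᗮ : Submodule ℝ (E n)) := h ▸ Submodule.mem_top
  rw [Submodule.mem_orthogonal_singleton_iff_inner_left, huu] at this
  exact one_ne_zero this

theorem bmeq_lo_add_hi {u : E n} (hu : ‖u‖ = 1) {A : Set (E n)} (hA : IsCompact A) (z : ℝ) :
    bmLo u A z + bmHi u A z = vol A := by
  have h := measure_union_add_inter (μ := (volume : Measure (E n))) (A ∩ {x | ⟪x, u⟫ ≤ z})
    (bmeq_hi_compact u hA z).measurableSet
  have e1 : A ∩ {x | ⟪x, u⟫ ≤ z} ∪ A ∩ {x | z ≤ ⟪x, u⟫} = A := by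
    rw [← inter_union_distrib_left]
    exact inter_eq_left.2 fun x _ => le_total ⟪x, u⟫ z
  have e2 : volume (A ∩ {x | ⟪x, u⟫ ≤ z} ∩ (A ∩ {x | z ≤ ⟪x, u⟫})) = 0 :=
    measure_mono_null (fun x hx => le_antisymm hx.1.2 hx.2.2) (bmeq_hyper hu z)
  rw [e1, e2, add_zero] at h
  rw [bmLo, bmHi, vol, vol, vol, h, ENNReal.toReal_add
    (bmeq_lo_compact u hA z).measure_lt_top.ne (bmeq_hi_compact u hA z).measure_lt_top.ne]

theorem bmeq_mono (u : E n) {A : Set (E n)} (hA : IsCompact A) : Monotone (bmLo u A) :=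
  fun _ z' h => ENNReal.toReal_mono (bmeq_lo_compact u hA z').measure_lt_top.ne
    (measure_mono fun _ hx => ⟨hx.1, le_trans hx.2 h⟩)

theorem bmeq_lo_le (u : E n) {A : Set (E n)} (hA : IsCompact A) (z : ℝ) : bmLo u A z ≤ vol A :=
  ENNReal.toReal_mono hA.measure_lt_top.ne (measure_mono inter_subset_left)

theorem bmeq_vol_lt {A B U : Set (E n)} (hB : IsCompact B) (hU : IsOpen U) (hne : U.Nonempty)
    (hAB : A ⊆ B) (hUB : U ⊆ B) (hd : Disjoint A U) : vol A < vol B := by
  have h1 : volume (A ∪ U) ≤ volume B := measure_mono (union_subset hAB hUB)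
  rw [measure_union hd hU.measurableSet] at h1
  have h2 : volume A ≠ ∞ := ((measure_mono hAB).trans_lt hB.measure_lt_top).ne
  exact ENNReal.toReal_strict_mono hB.measure_lt_top.ne
    ((ENNReal.lt_add_right h2 (hU.measure_pos volume hne).ne').trans_le h1)

theorem bmeq_map_Iic (u : E n) (c : ℝ) (A : Set (E n)) (z : ℝ) :
    ((volume.restrict A).map fun x : E n => ⟪x, u⟫ + c) (Iic z) =
      volume (A ∩ {x | ⟪x, u⟫ ≤ z - c}) := by
  have hm : Measurable fun x : E n => ⟪x, u⟫ + c := ((bmeq_cont u).add continuous_const).measurable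
  rw [Measure.map_apply hm measurableSet_Iic, Measure.restrict_apply (hm measurableSet_Iic),
    inter_comm]
  congr 2
  ext x
  simp only [mem_preimage, mem_Iic, mem_ofPred_eq]
  exact le_sub_iff_add_le.symm

theorem bmeq_ivt {u : E n} (hu : ‖u‖ = 1) {A : Set (E n)} (hA : IsCompact A) {s : ℝ}
    (h0 : 0 < s) (h1 : s < vol A) : ∃ z, bmLo u A z = s := by
  obtain ⟨R, hR⟩ := hA.isBounded.subset_closedBall (0 : E n)
  have hb : ∀ x ∈ A, |⟪x, u⟫| ≤ |R| := by
    intro x hx
    have h2 := abs_real_inner_le_norm x u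
    have h3 := mem_closedBall_zero_iff.1 (hR hx)
    rw [hu, mul_one] at h2
    exact h2.trans (h3.trans (le_abs_self R))
  have hm : Measurable fun x : E n => ⟪x, u⟫ + 0 := ((bmeq_cont u).add continuous_const).measurable
  set μ := (volume.restrict A).map fun x : E n => ⟪x, u⟫ + 0 with hμ
  have : IsFiniteMeasure (volume.restrict A) := isFiniteMeasure_restrict.2 hA.measure_lt_top.ne
  have : NullSingletonClass μ := ⟨fun z => by
    rw [hμ, Measure.map_apply hm (measurableSet_singleton z),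
      Measure.restrict_apply (hm (measurableSet_singleton z))]
    exact measure_mono_null (fun x hx => by simpa using hx.1) (bmeq_hyper hu z)⟩
  have hc := (integrable_const (μ := μ) (1 : ℝ)).integrableOn.continuousOn_Iic_primitive_Iic
    (a₀ := |R| + 1)
  have e : (fun b => ∫ _ in Iic b, (1 : ℝ) ∂μ) = bmLo u A := by
    funext b
    rw [setIntegral_const, smul_eq_mul, mul_one, Measure.real, hμ, bmeq_map_Iic, sub_zero, bmLo]
  rw [e] at hc
  have hab : -(|R| + 1) ≤ |R| + 1 := by linarith [abs_nonneg R]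
  have e1 : bmLo u A (-(|R| + 1)) = 0 := by
    have : A ∩ {x | ⟪x, u⟫ ≤ -(|R| + 1)} = ∅ := by
      refine eq_empty_of_forall_notMem fun x hx => ?_
      have h2 := (abs_le.1 (hb x hx.1)).1
      have h3 : ⟪x, u⟫ ≤ -(|R| + 1) := hx.2
      linarith
    rw [bmLo, this, vol, measure_empty, ENNReal.toReal_zero]
  have e2 : bmLo u A (|R| + 1) = vol A := by
    have : A ∩ {x | ⟪x, u⟫ ≤ |R| + 1} = A := by
      refine inter_eq_left.2 fun x hx => ?_
      have h2 := (abs_le.1 (hb x hx)).2
      show ⟪x, u⟫ ≤ |R| + 1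
      linarith
    rw [bmLo, this]
  obtain ⟨z, -, hz⟩ := intermediate_value_Icc hab (hc.mono Icc_subset_Iic_self)
    (⟨by rw [e1]; exact h0.le, by rw [e2]; exact h1.le⟩ :
      s ∈ Icc (bmLo u A (-(|R| + 1))) (bmLo u A (|R| + 1)))
  exact ⟨z, hz⟩

theorem bmeq_ball_abs {u : E n} (hu : ‖u‖ = 1) {r : ℝ} {x : E n}
    (hx : x ∈ closedBall (0 : E n) r) : |⟪x, u⟫| ≤ r := by
  have h2 := abs_real_inner_le_norm x u
  rw [hu, mul_one] at h2
  exact h2.trans (mem_closedBall_zero_iff.1 hx)

theorem bmeq_ball_top {u : E n} (hu : ‖u‖ = 1) {r w : ℝ} (hw : r ≤ w) :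
    bmLo u (closedBall 0 r) w = vol (closedBall (0 : E n) r) := by
  have e : closedBall (0 : E n) r ∩ {x | ⟪x, u⟫ ≤ w} = closedBall 0 r :=
    inter_eq_left.2 fun x hx => (abs_le.1 (bmeq_ball_abs hu hx)).2.trans hw
  rw [bmLo, e]

theorem bmeq_ball_range {u : E n} (hu : ‖u‖ = 1) {r w : ℝ} (h0 : 0 < bmLo u (closedBall 0 r) w)
    (h1 : bmLo u (closedBall 0 r) w < vol (closedBall (0 : E n) r)) : -r < w ∧ w < r := by
  constructor
  · by_contra h
    rw [not_lt] at h
    have e := bmeq_lo_add_hi hu (isCompact_closedBall (0 : E n) r) w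
    have e' : closedBall (0 : E n) r ∩ {x | w ≤ ⟪x, u⟫} = closedBall 0 r :=
      inter_eq_left.2 fun x hx => h.trans (abs_le.1 (bmeq_ball_abs hu hx)).1
    rw [bmHi, e'] at e
    linarith
  · by_contra h
    rw [bmeq_ball_top hu (not_lt.1 h)] at h1
    exact lt_irrefl _ h1

theorem bmeq_ball_strict {u : E n} (hu : ‖u‖ = 1) {r w₁ w₂ : ℝ} (hr : 0 < r) (h : w₁ < w₂)
    (h1 : -r < w₂) (h2 : w₁ < r) : bmLo u (closedBall 0 r) w₁ < bmLo u (closedBall 0 r) w₂ := by
  obtain ⟨t, ht1, ht2⟩ := exists_between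
    (show max w₁ (-r) < min w₂ r from max_lt (lt_min h h2) (lt_min h1 (by linarith)))
  rw [max_lt_iff] at ht1
  rw [lt_min_iff] at ht2
  have huu : ⟪u, u⟫ = 1 := by rw [real_inner_self_eq_norm_sq, hu, one_pow]
  refine bmeq_vol_lt (U := ball 0 r ∩ (fun x : E n => ⟪x, u⟫) ⁻¹' Ioo w₁ w₂)
    (bmeq_lo_compact u (isCompact_closedBall _ _) _)
    (isOpen_ball.inter (isOpen_Ioo.preimage (bmeq_cont u))) ⟨t • u, ?_, ?_⟩
    (fun x hx => ⟨hx.1, le_trans hx.2 h.le⟩) (fun x hx => ⟨ball_subset_closedBall hx.1, hx.2.2.le⟩)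
    (disjoint_left.2 fun x hx hx' => absurd hx'.2.1 (not_lt.2 hx.2))
  · rw [mem_ball_zero_iff, norm_smul, hu, mul_one, Real.norm_eq_abs, abs_lt]
    exact ⟨ht1.2, ht2.2⟩
  · simp only [mem_preimage, real_inner_smul_left, huu, mul_one]
    exact ⟨ht1.1, ht2.1⟩

theorem bmeq_bm {A B C : Set (E n)} (hA : IsCompact A) (hB : IsCompact B) (hC : IsCompact C)
    (H : ∀ x ∈ A, ∀ y ∈ B, (1 / 2 : ℝ) • (x + y) ∈ C) : vol A * vol B ≤ vol C ^ 2 := by
  have h := Lib.PL.brunn_minkowski_mul (volume : Measure (E n)) (a := 1 / 2) (b := 1 / 2)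
    (by norm_num) (by norm_num) (by norm_num) hA.measurableSet hB.measurableSet hC.measurableSet
    (fun x hx y hy => by rw [← smul_add]; exact H x hx y hy)
  have h2 := ENNReal.toReal_mono hC.measure_lt_top.ne h
  rw [ENNReal.toReal_mul, ← ENNReal.toReal_rpow, ← ENNReal.toReal_rpow,
    ← Real.mul_rpow ENNReal.toReal_nonneg ENNReal.toReal_nonneg, ← Real.sqrt_eq_rpow] at h2
  exact (Real.sqrt_le_left ENNReal.toReal_nonneg).1 h2

theorem bmeq_key {u : E n} (hu : ‖u‖ = 1) {K : Set (E n)} (hK : IsCompact K) {r : ℝ} (hr : 0 < r)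
    (hv : vol K = vol (closedBall (0 : E n) r))
    (h : vol ((1 / 2 : ℝ) • (K + closedBall (0 : E n) r)) ≤ vol K) {z w z₁ w₂ s : ℝ}
    (hz : bmLo u K z = s) (hw : bmLo u (closedBall 0 r) w = s) (h0 : 0 < s) (h1 : s < vol K)
    (hs : s ^ 2 ≤ bmLo u K z₁ * bmLo u (closedBall 0 r) w₂) : z + w ≤ z₁ + w₂ := by
  by_contra hlt
  rw [not_le] at hlt
  have hB := isCompact_closedBall (0 : E n) r
  have hS : IsCompact ((1 / 2 : ℝ) • (K + closedBall (0 : E n) r)) := (hK.add hB).smul _
  have b1 := bmeq_bm (bmeq_lo_compact u hK z₁) (bmeq_lo_compact u hB w₂)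
    (bmeq_lo_compact u hS ((z₁ + w₂) / 2)) (fun x hx y hy =>
      ⟨⟨x + y, ⟨x, hx.1, y, hy.1, rfl⟩, rfl⟩, by
        have a1 : ⟪x, u⟫ ≤ z₁ := hx.2
        have a2 : ⟪y, u⟫ ≤ w₂ := hy.2
        simp only [mem_ofPred_eq, real_inner_smul_left, inner_add_left]
        linarith⟩)
  have b2 := bmeq_bm (bmeq_hi_compact u hK z) (bmeq_hi_compact u hB (z₁ + w₂ - z))
    (bmeq_hi_compact u hS ((z₁ + w₂) / 2)) (fun x hx y hy =>
      ⟨⟨x + y, ⟨x, hx.1, y, hy.1, rfl⟩, rfl⟩, by
        have a1 : z ≤ ⟪x, u⟫ := hx.2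
        have a2 : z₁ + w₂ - z ≤ ⟪y, u⟫ := hy.2
        simp only [mem_ofPred_eq, real_inner_smul_left, inner_add_left]
        linarith⟩)
  have e1 := bmeq_lo_add_hi hu hK z
  have e2 := bmeq_lo_add_hi hu hB (z₁ + w₂ - z)
  have e3 := bmeq_lo_add_hi hu hS ((z₁ + w₂) / 2)
  obtain ⟨r1, r2⟩ := bmeq_ball_range hu (r := r) (w := w) (by rwa [hw]) (by rwa [hw, ← hv])
  have e4 := bmeq_ball_strict hu hr (show z₁ + w₂ - z < w by linarith) r1 (by linarith)
  have c1 : s ≤ bmLo u ((1 / 2 : ℝ) • (K + closedBall (0 : E n) r)) ((z₁ + w₂) / 2) :=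
    (pow_le_pow_iff_left₀ h0.le ENNReal.toReal_nonneg two_ne_zero).1 (hs.trans b1)
  have c2 : vol K - s < bmHi u ((1 / 2 : ℝ) • (K + closedBall (0 : E n) r)) ((z₁ + w₂) / 2) := by
    refine lt_of_pow_lt_pow_left₀ 2 ENNReal.toReal_nonneg (lt_of_lt_of_le ?_ b2)
    have a1 : bmHi u K z = vol K - s := by linarith
    have a2 : vol K - s < bmHi u (closedBall 0 r) (z₁ + w₂ - z) := by linarith
    have a3 := mul_lt_mul_of_pos_left a2 (sub_pos.2 h1)
    rw [← a1] at a3 ⊢
    rw [sq]
    exact a3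
  linarith

theorem bmeq_tele {Z W : ℝ → ℝ} {L : ℝ}
    (hk : ∀ m t, m + t < L → m - t < L → Z m + W m ≤ Z (m + t) + W (m - t))
    (hW : ∀ a, a < L → ContinuousAt W a) {a b : ℝ} (hab : a < b) (hb : b < L) :
    Z a - W a = Z b - W b := by
  have low : ∀ t, 0 < t → ∀ j : ℕ, a + j * t < L →
      W (a + j * t - t) - W (a - t) ≤ Z (a + j * t) - Z a := by
    intro t ht j
    induction j with
    | zero => simp
    | succ j ih =>
      intro hj
      push_cast at hj ⊢
      have h1 := ih (by linarith)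
      have h2 := hk (a + j * t) t (by linarith) (by linarith)
      have e1 : a + (j + 1) * t = a + j * t + t := by ring
      rw [e1, add_sub_cancel_right]
      linarith
  have upp : ∀ t, 0 < t → ∀ j : ℕ, a + j * t + t < L →
      Z (a + j * t) - Z a ≤ W (a + j * t + t) - W (a + t) := by
    intro t ht j
    induction j with
    | zero => simp
    | succ j ih =>
      intro hj
      push_cast at hj ⊢
      have h1 := ih (by linarith)
      have h2 := hk (a + j * t + t) (-t) (by linarith) (by linarith)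
      have e1 : a + (j + 1) * t = a + j * t + t := by ring
      rw [add_neg_cancel_right, sub_neg_eq_add] at h2
      rw [e1]
      linarith
  have hT : Tendsto (fun N : ℕ => (b - a) / (N : ℝ)) atTop (𝓝 0) :=
    tendsto_const_div_atTop_nhds_zero_nat _
  have lim : ∀ c, c < L → ∀ σ : ℝ,
      Tendsto (fun N : ℕ => W (c + σ * ((b - a) / (N : ℝ)))) atTop (𝓝 (W c)) := by
    intro c hc σ
    refine (hW c hc).tendsto.comp ?_
    simpa using (hT.const_mul σ).const_add c
  have ha : a < L := hab.trans hb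
  have hN : ∀ N : ℕ, 0 < N → 0 < (b - a) / (N : ℝ) ∧ a + N * ((b - a) / (N : ℝ)) = b := by
    intro N hN
    have : (0 : ℝ) < N := by exact_mod_cast hN
    exact ⟨div_pos (sub_pos.2 hab) this, by field_simp; ring⟩
  have l1 : W b - W a ≤ Z b - Z a := by
    refine le_of_tendsto ((lim b hb (-1)).sub (lim a ha (-1))) ?_
    filter_upwards [eventually_gt_atTop 0] with N h0
    have := low _ (hN N h0).1 N (by rw [(hN N h0).2]; exact hb)
    rw [(hN N h0).2] at this
    simpa only [neg_mul, one_mul, ← sub_eq_add_neg] using this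
  have l2 : Z b - Z a ≤ W b - W a := by
    refine ge_of_tendsto ((lim b hb 1).sub (lim a ha 1)) ?_
    filter_upwards [eventually_gt_atTop 0, hT.eventually (gt_mem_nhds (sub_pos.2 hb))]
      with N h0 h1
    have := upp _ (hN N h0).1 N (by rw [(hN N h0).2]; linarith)
    rw [(hN N h0).2] at this
    simpa only [one_mul] using this
  linarith

theorem bmeq_shift {u : E n} (hu : ‖u‖ = 1) {K : Set (E n)} (hK : IsCompact K) {r : ℝ}
    (hr : 0 < r) (hv : vol K = vol (closedBall (0 : E n) r)) (hV : 0 < vol K)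
    (h : vol ((1 / 2 : ℝ) • (K + closedBall (0 : E n) r)) ≤ vol K) :
    ∃ c : ℝ, ∀ z, bmLo u K z = bmLo u (closedBall 0 r) (z - c) := by
  have hB := isCompact_closedBall (0 : E n) r
  set L := Real.log (vol K) with hL
  have hexp : ∀ a, a < L → Real.exp a < vol K := fun a ha => by
    rw [← Real.exp_log hV]; exact Real.exp_lt_exp.2 ha
  have hZ : ∀ a, ∃ z, a < L → bmLo u K z = Real.exp a := by
    intro a
    by_cases ha : a < L
    · obtain ⟨z, hz⟩ := bmeq_ivt hu hK (Real.exp_pos a) (hexp a ha)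
      exact ⟨z, fun _ => hz⟩
    · exact ⟨0, fun h => absurd h ha⟩
  have hW : ∀ a, ∃ w, a < L → bmLo u (closedBall 0 r) w = Real.exp a := by
    intro a
    by_cases ha : a < L
    · obtain ⟨z, hz⟩ := bmeq_ivt hu hB (Real.exp_pos a) (hv ▸ hexp a ha)
      exact ⟨z, fun _ => hz⟩
    · exact ⟨0, fun h => absurd h ha⟩
  choose Z hZ using hZ
  choose W hW using hW
  have mK := bmeq_mono u hK
  have mB := bmeq_mono u hB
  have hk : ∀ m t, m + t < L → m - t < L → Z m + W m ≤ Z (m + t) + W (m - t) := by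
    intro m t h1 h2
    have hm : m < L := by linarith
    refine bmeq_key hu hK hr hv h (hZ m hm) (hW m hm) (Real.exp_pos m) (hexp m hm) (le_of_eq ?_)
    rw [hZ _ h1, hW _ h2, ← Real.exp_add, sq, ← Real.exp_add]
    congr 1
    ring
  have hc : ∀ a, a < L → ContinuousAt W a := by
    intro a ha
    obtain ⟨r1, r2⟩ := bmeq_ball_range hu (r := r) (w := W a)
      (by rw [hW a ha]; exact Real.exp_pos a) (by rw [hW a ha, ← hv]; exact hexp a ha)
    refine tendsto_order.2 ⟨fun c hc => ?_, fun c hc => ?_⟩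
    · have h1 := bmeq_ball_strict hu hr hc r1 (hc.trans r2)
      rw [hW a ha] at h1
      filter_upwards [gt_mem_nhds ha, Real.continuous_exp.continuousAt.eventually (lt_mem_nhds h1)]
        with b hb h2
      exact mB.reflect_lt (by rwa [hW b hb])
    · have h1 := bmeq_ball_strict hu hr hc (r1.trans hc) r2
      rw [hW a ha] at h1
      filter_upwards [gt_mem_nhds ha, Real.continuous_exp.continuousAt.eventually (gt_mem_nhds h1)]
        with b hb h2
      exact mB.reflect_lt (by rwa [hW b hb])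
  have hconst : ∀ a, a < L → Z a - W a = Z (L - 1) - W (L - 1) := by
    intro a ha
    rcases lt_trichotomy a (L - 1) with h1 | h1 | h1
    · exact bmeq_tele hk hc h1 (by linarith)
    · rw [h1]
    · exact (bmeq_tele hk hc h1 ha).symm
  refine ⟨Z (L - 1) - W (L - 1), fun z => ?_⟩
  set c := Z (L - 1) - W (L - 1)
  have mid : ∀ x y : ℝ, 0 ≤ x → x < y → y ≤ vol K → ∃ a, a < L ∧ x < Real.exp a ∧ Real.exp a < y := by
    intro x y hx hxy hy
    have hp : 0 < (x + y) / 2 := by linarith
    refine ⟨Real.log ((x + y) / 2), Real.log_lt_log hp (by linarith), ?_, ?_⟩ <;>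
      rw [Real.exp_log hp] <;> linarith
  rcases lt_trichotomy (bmLo u K z) (bmLo u (closedBall 0 r) (z - c)) with h1 | h1 | h1
  · obtain ⟨a, ha, a1, a2⟩ := mid _ _ ENNReal.toReal_nonneg h1 (hv ▸ bmeq_lo_le u hB _)
    have b1 : z < Z a := mK.reflect_lt (by rwa [hZ a ha])
    have b2 : W a < z - c := mB.reflect_lt (by rwa [hW a ha])
    linarith [hconst a ha]
  · exact h1
  · obtain ⟨a, ha, a1, a2⟩ := mid _ _ ENNReal.toReal_nonneg h1 (bmeq_lo_le u hK _)
    have b1 : Z a < z := mK.reflect_lt (by rwa [hZ a ha])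
    have b2 : z - c < W a := mB.reflect_lt (by rwa [hW a ha])
    linarith [hconst a ha]

theorem bmeq_ball_moment (u : E n) (r : ℝ) : ∫ x in closedBall (0 : E n) r, ⟪x, u⟫ = 0 := by
  rw [← integral_indicator measurableSet_closedBall]
  have h := integral_neg_eq_self ((closedBall (0 : E n) r).indicator fun x => ⟪x, u⟫) volume
  have e : (fun x : E n => (closedBall (0 : E n) r).indicator (fun x => ⟪x, u⟫) (-x)) =
      fun x => -(closedBall (0 : E n) r).indicator (fun x => ⟪x, u⟫) x := by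
    funext x
    by_cases hx : x ∈ closedBall (0 : E n) r
    · have hx' : -x ∈ closedBall (0 : E n) r := by
        rwa [mem_closedBall_zero_iff, norm_neg, ← mem_closedBall_zero_iff]
      rw [indicator_of_mem hx, indicator_of_mem hx', inner_neg_left]
    · have hx' : -x ∉ closedBall (0 : E n) r := by
        rwa [mem_closedBall_zero_iff, norm_neg, ← mem_closedBall_zero_iff]
      rw [indicator_of_notMem hx, indicator_of_notMem hx', neg_zero]
  rw [e, integral_neg] at h
  linarith

theorem bmeq_center {u : E n} {K : Set (E n)} (hK : IsCompact K) {r c : ℝ}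
    (hc : ∀ z, bmLo u K z = bmLo u (closedBall 0 r) (z - c)) :
    ⟪∫ x in K, x, u⟫ = c * vol (closedBall (0 : E n) r) := by
  have hB := isCompact_closedBall (0 : E n) r
  have hm : ∀ c : ℝ, Measurable fun x : E n => ⟪x, u⟫ + c := fun c =>
    ((bmeq_cont u).add continuous_const).measurable
  have : IsFiniteMeasure (volume.restrict K) := isFiniteMeasure_restrict.2 hK.measure_lt_top.ne
  have : IsFiniteMeasure (volume.restrict (closedBall (0 : E n) r)) :=
    isFiniteMeasure_restrict.2 hB.measure_lt_top.ne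
  have e : ((volume.restrict K).map fun x : E n => ⟪x, u⟫ + 0) =
      (volume.restrict (closedBall (0 : E n) r)).map fun x : E n => ⟪x, u⟫ + c := by
    refine Measure.ext_of_Iic _ _ fun z => ?_
    rw [bmeq_map_Iic, bmeq_map_Iic, sub_zero]
    exact (ENNReal.toReal_eq_toReal_iff' (bmeq_lo_compact u hK _).measure_lt_top.ne
      (bmeq_lo_compact u hB _).measure_lt_top.ne).1 (hc z)
  have h : ∫ t, t ∂((volume.restrict K).map fun x : E n => ⟪x, u⟫ + 0) =
      ∫ t, t ∂((volume.restrict (closedBall (0 : E n) r)).map fun x : E n => ⟪x, u⟫ + c) := by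
    rw [e]
  rw [integral_map (f := fun t : ℝ => t) (hm 0).aemeasurable aestronglyMeasurable_id,
    integral_map (f := fun t : ℝ => t) (hm c).aemeasurable aestronglyMeasurable_id] at h
  simp only [add_zero] at h
  rw [integral_add ((bmeq_cont u).continuousOn.integrableOn_compact hB) (integrable_const c),
    bmeq_ball_moment, zero_add, setIntegral_const, smul_eq_mul, mul_comm] at h
  rw [real_inner_comm, ← integral_inner (f := fun x : E n => x)
    (continuous_id.continuousOn.integrableOn_compact hK)]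
  exact (integral_congr_ae (Eventually.of_forall fun x => real_inner_comm x u)).trans h

/-- Equality in the Brunn-Minkowski inequality when one of the bodies is a ball. -/
theorem eq_ball_of_bm (hn : 0 < n) {K : Set (E n)} (hK : IsCompact K) (hc : Convex ℝ K)
    (hi : (interior K).Nonempty) {r : ℝ} (hr : 0 < r)
    (hv : vol K = vol (closedBall (0 : E n) r))
    (h : vol ((1 / 2 : ℝ) • (K + closedBall (0 : E n) r)) ≤ vol K) :
    ∃ c : E n, K = closedBall c r := by
  have hV : 0 < vol K := ENNReal.toReal_pos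
    ((isOpen_interior.measure_pos volume hi).trans_le (measure_mono interior_subset)).ne'
    hK.measure_lt_top.ne
  set c : E n := (vol K)⁻¹ • ∫ x in K, x with hcdef
  have hsub : K ⊆ closedBall c r := by
    intro x hx
    by_contra hout
    rw [mem_closedBall_iff_norm, not_le] at hout
    have hpos : 0 < ‖x - c‖ := hr.trans hout
    set u : E n := ‖x - c‖⁻¹ • (x - c) with hu
    have hu1 : ‖u‖ = 1 := by
      rw [hu, norm_smul, norm_inv, norm_norm, inv_mul_cancel₀ hpos.ne']
    obtain ⟨a, ha⟩ := bmeq_shift hu1 hK hr hv hV h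
    have h1 : ⟪c, u⟫ = a := by
      rw [hcdef, real_inner_smul_left, bmeq_center hK ha, ← hv]
      field_simp
    have h2 : ⟪x - c, u⟫ = ‖x - c‖ := by
      rw [hu, real_inner_smul_right, real_inner_self_eq_norm_sq]
      field_simp
    rw [inner_sub_left, h1] at h2
    have h3 : bmLo u K (a + r) = vol K := by
      rw [ha, hv, bmeq_ball_top hu1 (by linarith)]
    have hx' : x ∈ closure (interior K) := by
      rw [hc.closure_interior_eq_closure_of_nonempty_interior hi]
      exact subset_closure hx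
    have hO : IsOpen {y : E n | a + r < ⟪y, u⟫} := isOpen_lt continuous_const (bmeq_cont u)
    have hne := mem_closure_iff.1 hx' _ hO (show a + r < ⟪x, u⟫ by linarith)
    have h4 := bmeq_vol_lt (A := K ∩ {y | ⟪y, u⟫ ≤ a + r}) hK (hO.inter isOpen_interior) hne
      inter_subset_left (fun y hy => interior_subset hy.2)
      (disjoint_left.2 fun y hy hy' => absurd (show a + r < ⟪y, u⟫ from hy'.1) (not_lt.2 hy.2))
    exact absurd h3 h4.ne
  refine ⟨c, hsub.antisymm ?_⟩
  rw [← closure_ball c hr.ne']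
  refine closure_minimal (fun y hy => ?_) hK.isClosed
  by_contra hyK
  have h4 := bmeq_vol_lt (isCompact_closedBall c r) (isOpen_ball.inter hK.isClosed.isOpen_compl)
    ⟨y, hy, hyK⟩ hsub (fun z hz => ball_subset_closedBall hz.1)
    (disjoint_left.2 fun z hz hz' => hz'.2 hz)
  rw [hv, vol, vol, Measure.addHaar_closedBall_center volume c] at h4
  exact lt_irrefl _ h4

end Vale.Agent.P237
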