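import Vale.Agent.P237.Defs

open MeasureTheory Metric Set
open scoped RealInnerProductSpace Pointwise

namespace Vale.Agent.P237

abbrev E (n : ℕ) := EuclideanSpace ℝ (Fin n)

abbrev Sph (n : ℕ) := sphere (0 : E n) 1

/-- The uniform probability measure on the unit sphere. -/
noncomputable def sig (n : ℕ) : Measure (Sph n) :=
  ((volume : Measure (E n)).toSphere univ)⁻¹ • (volume : Measure (E n)).toSphere

/-- Real valued volume. -/
noncomputable abbrev vol {n : ℕ} (A : Set (E n)) : ℝ := (volume A).toReal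

/-- Sublinear and positive definite. -/
structure IsGauge {n : ℕ} (g : E n → ℝ) : Prop where
  add_le : ∀ x y, g (x + y) ≤ g x + g y
  smul : ∀ (r : ℝ) (x : E n), 0 ≤ r → g (r • x) = r * g x
  pos : ∀ x, x ≠ 0 → 0 < g x

/-- A norm. -/
structure IsNorm {n : ℕ} (g : E n → ℝ) : Prop extends IsGauge g where
  neg : ∀ x, g (-x) = g x

/-- The vector field `N^(d-1) ∇N`. -/
noncomputable def XF {n : ℕ} (d : ℕ) (N : E n → ℝ) (x : E n) : E n :=
  N x ^ (d - 1) • gradient N x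

/-- The support function of the zonoid generated by `Y`. -/
noncomputable def zq {n : ℕ} (Y : Sph n → E n) (u : E n) : ℝ :=
  ∫ θ, |⟪Y θ, u⟫| ∂sig n

/-- The body cut out by `q`. -/
def Zb {n : ℕ} (q : E n → ℝ) : Set (E n) := {x | ∀ u, ⟪x, u⟫ ≤ q u}

/-- The dual norm. -/
noncomputable def dual {n : ℕ} (q : E n → ℝ) (x : E n) : ℝ :=
  sSup ((fun u => ⟪x, u⟫) '' {u | q u ≤ 1})

noncomputable def Lam {n : ℕ} (d : ℕ) (N N' : E n → ℝ) : ℝ :=
  ∫ θ, ∫ θ', |⟪XF d N (θ : E n), XF d N' (θ' : E n)⟫| ∂sig n ∂sig n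

/-- The mean of order `-n` of `N` on the sphere. -/
noncomputable def hm {n : ℕ} (N : E n → ℝ) : ℝ :=
  (∫ θ, (N (θ : E n))⁻¹ ^ n ∂sig n) ^ (-(1 / (n : ℝ)))

noncomputable def tau {n : ℕ} (d : ℕ) (N : E n → ℝ) : ℝ :=
  (∫ θ, N (θ : E n) ^ (d - 1) ∂sig n) * hm N

/-- The first basis vector. -/
noncomputable def e0 (n : ℕ) : E n := WithLp.toLp 2 fun i => if i.val = 0 then 1 else 0

/-- Mean of a zonal function. -/
noncomputable def zon (n : ℕ) (φ : ℝ → ℝ) : ℝ := ∫ θ, φ ⟪e0 n, (θ : E n)⟫ ∂sig n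

/-- Mean of the absolute value of a coordinate. -/
noncomputable def c0 (n : ℕ) : ℝ := zon n fun t => |t|

/-- Zonal integral operator. -/
noncomputable def Tk {n : ℕ} (κ : ℝ → ℝ) (f : E n → ℝ) (a : E n) : ℝ :=
  ∫ θ, κ ⟪a, (θ : E n)⟫ * f θ ∂sig n

/-- Mean over the sphere. -/
noncomputable def av {n : ℕ} (f : E n → ℝ) : ℝ := ∫ θ, f (θ : E n) ∂sig n

/-- Inner product of `L²` of the sphere. -/
noncomputable def ip {n : ℕ} (f g : E n → ℝ) : ℝ := ∫ θ, f (θ : E n) * g θ ∂sig n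

/-- The Gegenbauer polynomial of degree `2 m`, normalised to be `1` at `t = 1`. -/
noncomputable def Qp (n m : ℕ) (t : ℝ) : ℝ :=
  ∑ i ∈ Finset.range (m + 1), (-1) ^ i * (m.choose i : ℝ) *
    (∏ l ∈ Finset.range i, (2 * (m : ℝ) + n - 2 + 2 * l) / ((n : ℝ) - 1 + 2 * l)) * (1 - t ^ 2) ^ i

/-- The component of `f` of degree `2 m`. -/
noncomputable def comp {n : ℕ} (m : ℕ) (f : E n → ℝ) (a : E n) : ℝ :=
  (zon n fun t => Qp n m t ^ 2)⁻¹ * Tk (Qp n m) f a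

/-- What is left after removing the components of degree at most `2 D`. -/
noncomputable def rest {n : ℕ} (D : ℕ) (f : E n → ℝ) (a : E n) : ℝ :=
  f a - ∑ m ∈ Finset.range (D + 1), comp m f a

/-- The averaging operator with kernel `t^(2j)`. -/
noncomputable def Aop {n : ℕ} (j : ℕ) (f : E n → ℝ) (a : E n) : ℝ :=
  (zon n fun t => t ^ (2 * j))⁻¹ * Tk (fun t => t ^ (2 * j)) f a

/-- Multipliers of `Aop j`. -/
noncomputable def rho (n j m : ℕ) : ℝ :=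
  ∏ l ∈ Finset.range m, (2 * (j : ℝ) - 2 * l) / (2 * (j : ℝ) + n + 2 * l)

/-- Signed multipliers of the bilinear form. -/
noncomputable def gamS (n d m : ℕ) : ℝ :=
  (((n : ℝ) + d - 1) ^ 2 * ∏ l ∈ Finset.range m, (1 - 2 * (l : ℝ)) / ((n : ℝ) + 1 + 2 * l) -
    ((n : ℝ) + 2 * d - 1) * ((n : ℝ) - 1) *
      ∏ l ∈ Finset.range m, (-1 - 2 * (l : ℝ)) / ((n : ℝ) - 1 + 2 * l)) / (d : ℝ) ^ 2

/-- Upper bounds for the absolute values of `gamS`. -/
noncomputable def gam (n d m : ℕ) : ℝ :=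
  (((n : ℝ) + d - 1) ^ 2 * ∏ l ∈ Finset.range m, |1 - 2 * (l : ℝ)| / ((n : ℝ) + 1 + 2 * l) +
    ((n : ℝ) + 2 * d - 1) * ((n : ℝ) - 1) *
      ∏ l ∈ Finset.range m, (1 + 2 * (l : ℝ)) / ((n : ℝ) - 1 + 2 * l)) / (d : ℝ) ^ 2

/-- Weighted energy of the components of degrees `4, 6, ..., 2 D`. -/
noncomputable def Wsum {n : ℕ} (d D : ℕ) (f : E n → ℝ) : ℝ :=
  ∑ m ∈ Finset.Icc 2 D, gam n d m * ip (comp m f) (comp m f)

/-- The one-norm inequality. -/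
def OneNorm (n d : ℕ) : Prop :=
  ∀ N : E n → ℝ, IsNorm N → ∃ ε : ℝ, 0 ≤ ε ∧ ((∃ a b : Sph n, N a ≠ N b) → 0 < ε) ∧
    ∀ D : ℕ, tau d N ^ 2 + ε + Wsum d D (fun x => N x ^ d) ≤ av (fun x => N x ^ d) ^ 2

/-- The second moments of `f` are those of a constant. -/
def Iso {n : ℕ} (f : E n → ℝ) : Prop :=
  ∀ a : E n, ‖a‖ = 1 → ∫ θ, f (θ : E n) * ⟪a, (θ : E n)⟫ ^ 2 ∂sig n = av f / n

/-- The surface vector field of the gauge `g`. -/
noncomputable def YF {n : ℕ} (g : E n → ℝ) (θ : Sph n) : E n :=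
  ((n : ℝ) * kappa n / 2 * (g θ)⁻¹ ^ n) • gradient g θ

/-- `Y` behaves like half of the surface measure of `K`. -/
structure Surf {n : ℕ} (K : Set (E n)) (Y : Sph n → E n) : Prop where
  meas : Measurable Y
  bdd : ∃ C : ℝ, ∀ θ, ‖Y θ‖ ≤ C
  norm : IsNorm (zq Y)
  mink : ∀ q : E n → ℝ, IsNorm q →
    vol ((1 / 2 : ℝ) • (K + Zb q)) ≤
      vol K * Real.exp ((2 * (∫ θ, q (Y θ) ∂sig n) / vol K - n) / 2)

/-- The sharp constant. -/
noncomputable def cP (n : ℕ) : ℝ := kappa (n - 1) ^ n * kappa n ^ ((2 : ℤ) - n)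

end Vale.Agent.P237
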