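import Vale.Agent.P237.CauchyA

open MeasureTheory Metric Set Filter Topology
open scoped RealInnerProductSpace Pointwise ENNReal NNReal

namespace Vale.Agent.P237

variable {n : ℕ}

/-- Fubini along the lines parallel to a unit vector. -/
theorem lintegral_fibre {u : E n} (hu : ‖u‖ = 1) {F : E n → ℝ≥0∞} (hF : Measurable F) :
    ∫⁻ x, F x = ∫⁻ y : ((ℝ ∙ u)ᗮ : Submodule ℝ (E n)), ∫⁻ t : ℝ, F ((y : E n) + t • u) :=
  ca_lfibre hu hF

theorem volume_ball_orth {u : E n} (hu : ‖u‖ = 1) :
    (volume (closedBall (0 : ((ℝ ∙ u)ᗮ : Submodule ℝ (E n))) 1)).toReal = kappa (n - 1) := by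
  have h := (stdOrthonormalBasis ℝ (caH u)).measurePreserving_repr.measure_preimage
    (measurableSet_closedBall (x := 0) (ε := 1)).nullMeasurableSet
  rw [LinearIsometryEquiv.preimage_closedBall, map_zero] at h
  rw [← ca_finrank hu, kappa, ← h]

/-- One half of Cauchy's projection formula. -/
theorem zq_YF_le (hn : 2 ≤ n) {g : E n → ℝ} (hg : IsGauge g) {u : E n} (hu : ‖u‖ = 1) :
    zq (YF g) u ≤ projVol {x | g x ≤ 1} u := by
  have hn0 : 0 < n := by omega
  have hn' : (0 : ℝ) < n := by exact_mod_cast hn0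
  obtain ⟨c, L, -, hL, -, h2, h3⟩ := hg.bounds
  obtain ⟨C, hC⟩ := ga_inv_le hg
  have e1 := setIntegral_star hn0 hg.isCompact.measurableSet (ga_cont_inv hg).measurable
    (fun θ => inv_nonneg.2 (hg.nonneg _)) hC (ga_ray hg) (F := fun x => |⟪gradient g x, u⟫|)
    ((measurable_gradient g).inner measurable_const).abs (B := L * ‖u‖)
    (fun x => by
      rw [abs_abs]
      exact (abs_real_inner_le_norm _ _).trans
        (mul_le_mul_of_nonneg_right (h3 _) (norm_nonneg _)))
    (fun r x hr => by rw [hg.grad_smul hr])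
  have e2 : zq (YF g) u = n / 2 * ∫ x in {x | g x ≤ 1}, |⟪gradient g x, u⟫| := by
    rw [e1, zq, ← mul_assoc, ← integral_const_mul]
    refine integral_congr_ae (Eventually.of_forall fun θ => ?_)
    have := kappa_pos n
    have := ga_pos_sph hg θ
    simp only [YF, real_inner_smul_left, abs_mul]
    rw [abs_of_pos (a := n * kappa n / 2) (by positivity), abs_of_pos (a := (g θ)⁻¹ ^ n)
      (by positivity)]
    ring
  have hc : Continuous fun ε : ℝ => 2 * ((1 + L * ε) ^ n / n) * projVol {x | g x ≤ 1} u := by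
    fun_prop
  have e3 := ge_of_tendsto ((hc.tendsto 0).mono_left (nhdsWithin_le_nhds (s := Ioi 0)))
    (eventually_mem_nhdsWithin.mono fun ε hε => ca_grad hn0 hg hu hL h2 hε)
  rw [e2]
  refine (mul_le_mul_of_nonneg_left e3 (by positivity)).trans (le_of_eq ?_)
  simp only [mul_zero, add_zero, one_pow]
  field_simp

theorem c0_eq (hn : 2 ≤ n) : c0 n = 2 * kappa (n - 1) / (n * kappa n) := by
  have hn0 : 0 < n := by omega
  have hu := norm_e0 hn0
  have hF : Integrable ((closedBall (0 : E n) 1).indicator fun x => |⟪e0 n, x⟫|) :=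
    ((continuous_const.inner continuous_id).abs.continuousOn.integrableOn_compact
      (isCompact_closedBall _ _)).integrable_indicator measurableSet_closedBall
  have e1 := integral_polar hn0 hF
  rw [ca_fibre hu hF] at e1
  have e2 : ∀ θ : Sph n, ∫ r in Ioi (0 : ℝ), r ^ (n - 1) *
      (closedBall (0 : E n) 1).indicator (fun x => |⟪e0 n, x⟫|) (r • (θ : E n)) =
      |⟪e0 n, (θ : E n)⟫| * (1 / (n + 1)) := by
    intro θ
    rw [setIntegral_congr_fun measurableSet_Ioi
      (g := fun r => if r ≤ 1 then |⟪e0 n, (θ : E n)⟫| * r ^ n else 0), ca_rad zero_le_one,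
      intervalIntegral.integral_const_mul, integral_pow]
    · simp
    · intro r hr
      have hr' : (0 : ℝ) < r := hr
      simp only [indicator, mem_closedBall_zero_iff, norm_smul, norm_coe, mul_one,
        Real.norm_of_nonneg hr'.le, real_inner_smul_right, abs_mul, abs_of_pos hr']
      split_ifs
      · rw [← mul_assoc, ← pow_succ, Nat.sub_add_cancel hn0, mul_comm]
      · rw [mul_zero]
  have e3 : ∀ y : caH (e0 n), ∫ t : ℝ,
      (closedBall (0 : E n) 1).indicator (fun x => |⟪e0 n, x⟫|) ((y : E n) + t • e0 n) =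
      (fun a : ℝ => if a ≤ 1 then 1 - a ^ 2 else 0) ‖y‖ := by
    intro y
    have := ca_one_dim ‖y‖
    rw [abs_norm] at this
    beta_reduce
    rw [← this]
    refine integral_congr_ae (Eventually.of_forall fun t => ?_)
    simp only [indicator, mem_closedBall_zero_iff, ca_inner_add hu, ← ca_norm_sq hu,
      sq_le_one_iff₀ (norm_nonneg _)]
  have hnt : Nontrivial (caH (e0 n)) :=
    Module.nontrivial_of_finrank_pos (R := ℝ) (by rw [ca_finrank hu]; omega)
  obtain ⟨m, hm⟩ : ∃ m, n = m + 2 := ⟨n - 2, by omega⟩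
  have e4 : ∫ r in Ioi (0 : ℝ), r ^ (n - 1 - 1) • (if r ≤ 1 then 1 - r ^ 2 else 0) =
      (1 / (m + 1) - 1 / (m + 3) : ℝ) := by
    have : ∀ r : ℝ, r ^ (n - 1 - 1) • (if r ≤ 1 then 1 - r ^ 2 else 0) =
        if r ≤ 1 then r ^ m - r ^ (m + 2) else 0 := by
      intro r
      rw [show n - 1 - 1 = m by omega, smul_eq_mul]
      split_ifs <;> ring
    rw [funext this, ca_rad zero_le_one, intervalIntegral.integral_sub
      ((continuous_pow _).intervalIntegrable _ _) ((continuous_pow _).intervalIntegrable _ _),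
      integral_pow, integral_pow]
    push_cast
    simp only [one_pow, ne_eq, Nat.add_eq_zero_iff, one_ne_zero, and_false, not_false_eq_true,
      zero_pow, sub_zero]
    ring
  rw [funext e2, funext e3,
    integral_fun_norm_addHaar volume fun a : ℝ => if a ≤ 1 then 1 - a ^ 2 else (0 : ℝ), ca_finrank hu, e4, integral_mul_const,
    ← Measure.addHaar_real_closedBall_eq_addHaar_real_ball, measureReal_def,
    volume_ball_orth hu] at e1
  have hk := kappa_pos n
  have e5 : (n : ℝ) = m + 2 := by rw [hm]; push_cast; ring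
  have e6 : ((n - 1 : ℕ) : ℝ) = m + 1 := by rw [Nat.cast_pred hn0, e5]; ring
  rw [nsmul_eq_mul, smul_eq_mul, e6, e5] at e1
  rw [c0, zon, e5, eq_div_iff (by positivity)]
  field_simp at e1
  apply mul_left_cancel₀ (show (m : ℝ) + 3 ≠ 0 by positivity)
  linear_combination -e1

theorem projBody_vadd (a : E n) (K : Set (E n)) :
    projBody ((fun x => a + x) '' K) = projBody K := by
  have h : ∀ u, projVol ((fun x => a + x) '' K) u = projVol K u := by
    intro u
    have e : (caH u).orthogonalProjectionOnto '' ((fun x => a + x) '' K) =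
        (fun y => (caH u).orthogonalProjectionOnto a + y) ''
          ((caH u).orthogonalProjectionOnto '' K) := by
      simp only [image_image, map_add]
    rw [projVol, projVol, e, image_add_left, measure_preimage_add]
  simp only [projBody, h]

theorem isCompact_projBody {K : Set (E n)} (hK : IsCompact K) : IsCompact (projBody K) := by
  obtain ⟨R, hR0, hR⟩ := hK.isBounded.subset_closedBall_lt 0 (0 : E n)
  have hk := kappa_pos (n - 1)
  have h1 : ∀ u : E n, ‖u‖ = 1 → projVol K u ≤ R ^ (n - 1) * kappa (n - 1) := by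
    intro u hu
    rw [← volume_ball_orth hu, ← ca_finrank hu, ← measureReal_def,
      ← Measure.addHaar_real_closedBall' _ (0 : caH u) hR0.le]
    refine measureReal_mono ?_ measure_closedBall_lt_top.ne
    rintro _ ⟨x, hx, rfl⟩
    rw [mem_closedBall_zero_iff]
    exact (Submodule.norm_orthogonalProjectionOnto_apply_le _ x).trans
      (mem_closedBall_zero_iff.1 (hR hx))
  refine (isCompact_closedBall (0 : E n) (R ^ (n - 1) * kappa (n - 1))).of_isClosed_subset ?_
    fun x hx => ?_
  · simp only [projBody, ofPred_forall]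
    exact isClosed_iInter fun u => isClosed_iInter fun _ =>
      isClosed_le (continuous_id.inner continuous_const) continuous_const
  · rw [mem_closedBall_zero_iff]
    by_cases h0 : x = 0
    · rw [h0, norm_zero]; positivity
    · have hp := norm_pos_iff.2 h0
      have hu : ‖‖x‖⁻¹ • x‖ = 1 := by
        rw [norm_smul, norm_inv, norm_norm, inv_mul_cancel₀ hp.ne']
      have h2 := (hx _ hu).trans (h1 _ hu)
      rwa [real_inner_smul_right, real_inner_self_eq_norm_mul_norm, ← mul_assoc,
        inv_mul_cancel₀ hp.ne', one_mul] at h2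

end Vale.Agent.P237
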