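import Vale.Agent.P237.Gauge

open MeasureTheory Metric Set Filter Topology
open scoped RealInnerProductSpace Pointwise ENNReal NNReal

namespace Vale.Agent.P237

variable {n : ℕ}

/-- The hyperplane orthogonal to `u`. -/
noncomputable abbrev caH (u : E n) : Submodule ℝ (E n) := (ℝ ∙ u)ᗮ

theorem ca_mp {u : E n} (hu : ‖u‖ = 1) :
    MeasurePreserving (fun p : caH u × ℝ => (p.1 : E n) + p.2 • u) (volume.prod volume)
      volume := by
  have h1 := ((caH u).measurePreserving_measurableEquivProd (0 : E n)).symm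
  rw [InnerProductSpace.euclideanHausdorffMeasure_eq_volume] at h1
  have h2 := ((LinearIsometryEquiv.toSpanUnitSingleton u hu).trans
    (LinearIsometryEquiv.ofEq (ℝ ∙ u) (caH u)ᗮ
      (Submodule.orthogonal_orthogonal _).symm)).measurePreserving
  have h3 := h1.comp ((MeasurePreserving.id (volume : Measure (caH u))).prod h2)
  refine h3.congr (by fun_prop) (Eventually.of_forall fun p => ?_)
  simp

theorem ca_finrank {u : E n} (hu : ‖u‖ = 1) : Module.finrank ℝ (caH u) = n - 1 := by
  have h0 : u ≠ 0 := fun h => by simp [h] at hu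
  have h := (ℝ ∙ u).finrank_add_finrank_orthogonal
  rw [finrank_span_singleton h0, finrank_euclideanSpace_fin] at h
  exact Nat.eq_sub_of_add_eq' h

theorem ca_inner {u : E n} (y : caH u) : ⟪u, (y : E n)⟫ = 0 :=
  Submodule.mem_orthogonal_singleton_iff_inner_right.1 y.2

theorem ca_inner_add {u : E n} (hu : ‖u‖ = 1) (y : caH u) (t : ℝ) :
    ⟪u, (y : E n) + t • u⟫ = t := by
  rw [inner_add_right, ca_inner, real_inner_smul_right, real_inner_self_eq_norm_sq, hu]; simp

theorem ca_norm_sq {u : E n} (hu : ‖u‖ = 1) (y : caH u) (t : ℝ) :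
    ‖(y : E n) + t • u‖ ^ 2 = ‖y‖ ^ 2 + t ^ 2 := by
  rw [norm_add_sq_real, real_inner_smul_right, real_inner_comm, ca_inner, norm_smul, hu]; simp

theorem ca_proj (u : E n) (y : caH u) (t : ℝ) :
    (caH u).orthogonalProjectionOnto ((y : E n) + t • u) = y := by
  rw [map_add, map_smul, Submodule.orthogonalProjectionOnto_mem_subspace_eq_self,
    Submodule.orthogonalProjectionOnto_orthogonalComplement_singleton_eq_zero]
  simp

theorem ca_proj_eq_zero {u x : E n} :
    (caH u).orthogonalProjectionOnto x = 0 ↔ ∃ t : ℝ, t • u = x := by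
  rw [Submodule.orthogonalProjectionOnto_eq_zero_iff, Submodule.orthogonal_orthogonal,
    Submodule.mem_span_singleton]

theorem ca_lfibre {u : E n} (hu : ‖u‖ = 1) {F : E n → ℝ≥0∞} (hF : Measurable F) :
    ∫⁻ x, F x = ∫⁻ y : caH u, ∫⁻ t : ℝ, F ((y : E n) + t • u) := by
  rw [← (ca_mp hu).lintegral_comp hF]
  exact lintegral_prod _ (hF.comp (ca_mp hu).measurable).aemeasurable

theorem ca_fibre {u : E n} (hu : ‖u‖ = 1) {F : E n → ℝ} (hF : Integrable F) :
    ∫ x, F x = ∫ y : caH u, ∫ t : ℝ, F ((y : E n) + t • u) := by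
  have h := ca_mp hu
  have e : ∫ x, F x = ∫ p : caH u × ℝ, F ((p.1 : E n) + p.2 • u) ∂(volume.prod volume) := by
    rw [← integral_map h.measurable.aemeasurable (by rw [h.map_eq]; exact hF.aestronglyMeasurable),
      h.map_eq]
  rw [e]
  exact integral_prod _ (h.integrable_comp_of_integrable hF)

theorem ca_vol_fibre {u : E n} (hu : ‖u‖ = 1) {S : Set (E n)} (hS : MeasurableSet S) :
    volume S = ∫⁻ y : caH u, volume {t : ℝ | (y : E n) + t • u ∈ S} := by
  rw [← (ca_mp hu).measure_preimage hS.nullMeasurableSet,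
    Measure.prod_apply ((ca_mp hu).measurable hS)]
  rfl

/-- A set with short fibres has small volume. -/
theorem ca_thin {u : E n} (hu : ‖u‖ = 1) {S : Set (E n)} (hS : MeasurableSet S)
    {B : Set (caH u)} (hB : ∀ x ∈ S, (caH u).orthogonalProjectionOnto x ∈ B) {ε : ℝ}
    (h : ∀ (y : E n) (t t' : ℝ), y + t • u ∈ S → y + t' • u ∈ S → t - t' ≤ ε) :
    volume S ≤ ENNReal.ofReal ε * volume B := by
  rw [ca_vol_fibre hu hS]
  refine le_trans (lintegral_mono fun y => ?_) (lintegral_indicator_const_le B _)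
  by_cases hy : y ∈ B
  · rw [indicator_of_mem hy]
    refine (Real.volume_le_diam _).trans (ediam_le fun t ht t' ht' => ?_)
    rw [edist_dist, Real.dist_eq]
    exact ENNReal.ofReal_le_ofReal (abs_sub_le_iff.2 ⟨h _ _ _ ht ht', h _ _ _ ht' ht⟩)
  · have : {t : ℝ | (y : E n) + t • u ∈ S} = ∅ :=
      eq_empty_of_forall_notMem fun t ht => hy (by simpa [ca_proj] using hB _ ht)
    rw [this, measure_empty]; exact zero_le

/-- Volume of a cylinder. -/
theorem ca_cyl {u : E n} (hu : ‖u‖ = 1) {B : Set (caH u)} (hB : MeasurableSet B)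
    (l : E n →L[ℝ] ℝ) (hl : 0 < l u) :
    volume ((caH u).orthogonalProjectionOnto ⁻¹' B ∩ l ⁻¹' Icc (0 : ℝ) 1) =
      ENNReal.ofReal (l u)⁻¹ * volume B := by
  rw [ca_vol_fibre hu (((caH u).orthogonalProjectionOnto.continuous.measurable hB).inter
    (l.continuous.measurable measurableSet_Icc)), ← lintegral_indicator_const hB]
  refine lintegral_congr fun y => ?_
  by_cases hy : y ∈ B
  · have : {t : ℝ | (y : E n) + t • u ∈ (caH u).orthogonalProjectionOnto ⁻¹' B ∩ l ⁻¹' Icc 0 1} =
        Icc (-l y / l u) ((1 - l y) / l u) := by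
      ext t
      simp only [mem_ofPred_eq, mem_inter_iff, mem_preimage, ca_proj, hy, true_and]
      simp only [map_add, map_smul, smul_eq_mul, mem_Icc, div_le_iff₀ hl, le_div_iff₀ hl]
      constructor <;> rintro ⟨h1, h2⟩ <;> constructor <;> linarith
    rw [this, indicator_of_mem hy, Real.volume_Icc]
    congr 1; field_simp; ring
  · have : {t : ℝ | (y : E n) + t • u ∈ (caH u).orthogonalProjectionOnto ⁻¹' B ∩ l ⁻¹' Icc 0 1} =
        ∅ := eq_empty_of_forall_notMem fun t ht => hy (by simpa [ca_proj] using ht.1)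
    rw [this, indicator_of_notMem hy, measure_empty]

theorem ca_rad {s : ℝ} (hs : 0 ≤ s) (φ : ℝ → ℝ) :
    ∫ r in Ioi (0 : ℝ), (if r ≤ s then φ r else 0) = ∫ r in (0 : ℝ)..s, φ r := by
  have : (fun r => if r ≤ s then φ r else 0) = (Iic s).indicator φ := by
    funext r; simp [indicator]
  rw [this, setIntegral_indicator measurableSet_Iic, Ioi_inter_Iic,
    intervalIntegral.integral_of_le hs]

theorem ca_one_dim (a : ℝ) :
    ∫ t : ℝ, (if a ^ 2 + t ^ 2 ≤ 1 then |t| else 0) = if |a| ≤ 1 then 1 - a ^ 2 else 0 := by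
  split_ifs with h
  · have h1 : 0 ≤ 1 - a ^ 2 := by nlinarith [abs_nonneg a, sq_abs a]
    have e : ∀ t : ℝ, (if a ^ 2 + t ^ 2 ≤ 1 then |t| else 0) =
        (fun r => if r ≤ √(1 - a ^ 2) then r else 0) |t| := by
      intro t
      simp only [Real.le_sqrt (abs_nonneg t) h1, sq_abs, le_sub_iff_add_le']
    rw [funext e, integral_comp_abs (f := fun r => if r ≤ √(1 - a ^ 2) then r else 0), ca_rad (Real.sqrt_nonneg _) fun r => r, integral_id,
      Real.sq_sqrt h1]
    ring
  · have e : ∀ t : ℝ, (if a ^ 2 + t ^ 2 ≤ 1 then |t| else 0) = 0 := fun t =>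
      if_neg fun h' => h (by nlinarith [abs_nonneg a, sq_abs a, sq_nonneg t])
    simp [e]

variable {g : E n → ℝ}

theorem ca_level (hg : IsGauge g) {u : E n} (hu : ‖u‖ = 1) (s : ℝ) {r : ℝ} (hr : 0 < r) :
    volume {x | g x ≤ r ∧ r < g (x + s • u)} ≤ ENNReal.ofReal |s| *
      (ENNReal.ofReal (r ^ (n - 1)) *
        volume ((caH u).orthogonalProjectionOnto '' {x | g x ≤ 1})) := by
  have hc := hg.continuous
  rw [← ca_finrank hu, ← Measure.addHaar_smul_of_nonneg _ hr.le]
  have hm : Measurable fun x => g (x + s • u) := by fun_prop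
  refine ca_thin hu ((measurableSet_le hc.measurable measurable_const).inter
    (measurableSet_lt measurable_const hm)) (fun x hx => ?_) fun y t t' h h' => ?_
  · refine ⟨_, ⟨r⁻¹ • x, ?_, rfl⟩, ?_⟩
    · rw [mem_ofPred_eq, hg.smul _ _ (inv_nonneg.2 hr.le), inv_mul_le_iff₀ hr, mul_one]
      exact hx.1
    · simp [hr.ne']
  · by_contra hlt
    rw [not_le] at hlt
    have hcv : ConvexOn ℝ univ fun t : ℝ => g (y + t • u) := by
      have := (ga_convexOn hg).comp_affineMap (AffineMap.lineMap y (y + u))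
      simpa [Function.comp_def, AffineMap.lineMap_apply, add_comm] using this
    have key : ∀ a, a ∈ Icc t' t → g (y + a • u) ≤ r := fun a ha =>
      (hcv.le_max_of_mem_Icc (mem_univ _) (mem_univ _) ha).trans (max_le h'.1 h.1)
    rcases le_total 0 s with hs | hs
    · rw [abs_of_nonneg hs] at hlt
      have := key (t' + s) ⟨by linarith, by linarith⟩
      rw [add_smul, ← add_assoc] at this
      exact absurd h'.2 (not_lt.2 this)
    · rw [abs_of_nonpos hs] at hlt
      have := key (t + s) ⟨by linarith, by linarith⟩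
      rw [add_smul, ← add_assoc] at this
      exact absurd h.2 (not_lt.2 this)

theorem ca_shift (hn : 0 < n) (hg : IsGauge g) {u : E n} (hu : ‖u‖ = 1) (s : ℝ) {R : ℝ}
    (hR0 : 0 ≤ R) (hR : ∀ x, g x ≤ 1 → g (x + s • u) ≤ R) :
    ∫⁻ x in {x | g x ≤ 1}, ENNReal.ofReal (g (x + s • u) - g x) ≤ ENNReal.ofReal |s| *
      (ENNReal.ofReal (R ^ n / n) *
        volume ((caH u).orthogonalProjectionOnto '' {x | g x ≤ 1})) := by
  have hc := hg.continuous
  have hT : MeasurableSet {p : E n × ℝ | g p.1 ≤ p.2 ∧ p.2 < g (p.1 + s • u)} :=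
    (measurableSet_le (by fun_prop) measurable_snd).inter
      (measurableSet_lt measurable_snd (by fun_prop))
  have e1 : ∫⁻ r in Ioc 0 R, ENNReal.ofReal (r ^ (n - 1)) = ENNReal.ofReal (R ^ n / n) := by
    rw [← ofReal_integral_eq_lintegral_ofReal
      ((continuous_pow _).integrableOn_Icc.mono_set Ioc_subset_Icc_self)
      ((ae_restrict_iff' measurableSet_Ioc).2 (Eventually.of_forall fun r hr => pow_nonneg hr.1.le _)),
      ← intervalIntegral.integral_of_le hR0, integral_pow, Nat.sub_add_cancel hn,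
      Nat.cast_pred hn]
    simp [hn.ne']
  calc ∫⁻ x in {x | g x ≤ 1}, ENNReal.ofReal (g (x + s • u) - g x)
      ≤ ∫⁻ x in {x | g x ≤ 1}, volume.restrict (Ioc 0 R)
          (Prod.mk x ⁻¹' {p : E n × ℝ | g p.1 ≤ p.2 ∧ p.2 < g (p.1 + s • u)}) := by
        refine setLIntegral_mono' hg.isCompact.measurableSet fun x hx => ?_
        rw [Measure.restrict_apply' measurableSet_Ioc, ← Real.volume_Ioo]
        exact measure_mono fun r hr => ⟨⟨hr.1.le, hr.2⟩, (hg.nonneg x).trans_lt hr.1,
          hr.2.le.trans (hR x hx)⟩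
    _ ≤ ∫⁻ x, volume.restrict (Ioc 0 R)
          (Prod.mk x ⁻¹' {p : E n × ℝ | g p.1 ≤ p.2 ∧ p.2 < g (p.1 + s • u)}) :=
        setLIntegral_le_lintegral _ _
    _ = ∫⁻ r in Ioc 0 R, volume {x | g x ≤ r ∧ r < g (x + s • u)} := by
        rw [← Measure.prod_apply hT, Measure.prod_apply_symm hT]; rfl
    _ ≤ ∫⁻ r in Ioc 0 R, ENNReal.ofReal |s| * (ENNReal.ofReal (r ^ (n - 1)) *
          volume ((caH u).orthogonalProjectionOnto '' {x | g x ≤ 1})) :=
        setLIntegral_mono' measurableSet_Ioc fun r hr => ca_level hg hu s hr.1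
    _ = _ := by
        rw [lintegral_const_mul _ (by fun_prop), lintegral_mul_const _ (by fun_prop), e1]

theorem ca_sub (hg : IsGauge g) (x z : E n) :
    ENNReal.ofReal ⟪gradient g x, z⟫ ≤ ENNReal.ofReal (g (x + z) - g x) := by
  by_cases hx : DifferentiableAt ℝ g x
  · have h := hg.inner_grad_le x (x + z)
    rw [inner_add_right, hg.euler hx] at h
    exact ENNReal.ofReal_le_ofReal (by linarith)
  · simp [gradient_eq_zero_of_not_differentiableAt hx]

theorem ca_grad (hn : 0 < n) (hg : IsGauge g) {u : E n} (hu : ‖u‖ = 1) {L : ℝ} (hL : 0 < L)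
    (h2 : ∀ x, g x ≤ L * ‖x‖) {ε : ℝ} (hε : 0 < ε) :
    ∫ x in {x | g x ≤ 1}, |⟪gradient g x, u⟫| ≤
      2 * ((1 + L * ε) ^ n / n) * projVol {x | g x ≤ 1} u := by
  have hc := hg.continuous
  have hV : volume ((caH u).orthogonalProjectionOnto '' {x | g x ≤ 1}) ≠ ⊤ :=
    (hg.isCompact.image (caH u).orthogonalProjectionOnto.continuous).measure_lt_top.ne
  have hR : ∀ s : ℝ, |s| = ε → ∀ x, g x ≤ 1 → g (x + s • u) ≤ 1 + L * ε := fun s hs x hx => by
    have := h2 (s • u)
    rw [norm_smul, hu, mul_one, Real.norm_eq_abs, hs] at this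
    exact (hg.add_le _ _).trans (add_le_add hx this)
  have hm : Measurable fun x => |⟪gradient g x, u⟫| :=
    ((measurable_gradient g).inner measurable_const).abs
  have a1 := ca_shift hn hg hu ε (by positivity) (hR ε (abs_of_pos hε))
  have a2 := ca_shift hn hg hu (-ε) (by positivity) (hR (-ε) (by rw [abs_neg, abs_of_pos hε]))
  rw [abs_neg] at a2
  rw [abs_of_pos hε] at a1 a2
  have a3 : ENNReal.ofReal ε * ∫⁻ x in {x | g x ≤ 1}, ENNReal.ofReal |⟪gradient g x, u⟫| ≤
      (∫⁻ x in {x | g x ≤ 1}, ENNReal.ofReal (g (x + ε • u) - g x)) +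
        ∫⁻ x in {x | g x ≤ 1}, ENNReal.ofReal (g (x + (-ε) • u) - g x) := by
    rw [← lintegral_const_mul _ hm.ennreal_ofReal, ← lintegral_add_left (by fun_prop)]
    refine lintegral_mono fun x => ?_
    rw [← ENNReal.ofReal_mul hε.le]
    rcases le_total 0 ⟪gradient g x, u⟫ with h | h
    · rw [abs_of_nonneg h, ← real_inner_smul_right]
      exact (ca_sub hg x _).trans le_self_add
    · rw [abs_of_nonpos h, mul_neg, ← neg_mul, ← real_inner_smul_right]
      exact (ca_sub hg x _).trans le_add_self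
  have a4 := a3.trans (add_le_add a1 a2)
  rw [← mul_add, ENNReal.mul_le_mul_iff_right (by simpa using hε) ENNReal.ofReal_ne_top] at a4
  rw [integral_eq_lintegral_of_nonneg_ae (Eventually.of_forall fun x => abs_nonneg _)
    hm.aestronglyMeasurable]
  have hne := ENNReal.mul_ne_top (ENNReal.ofReal_ne_top (r := (1 + L * ε) ^ n / n)) hV
  refine (ENNReal.toReal_mono (ENNReal.add_ne_top.2 ⟨hne, hne⟩) a4).trans (le_of_eq ?_)
  rw [ENNReal.toReal_add hne hne, ENNReal.toReal_mul, ENNReal.toReal_ofReal (by positivity),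
    projVol]
  ring

end Vale.Agent.P237
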