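import Vale.Agent.P237.OneNorm

namespace Vale.Agent.P237

theorem cert1_4 : Cert1 4 7 1000 (4537 / 5000) (2498127 / 2500000) (31 / 50) (697 / 5000)
    (62 / 125) (43 / 250) (1 / 200) := by
  refine ⟨?_, ?_, ?_, ?_, ?_, ?_, ?_, ?_, ?_, ?_, ?_, ?_, ?_, ?_, ?_, ?_, ?_, ?_, ?_, ?_, ?_⟩
  all_goals
    try simp only [Finset.mem_insert, Finset.mem_singleton, forall_eq_or_imp, forall_eq, bet, rho, gam,
      Finset.prod_range_succ, Finset.prod_range_zero]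
    norm_num [abs_of_nonneg, abs_of_nonpos]

theorem cert1_5 : Cert1 5 9 1000 (1809 / 2000) (4995007 / 5000000) (73 / 100) (629 / 5000)
    (59 / 100) (93 / 500) (1 / 200) := by
  refine ⟨?_, ?_, ?_, ?_, ?_, ?_, ?_, ?_, ?_, ?_, ?_, ?_, ?_, ?_, ?_, ?_, ?_, ?_, ?_, ?_, ?_⟩
  all_goals
    try simp only [Finset.mem_insert, Finset.mem_singleton, forall_eq_or_imp, forall_eq, bet, rho, gam,
      Finset.prod_range_succ, Finset.prod_range_zero]
    norm_num [abs_of_nonneg, abs_of_nonpos]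

theorem cert1_6 : Cert1 6 11 1000 (4513 / 5000) (9987523 / 10000000) (83 / 100) (1179 / 10000)
    (133 / 200) (201 / 1000) (1 / 200) := by
  refine ⟨?_, ?_, ?_, ?_, ?_, ?_, ?_, ?_, ?_, ?_, ?_, ?_, ?_, ?_, ?_, ?_, ?_, ?_, ?_, ?_, ?_⟩
  all_goals
    try simp only [Finset.mem_insert, Finset.mem_singleton, forall_eq_or_imp, forall_eq, bet, rho, gam,
      Finset.prod_range_succ, Finset.prod_range_zero]
    norm_num [abs_of_nonneg, abs_of_nonpos]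

theorem cert1_7 : Cert1 7 14 1000 (4537 / 5000) (9985033 / 10000000) (87 / 100) (67 / 625)
    (727 / 1000) (27 / 125) (1 / 200) := by
  refine ⟨?_, ?_, ?_, ?_, ?_, ?_, ?_, ?_, ?_, ?_, ?_, ?_, ?_, ?_, ?_, ?_, ?_, ?_, ?_, ?_, ?_⟩
  all_goals
    try simp only [Finset.mem_insert, Finset.mem_singleton, forall_eq_or_imp, forall_eq, bet, rho, gam,
      Finset.prod_range_succ, Finset.prod_range_zero]
    norm_num [abs_of_nonneg, abs_of_nonpos]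

theorem cert1_8 : Cert1 8 17 1000 (4553 / 5000) (1996509 / 2000000) (91 / 100) (999 / 10000)
    (389 / 500) (29 / 125) (1 / 200) := by
  refine ⟨?_, ?_, ?_, ?_, ?_, ?_, ?_, ?_, ?_, ?_, ?_, ?_, ?_, ?_, ?_, ?_, ?_, ?_, ?_, ?_, ?_⟩
  all_goals
    try simp only [Finset.mem_insert, Finset.mem_singleton, forall_eq_or_imp, forall_eq, bet, rho, gam,
      Finset.prod_range_succ, Finset.prod_range_zero]
    norm_num [abs_of_nonneg, abs_of_nonpos]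

theorem cert1_9 : Cert1 9 22 1000 (4599 / 5000) (9980059 / 10000000) (23 / 25) (453 / 5000)
    (411 / 500) (31 / 125) (1 / 200) := by
  refine ⟨?_, ?_, ?_, ?_, ?_, ?_, ?_, ?_, ?_, ?_, ?_, ?_, ?_, ?_, ?_, ?_, ?_, ?_, ?_, ?_, ?_⟩
  all_goals
    try simp only [Finset.mem_insert, Finset.mem_singleton, forall_eq_or_imp, forall_eq, bet, rho, gam,
      Finset.prod_range_succ, Finset.prod_range_zero]
    norm_num [abs_of_nonneg, abs_of_nonpos]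

theorem cert1_10 : Cert1 10 27 1000 (4629 / 5000) (399103 / 400000) (93 / 100) (52 / 625)
    (43 / 50) (53 / 200) (1 / 200) := by
  refine ⟨?_, ?_, ?_, ?_, ?_, ?_, ?_, ?_, ?_, ?_, ?_, ?_, ?_, ?_, ?_, ?_, ?_, ?_, ?_, ?_, ?_⟩
  all_goals
    try simp only [Finset.mem_insert, Finset.mem_singleton, forall_eq_or_imp, forall_eq, bet, rho, gam,
      Finset.prod_range_succ, Finset.prod_range_zero]
    norm_num [abs_of_nonneg, abs_of_nonpos]

theorem cert1_11 : Cert1 11 30 1000 (4629 / 5000) (9975093 / 10000000) (24 / 25) (401 / 5000)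
    (223 / 250) (71 / 250) (1 / 200) := by
  refine ⟨?_, ?_, ?_, ?_, ?_, ?_, ?_, ?_, ?_, ?_, ?_, ?_, ?_, ?_, ?_, ?_, ?_, ?_, ?_, ?_, ?_⟩
  all_goals
    try simp only [Finset.mem_insert, Finset.mem_singleton, forall_eq_or_imp, forall_eq, bet, rho, gam,
      Finset.prod_range_succ, Finset.prod_range_zero]
    norm_num [abs_of_nonneg, abs_of_nonpos]


theorem gam22 {n : ℕ} (hn : 2 ≤ n) :
    gam n 2 2 = ((n : ℝ) ^ 2 + 5 * n + 7) / (((n : ℝ) + 1) * ((n : ℝ) + 3)) := by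
  have h : (2 : ℝ) ≤ n := by exact_mod_cast hn
  have h1 : (n : ℝ) - 1 ≠ 0 := by linarith
  have h2 : (n : ℝ) - 1 + 2 ≠ 0 := by linarith
  have h3 : (n : ℝ) + 1 ≠ 0 := by linarith
  have h4 : (n : ℝ) + 3 ≠ 0 := by linarith
  have h5 : (n : ℝ) + 1 + 2 ≠ 0 := by linarith
  simp only [gam, Finset.prod_range_succ, Finset.prod_range_zero]
  norm_num [abs_of_nonneg, abs_of_nonpos]
  field_simp
  ring

theorem gam23 {n : ℕ} (hn : 2 ≤ n) :
    gam n 2 3 = (3 * ((n : ℝ) + 1) / (((n : ℝ) + 3) * ((n : ℝ) + 5)) + 15 / ((n : ℝ) + 1)) / 4 := by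
  have h : (2 : ℝ) ≤ n := by exact_mod_cast hn
  have h1 : (n : ℝ) - 1 ≠ 0 := by linarith
  have h2 : (n : ℝ) - 1 + 2 ≠ 0 := by linarith
  have h3 : (n : ℝ) + 1 ≠ 0 := by linarith
  have h4 : (n : ℝ) + 3 ≠ 0 := by linarith
  have h5 : (n : ℝ) + 1 + 2 ≠ 0 := by linarith
  have h6 : (n : ℝ) + 5 ≠ 0 := by linarith
  have h7 : (n : ℝ) + 1 + 4 ≠ 0 := by linarith
  have h8 : (n : ℝ) - 1 + 4 ≠ 0 := by linarith
  simp only [gam, Finset.prod_range_succ, Finset.prod_range_zero]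
  norm_num [abs_of_nonneg, abs_of_nonpos]
  field_simp
  ring

theorem bet_t2_one {n : ℕ} (hn : 2 ≤ n) (j : ℕ) : bet n j (t2 n j) 1 = 1 / ((n : ℝ) - 1) := by
  have h : (2 : ℝ) ≤ n := by exact_mod_cast hn
  have hj : (0 : ℝ) ≤ j := Nat.cast_nonneg j
  have h1 : (n : ℝ) - 1 ≠ 0 := by linarith
  have h2 : 2 * (j : ℝ) + n ≠ 0 := by linarith
  have h3 : 1 - (2 * (j : ℝ) + 1) / (2 * (j : ℝ) + n) = ((n : ℝ) - 1) / (2 * (j : ℝ) + n) := by
    field_simp; ring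
  simp only [bet, rho, t2, Finset.prod_range_succ, Finset.prod_range_zero, h3]
  norm_num
  field_simp
  ring

theorem bet_t2_two {n : ℕ} (hn : 2 ≤ n) (j : ℕ) : bet n j (t2 n j) 2 =
    (((n : ℝ) + 5) - ((n : ℝ) + 2) * ((n : ℝ) + 4) / (2 * (j : ℝ) + n + 2)) / ((n : ℝ) - 1) := by
  have h : (2 : ℝ) ≤ n := by exact_mod_cast hn
  have hj : (0 : ℝ) ≤ j := Nat.cast_nonneg j
  have h1 : (n : ℝ) - 1 ≠ 0 := by linarith
  have h2 : 2 * (j : ℝ) + n ≠ 0 := by linarith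
  have h4 : 2 * (j : ℝ) + n + 2 ≠ 0 := by linarith
  have h3 : 1 - (2 * (j : ℝ) + 1) / (2 * (j : ℝ) + n) = ((n : ℝ) - 1) / (2 * (j : ℝ) + n) := by
    field_simp; ring
  simp only [bet, rho, t2, Finset.prod_range_succ, Finset.prod_range_zero, h3]
  norm_num
  field_simp
  ring


theorem cert2_lo {x : ℝ} (hx : 12 ≤ x) :
    1 / (200 * x) + (x ^ 2 + 5 * x + 7) / ((x + 1) * (x + 3)) -
      (1 - 1 / 2) * ((((x + 5) - (x + 2) * (x + 4) / (3 * x + 8)) / (x - 1)) / 4 -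
        (((x + 5) - (x + 2) * (x + 4) / (3 * x + 8)) / (x - 1)) ^ 2 / 12) ≤
      1 * (((x + 5) - 2 * (x + 2) * (x + 4) / (x ^ 2 + 1)) / (x - 1)) -
        2 / x * (((x + 5) - 2 * (x + 2) * (x + 4) / (x ^ 2 + 1)) / (x - 1)) ^ 2 := by
  obtain ⟨z, hz, rfl⟩ : ∃ z : ℝ, 0 ≤ z ∧ x = z + 12 := ⟨x - 12, by linarith, by ring⟩
  rw [← sub_nonneg]
  have h1 : z + 12 - 1 ≠ 0 := by linarith
  have h2 : z + 12 ≠ 0 := by linarith
  have h3 : z + 12 + 1 ≠ 0 := by linarith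
  have h4 : z + 12 + 3 ≠ 0 := by linarith
  have h5 : 3 * (z + 12) + 8 ≠ 0 := by linarith
  have h6 : (z + 12) ^ 2 + 1 ≠ 0 := by positivity
  have h7 : 0 < z + 12 - 1 := by linarith
  have key : 1 * ((z + 12 + 5 - 2 * (z + 12 + 2) * (z + 12 + 4) / ((z + 12) ^ 2 + 1)) / (z + 12 - 1)) -
        2 / (z + 12) *
          ((z + 12 + 5 - 2 * (z + 12 + 2) * (z + 12 + 4) / ((z + 12) ^ 2 + 1)) / (z + 12 - 1)) ^ 2 -
      (1 / (200 * (z + 12)) + ((z + 12) ^ 2 + 5 * (z + 12) + 7) / ((z + 12 + 1) * (z + 12 + 3)) -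
        (1 - 1 / 2) *
          ((z + 12 + 5 - (z + 12 + 2) * (z + 12 + 4) / (3 * (z + 12) + 8)) / (z + 12 - 1) / 4 -
            ((z + 12 + 5 - (z + 12 + 2) * (z + 12 + 4) / (3 * (z + 12) + 8)) / (z + 12 - 1)) ^ 2 / 12)) =
      (14351280390000 + 142562097137400 * z + 101218227953975 * z ^ 2 + 32945391188976 * z ^ 3 +
        6336215056091 * z ^ 4 + 793103406310 * z ^ 5 + 67310110681 * z ^ 6 + 3912006202 * z ^ 7 +
        153242605 * z ^ 8 + 3854762 * z ^ 9 + 55848 * z ^ 10 + 350 * z ^ 11) /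
      (600 * ((z + 12) * (z + 12 - 1) ^ 2 * ((z + 12) ^ 2 + 1) ^ 2 * (3 * (z + 12) + 8) ^ 2 *
        (z + 12 + 1) * (z + 12 + 3))) := by
    field_simp
    ring
  rw [key]
  positivity

theorem cert2_mono {x b lo : ℝ} (hx : 12 ≤ x) (h1 : lo ≤ b) (h2 : b ≤ (x + 5) / (x - 1)) :
    1 * lo - 2 / x * lo ^ 2 ≤ b - 2 / x * b ^ 2 := by
  have hx1 : 0 < x - 1 := by linarith
  have h3 : (x + 5) / (x - 1) ≤ x / 4 := by
    rw [div_le_div_iff₀ hx1 (by norm_num)]; nlinarith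
  have h4 : 2 / x * (b + lo) ≤ 1 := by
    rw [div_mul_eq_mul_div, div_le_one (by linarith)]; linarith
  have h5 : 0 ≤ (b - lo) * (1 - 2 / x * (b + lo)) := mul_nonneg (by linarith) (by linarith)
  nlinarith

theorem cert2_gam3 {x : ℝ} (hx : 12 ≤ x) :
    1 / (200 * x) + (3 * (x + 1) / ((x + 3) * (x + 5)) + 15 / (x + 1)) / 4 ≤ 2 / 5 := by
  have h1 : 1 / (200 * x) ≤ 1 / 100 := by
    rw [div_le_div_iff₀ (by linarith) (by norm_num)]; linarith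
  have h2 : 3 * (x + 1) / ((x + 3) * (x + 5)) ≤ 1 / 5 := by
    rw [div_le_div_iff₀ (by nlinarith) (by norm_num)]; nlinarith
  have h3 : 15 / (x + 1) ≤ 15 / 13 := by
    rw [div_le_div_iff₀ (by linarith) (by norm_num)]; linarith
  linarith

theorem cert2_hi {x : ℝ} (hx : 12 ≤ x) :
    2 / 5 ≤ 1 * ((x ^ 2 / 2 - x + 1) / (x - 1)) - 2 / x * ((x ^ 2 / 2 - x + 1) / (x - 1)) ^ 2 := by
  have h1 : x - 1 ≠ 0 := by linarith
  have h2 : x ≠ 0 := by linarith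
  have key : 1 * ((x ^ 2 / 2 - x + 1) / (x - 1)) - 2 / x * ((x ^ 2 / 2 - x + 1) / (x - 1)) ^ 2 =
      (x ^ 2 - 2 * x + 2) * (x - 2) / (2 * x * (x - 1) ^ 2) := by
    field_simp
    ring
  rw [key, div_le_div_iff₀ (by norm_num) (by positivity)]
  obtain ⟨z, hz, rfl⟩ : ∃ z : ℝ, 0 ≤ z ∧ x = z + 12 := ⟨x - 12, by linarith, by ring⟩
  have h3 : 0 ≤ z ^ 2 := by positivity
  have h4 : 0 ≤ z ^ 3 := by positivity
  nlinarith

theorem cert2_Q {x : ℝ} (hx : 12 ≤ x) :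
    (x ^ 2 + 5 * x + 7) / ((x + 1) * (x + 3)) ≤ 1 / 2 *
      (((4 * (1 - (x + 1) / (2 * x + 1) ^ 2) - 1) / 3 -
        2 * (x * (x - 1)) / (2 * (x * (x - 1)) + x) *
          ((2 * (x * (x - 1)) - 2) / (2 * (x * (x - 1)) + x + 2))) /
        (1 - (4 * (1 - (x + 1) / (2 * x + 1) ^ 2) - 1) / 3)) := by
  obtain ⟨z, hz, rfl⟩ : ∃ z : ℝ, 0 ≤ z ∧ x = z + 12 := ⟨x - 12, by linarith, by ring⟩
  rw [← sub_nonneg]
  have h0 : 1 - (4 * (1 - (z + 12 + 1) / (2 * (z + 12) + 1) ^ 2) - 1) / 3 =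
      4 * (z + 12 + 1) / (3 * (2 * (z + 12) + 1) ^ 2) := by
    field_simp
    ring
  rw [h0]
  have h1 : 2 * ((z + 12) * (z + 12 - 1)) + (z + 12) = (z + 12) * (2 * z + 23) := by ring
  have h2 : (z + 12) * (2 * z + 23) + 2 ≠ 0 := by positivity
  rw [h1]
  have key : 1 / 2 * (((4 * (1 - (z + 12 + 1) / (2 * (z + 12) + 1) ^ 2) - 1) / 3 -
        2 * ((z + 12) * (z + 12 - 1)) / ((z + 12) * (2 * z + 23)) *
          ((2 * ((z + 12) * (z + 12 - 1)) - 2) / ((z + 12) * (2 * z + 23) + 2))) /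
        (4 * (z + 12 + 1) / (3 * (2 * (z + 12) + 1) ^ 2))) -
      ((z + 12) ^ 2 + 5 * (z + 12) + 7) / ((z + 12 + 1) * (z + 12 + 3)) =
      (1938358 * z ^ 0 + 617223 * z ^ 1 + 73399 * z ^ 2 + 3864 * z ^ 3 + 76 * z ^ 4) / (8 * (z + 13) * (z + 15) * (2 * z + 23) * ((z + 12) * (2 * z + 23) + 2)) := by
    field_simp
    ring
  rw [key]
  positivity

theorem cert2_all {n : ℕ} (hn : 12 ≤ n) :
    Cert2 n ((n ^ 2 - 2 * n) / 4) (n * (n - 1)) (n + 3) (1 - ((n : ℝ) + 1) / (2 * n + 1) ^ 2)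
      (1 / 2) (1 / (200 * n)) := by
  have hn2 : 2 ≤ n := by omega
  have hx : (12 : ℝ) ≤ n := by exact_mod_cast hn
  have hx1 : (0 : ℝ) < n - 1 := by linarith
  have hj' : ((n * (n - 1) : ℕ) : ℝ) = (n : ℝ) * (n - 1) := by
    rw [Nat.cast_mul, Nat.cast_sub (by omega)]; simp
  set j := (n ^ 2 - 2 * n) / 4 with hj
  have hle : 2 * n ≤ n ^ 2 := by nlinarith
  have hj1 : 4 * (j : ℝ) ≤ (n : ℝ) ^ 2 - 2 * n := by
    have : 4 * j + 2 * n ≤ n ^ 2 := by omega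
    have h2 : ((4 * j + 2 * n : ℕ) : ℝ) ≤ ((n ^ 2 : ℕ) : ℝ) := by exact_mod_cast this
    push_cast at h2; linarith
  have hj2 : (n : ℝ) ^ 2 - 2 * n - 3 ≤ 4 * (j : ℝ) := by
    have : n ^ 2 ≤ 4 * j + 2 * n + 3 := by omega
    have h2 : ((n ^ 2 : ℕ) : ℝ) ≤ ((4 * j + 2 * n + 3 : ℕ) : ℝ) := by exact_mod_cast this
    push_cast at h2; linarith
  have hj0 : (0 : ℝ) ≤ j := Nat.cast_nonneg j
  have hτ : 1 - t2 n j = ((n : ℝ) - 1) / (2 * (j : ℝ) + n) := by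
    unfold t2; field_simp; ring
  have hτp : 0 < 1 - t2 n j := by rw [hτ]; positivity
  have hlo : (((n : ℝ) + 5) - 2 * ((n : ℝ) + 2) * ((n : ℝ) + 4) / ((n : ℝ) ^ 2 + 1)) / ((n : ℝ) - 1) ≤
      bet n j (t2 n j) 2 := by
    rw [bet_t2_two hn2]
    refine div_le_div_of_nonneg_right ?_ hx1.le
    have : ((n : ℝ) + 2) * ((n : ℝ) + 4) / (2 * (j : ℝ) + n + 2) ≤
        2 * ((n : ℝ) + 2) * ((n : ℝ) + 4) / ((n : ℝ) ^ 2 + 1) := by
      rw [div_le_div_iff₀ (by positivity) (by positivity)]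
      have h3 : 0 ≤ ((n : ℝ) + 2) * ((n : ℝ) + 4) := by positivity
      nlinarith
    linarith
  have hhi : bet n j (t2 n j) 2 ≤ ((n : ℝ) + 5) / ((n : ℝ) - 1) := by
    rw [bet_t2_two hn2]
    refine div_le_div_of_nonneg_right ?_ hx1.le
    have : 0 ≤ ((n : ℝ) + 2) * ((n : ℝ) + 4) / (2 * (j : ℝ) + n + 2) := by positivity
    linarith
  have hone : 1 ≤ (((n : ℝ) + 5) - 2 * ((n : ℝ) + 2) * ((n : ℝ) + 4) / ((n : ℝ) ^ 2 + 1)) /
      ((n : ℝ) - 1) := by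
    rw [le_div_iff₀ hx1]
    have : 2 * ((n : ℝ) + 2) * ((n : ℝ) + 4) / ((n : ℝ) ^ 2 + 1) ≤ 6 := by
      rw [div_le_iff₀ (by positivity)]; nlinarith
    linarith
  have hinf : (2 * (j : ℝ) + 1) / ((n : ℝ) - 1) ≤ ((n : ℝ) ^ 2 / 2 - n + 1) / ((n : ℝ) - 1) :=
    div_le_div_of_nonneg_right (by linarith) hx1.le
  have h23 : bet n j (t2 n j) 2 ≤ bet n j (t2 n j) 3 := by
    unfold bet
    exact div_le_div_of_nonneg_right (by linarith [rho_anti hn2 j (show 2 ≤ 3 by norm_num)]) hτp.le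
  have h3i : bet n j (t2 n j) 3 ≤ (2 * (j : ℝ) + 1) / ((n : ℝ) - 1) := by
    have : (2 * (j : ℝ) + 1) / ((n : ℝ) - 1) = t2 n j / (1 - t2 n j) := by
      rw [hτ]; unfold t2; field_simp
    rw [this]; unfold bet
    exact div_le_div_of_nonneg_right (by linarith [rho_nonneg hn2 j 3]) hτp.le
  have hg1 : (2 : ℝ) / 5 ≤ 1 * 1 - 2 / (n : ℝ) * 1 ^ 2 := by
    have : 2 / (n : ℝ) ≤ 2 / 12 := by
      rw [div_le_div_iff₀ (by linarith) (by norm_num)]; linarith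
    linarith
  have hq : (0 : ℝ) ≤ 2 / n := by positivity
  refine ⟨?_, ?_, by positivity, by norm_num, by norm_num, ?_, ?_, ?_, ?_, ?_, ?_, ?_⟩
  · rw [hj']
    have h1 : (1 - ((n : ℝ) + 1) / (2 * n + 1) ^ 2) ^ 2 * (2 * n + 1) ≤ 2 * n := by
      have : (1 - ((n : ℝ) + 1) / (2 * n + 1) ^ 2) ^ 2 * (2 * n + 1) =
          2 * n - (3 * (n : ℝ) ^ 2 + 2 * n) / (2 * n + 1) ^ 3 := by
        field_simp; ring
      rw [this]
      have : 0 ≤ (3 * (n : ℝ) ^ 2 + 2 * n) / (2 * n + 1) ^ 3 := by positivity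
      linarith
    nlinarith
  · have : 0 < ((n : ℝ) + 1) / (2 * n + 1) ^ 2 := by positivity
    linarith
  · have h0 : 1 - (4 * (1 - ((n : ℝ) + 1) / (2 * n + 1) ^ 2) - 1) / 3 =
        4 * ((n : ℝ) + 1) / (3 * (2 * n + 1) ^ 2) := by
      field_simp; ring
    simp only [bet, rho, Finset.prod_range_succ, Finset.prod_range_zero, hj', h0]
    refine div_nonneg ?_ (by positivity)
    have h1 : 1 * ((2 * ((n : ℝ) * (n - 1)) - 2 * ((0 : ℕ) : ℝ)) /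
        (2 * ((n : ℝ) * (n - 1)) + n + 2 * ((0 : ℕ) : ℝ))) = 1 - 1 / (2 * n - 1) := by
      have h2 : 2 * (n : ℝ) - 1 ≠ 0 := by linarith
      have h3 : 2 * ((n : ℝ) * (n - 1)) + n + 2 * ((0 : ℕ) : ℝ) = n * (2 * n - 1) := by
        simp; ring
      rw [h3]; simp; field_simp; ring
    rw [h1]
    have h2 : 4 * ((n : ℝ) + 1) / (3 * (2 * n + 1) ^ 2) ≤ 1 / (2 * n - 1) := by
      rw [div_le_div_iff₀ (by positivity) (by linarith)]; nlinarith
    linarith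
  · rw [gam22 hn2]
    simp only [bet, rho, Finset.prod_range_succ, Finset.prod_range_zero, hj']
    have := cert2_Q hx
    simpa using this
  · push_cast; linarith
  · rw [bet_t2_one hn2]
    have h1 : 1 / ((n : ℝ) - 1) - 2 / (n : ℝ) * (1 / ((n : ℝ) - 1)) ^ 2 - 1 / (200 * n) =
        (200 * (n * (n - 1) - 2) - ((n : ℝ) - 1) ^ 2) / (200 * n * (n - 1) ^ 2) := by
      field_simp
    have h2 : 0 ≤ (200 * (n * (n - 1) - 2) - ((n : ℝ) - 1) ^ 2) / (200 * n * (n - 1) ^ 2) :=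
      div_nonneg (by nlinarith) (by positivity)
    linarith
  · rw [gam22 hn2, bet_t2_two hn2 (n + 3)]
    have h1 := cert2_lo hx
    have h2 := cert2_mono hx hlo hhi
    have h3 : 2 * ((n + 3 : ℕ) : ℝ) + n + 2 = 3 * n + 8 := by push_cast; ring
    rw [h3]
    linarith
  · rw [gam23 hn2]
    have h1 := quad_between hq hg1 (cert2_hi hx) (hone.trans (hlo.trans h23)) (h3i.trans hinf)
    linarith [cert2_gam3 hx]
  · rw [gam23 hn2]
    have h1 := quad_between hq hg1 (cert2_hi hx) (hone.trans (hlo.trans (h23.trans h3i))) hinf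
    linarith [cert2_gam3 hx]

theorem oneNorm_exists {n : ℕ} (hn : 4 ≤ n) : ∃ d : ℕ, 1 ≤ d ∧ OneNorm n d := by
  by_cases h : 12 ≤ n
  · exact ⟨2, by norm_num, oneNorm_of_cert2 (by omega) (cert2_all h)⟩
  · refine ⟨1, le_rfl, ?_⟩
    have h' : n < 12 := by omega
    interval_cases n
    · exact oneNorm_of_cert1 (by norm_num) cert1_4
    · exact oneNorm_of_cert1 (by norm_num) cert1_5
    · exact oneNorm_of_cert1 (by norm_num) cert1_6
    · exact oneNorm_of_cert1 (by norm_num) cert1_7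
    · exact oneNorm_of_cert1 (by norm_num) cert1_8
    · exact oneNorm_of_cert1 (by norm_num) cert1_9
    · exact oneNorm_of_cert1 (by norm_num) cert1_10
    · exact oneNorm_of_cert1 (by norm_num) cert1_11

end Vale.Agent.P237
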