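import Mathlib

open MeasureTheory Metric
open scoped RealInnerProductSpace

namespace Vale.Agent.P237

/-- The volume of the Euclidean unit ball of dimension `m`. -/
noncomputable def kappa (m : ℕ) : ℝ :=
  (volume (closedBall (0 : EuclideanSpace ℝ (Fin m)) 1)).toReal

/-- A convex body: a compact convex set with nonempty interior. -/
def IsConvexBody {n : ℕ} (K : Set (EuclideanSpace ℝ (Fin n))) : Prop :=
  IsCompact K ∧ Convex ℝ K ∧ (interior K).Nonempty

/-- The volume, inside the hyperplane orthogonal to `u`, of the orthogonal projection of `K`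
onto that hyperplane. -/
noncomputable def projVol {n : ℕ} (K : Set (EuclideanSpace ℝ (Fin n)))
    (u : EuclideanSpace ℝ (Fin n)) : ℝ :=
  (volume ((ℝ ∙ u)ᗮ.orthogonalProjectionOnto '' K)).toReal

/-- The projection body: the convex body whose support function at each unit vector `u` is
`projVol K u`, written as the intersection of its supporting half-spaces. -/
def projBody {n : ℕ} (K : Set (EuclideanSpace ℝ (Fin n))) : Set (EuclideanSpace ℝ (Fin n)) :=
  {x | ∀ u : EuclideanSpace ℝ (Fin n), ‖u‖ = 1 → ⟪x, u⟫ ≤ projVol K u}

/-- An ellipsoid: a translate of an invertible linear image of the Euclidean unit ball. -/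
def IsEllipsoid {n : ℕ} (K : Set (EuclideanSpace ℝ (Fin n))) : Prop :=
  ∃ (a : EuclideanSpace ℝ (Fin n))
    (T : EuclideanSpace ℝ (Fin n) ≃ₗ[ℝ] EuclideanSpace ℝ (Fin n)),
    K = (fun x => a + T x) '' closedBall 0 1

end Vale.Agent.P237
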