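import Vale.Agent.P237.Cauchy

open MeasureTheory Metric Set Filter Topology
open scoped RealInnerProductSpace Pointwise ENNReal NNReal

namespace Vale.Agent.P237

variable {n : ℕ}

theorem el_proj_iff {u x : E n} {K : Set (E n)} :
    (caH u).orthogonalProjectionOnto x ∈ (caH u).orthogonalProjectionOnto '' K ↔
      ∃ t : ℝ, x - t • u ∈ K := by
  constructor
  · rintro ⟨y, hy, h⟩
    obtain ⟨t, ht⟩ := ca_proj_eq_zero.1
      (show (caH u).orthogonalProjectionOnto (x - y) = 0 by rw [map_sub, h, sub_self])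
    exact ⟨t, by rwa [ht, sub_sub_cancel]⟩
  · rintro ⟨t, ht⟩
    refine ⟨_, ht, ?_⟩
    rw [map_sub, ca_proj_eq_zero.2 ⟨t, rfl⟩, sub_zero]

theorem el_proj_ball (u : E n) :
    (caH u).orthogonalProjectionOnto '' closedBall 0 1 = closedBall 0 1 := by
  ext y
  constructor
  · rintro ⟨x, hx, rfl⟩
    rw [mem_closedBall_zero_iff] at hx ⊢
    exact (Submodule.norm_orthogonalProjectionOnto_apply_le _ x).trans hx
  · intro hy
    exact ⟨y, by simpa using hy, Submodule.orthogonalProjectionOnto_mem_subspace_eq_self y⟩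

theorem projVol_ellipsoid (hn : 2 ≤ n) (T : E n ≃ₗ[ℝ] E n) {u : E n} (hu : ‖u‖ = 1) :
    projVol (T '' closedBall 0 1) u =
      |LinearMap.det (T : E n →ₗ[ℝ] E n)| * ‖T.symm u‖ * kappa (n - 1) := by
  have h0 : T.symm u ≠ 0 := fun h => by
    rw [LinearEquiv.map_eq_zero_iff] at h
    simp [h] at hu
  have hp := norm_pos_iff.2 h0
  obtain ⟨w, hw⟩ : ∃ w, w = ‖T.symm u‖⁻¹ • T.symm u := ⟨_, rfl⟩
  have hw1 : ‖w‖ = 1 := by rw [hw, norm_smul, norm_inv, norm_norm, inv_mul_cancel₀ hp.ne']
  have hTw : T w = ‖T.symm u‖⁻¹ • u := by rw [hw, map_smul, LinearEquiv.apply_symm_apply]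
  have huu : ⟪u, u⟫ = 1 := by rw [real_inner_self_eq_norm_sq, hu]; simp
  have hT : Continuous T := T.toContinuousLinearEquiv.continuous
  have hB : IsCompact ((caH u).orthogonalProjectionOnto '' (T '' closedBall 0 1)) :=
    ((isCompact_closedBall _ _).image hT).image (caH u).orthogonalProjectionOnto.continuous
  have e1 := ca_cyl hu hB.measurableSet (innerSL ℝ u) (by simp [hu])
  have e2 := ca_cyl hw1 (measurableSet_closedBall (x := 0) (ε := 1))
    ((innerSL ℝ u).comp T.toContinuousLinearEquiv.toContinuousLinearMap)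
    (by simp [hTw, hu, hp])
  have e3 : (caH u).orthogonalProjectionOnto ⁻¹'
      ((caH u).orthogonalProjectionOnto '' (T '' closedBall 0 1)) ∩ innerSL ℝ u ⁻¹' Icc (0 : ℝ) 1 =
      (T : E n →ₗ[ℝ] E n) '' ((caH w).orthogonalProjectionOnto ⁻¹' closedBall 0 1 ∩
        (innerSL ℝ u).comp T.toContinuousLinearEquiv.toContinuousLinearMap ⁻¹' Icc (0 : ℝ) 1) := by
    rw [← el_proj_ball w, LinearEquiv.coe_coe, LinearEquiv.image_eq_preimage_symm,
      LinearEquiv.image_eq_preimage_symm]
    ext x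
    simp only [mem_inter_iff, mem_preimage, el_proj_iff, map_sub, map_smul]
    refine and_congr ⟨?_, ?_⟩ (by simp)
    · rintro ⟨t, ht⟩
      exact ⟨t * ‖T.symm u‖, by rwa [hw, smul_smul, mul_inv_cancel_right₀ hp.ne']⟩
    · rintro ⟨t, ht⟩
      exact ⟨t * ‖T.symm u‖⁻¹, by rwa [hw, smul_smul] at ht⟩
  rw [e3, Measure.addHaar_image_linearMap, e2] at e1
  have e4 := congrArg ENNReal.toReal e1
  simp only [ENNReal.toReal_mul, volume_ball_orth hw1] at e4
  rw [ENNReal.toReal_ofReal (abs_nonneg _), ENNReal.toReal_ofReal (by simp [hTw, hu]),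
    ENNReal.toReal_ofReal (by simp)] at e4
  simp only [ContinuousLinearMap.comp_apply, ContinuousLinearEquiv.coe_coe,
    LinearEquiv.coe_toContinuousLinearEquiv', hTw, innerSL_apply_apply, real_inner_smul_right,
    huu, mul_one, inv_inv, inv_one, one_mul] at e4
  rw [projVol, ← e4, mul_assoc]

theorem el_det_adjoint (T : E n →ₗ[ℝ] E n) :
    LinearMap.det (LinearMap.adjoint T) = LinearMap.det T := by
  rw [← LinearMap.det_toMatrix (EuclideanSpace.basisFun (Fin n) ℝ).toBasis,
    ← LinearMap.det_toMatrix (EuclideanSpace.basisFun (Fin n) ℝ).toBasis T,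
    LinearMap.toMatrix_adjoint, Matrix.det_conjTranspose, star_trivial]

theorem vol_projBody_ellipsoid (hn : 2 ≤ n) {K : Set (E n)} (hK : IsEllipsoid K) :
    vol (projBody K) = cP n * vol K ^ (n - 1) := by
  obtain ⟨a, T, rfl⟩ := hK
  have hd : LinearMap.det (T : E n →ₗ[ℝ] E n) ≠ 0 := (LinearEquiv.isUnit_det' T).ne_zero
  have hd' := abs_pos.2 hd
  have hk := kappa_pos n
  have hk' := kappa_pos (n - 1)
  rw [← image_image (fun x => a + x) T, projBody_vadd]
  have e1 : projBody (T '' closedBall 0 1) = LinearMap.adjoint (T : E n →ₗ[ℝ] E n) ⁻¹'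
      closedBall 0 (|LinearMap.det (T : E n →ₗ[ℝ] E n)| * kappa (n - 1)) := by
    rw [← Zb_norm (r := |LinearMap.det (T : E n →ₗ[ℝ] E n)| * kappa (n - 1)) (by positivity)]
    ext x
    simp only [projBody, Zb, mem_ofPred_eq, mem_preimage, LinearMap.adjoint_inner_left,
      LinearEquiv.coe_coe]
    refine ⟨fun h w => ?_, fun h u hu => ?_⟩
    · by_cases hw : w = 0
      · simp [hw]
      · have hp : 0 < ‖T w‖ := norm_pos_iff.2 (by simpa using hw)
        have hu : ‖‖T w‖⁻¹ • T w‖ = 1 := by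
          rw [norm_smul, norm_inv, norm_norm, inv_mul_cancel₀ hp.ne']
        have h1 := h _ hu
        rw [projVol_ellipsoid hn T hu, real_inner_smul_right, map_smul,
          LinearEquiv.symm_apply_apply, norm_smul, norm_inv, norm_norm,
          inv_mul_le_iff₀ hp] at h1
        refine h1.trans (le_of_eq ?_)
        field_simp
    · have h1 := h (T.symm u)
      rw [LinearEquiv.apply_symm_apply] at h1
      rw [projVol_ellipsoid hn T hu]
      linarith
  have e2 : vol ((fun x => a + x) '' (T '' closedBall 0 1)) =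
      |LinearMap.det (T : E n →ₗ[ℝ] E n)| * kappa n := by
    rw [vol, image_add_left, measure_preimage_add, ← LinearEquiv.coe_coe,
      Measure.addHaar_image_linearMap, ENNReal.toReal_mul, ENNReal.toReal_ofReal hd'.le, kappa]
  rw [e1, e2, vol, Measure.addHaar_preimage_linearMap _ (by rwa [el_det_adjoint]), el_det_adjoint,
    Measure.addHaar_closedBall' _ _ (by positivity), ENNReal.toReal_mul, ENNReal.toReal_mul,
    ENNReal.toReal_ofReal (abs_nonneg _), ENNReal.toReal_ofReal (by positivity),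
    finrank_euclideanSpace_fin, ← kappa, cP, abs_inv, zpow_sub₀ hk.ne', zpow_natCast]
  obtain ⟨m, rfl⟩ : ∃ m, n = m + 1 := ⟨n - 1, by omega⟩
  simp only [Nat.add_sub_cancel, mul_pow, pow_succ, zpow_two]
  field_simp

end Vale.Agent.P237
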