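import Vale.Agent.P237.Moments

open MeasureTheory Metric Set Filter Topology
open scoped RealInnerProductSpace Pointwise ENNReal NNReal

namespace Vale.Agent.P237

variable {n : ℕ}

theorem fk_swap {F : Sph n → Sph n → ℝ} (hF : Continuous (Function.uncurry F)) :
    ∫ a, ∫ θ, F a θ ∂sig n ∂sig n = ∫ θ, ∫ a, F a θ ∂sig n ∂sig n :=
  integral_integral_swap (hF.integrable_of_hasCompactSupport (HasCompactSupport.of_compactSpace _))

theorem fk_comm (f g : E n → ℝ) : ip f g = ip g f := by simp only [ip, mul_comm]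

theorem fk_ip_Tk {κ : ℝ → ℝ} (hκ : Continuous κ) {f g : E n → ℝ} (hf : Continuous f)
    (hg : Continuous g) : ip f (Tk κ g) = ip (Tk κ f) g := by
  simp only [ip, Tk, ← integral_const_mul, ← integral_mul_const]
  rw [fk_swap (by unfold Function.uncurry; fun_prop)]
  simp only [real_inner_comm, mul_left_comm, mul_assoc]

theorem fk_decomp (hn : 2 ≤ n) {a b : E n} (ha : ‖a‖ = 1) (hb : ‖b‖ = 1) :
    ∃ (e : E n) (s : ℝ), ‖e‖ = 1 ∧ ⟪a, e⟫ = 0 ∧ s ^ 2 = 1 - ⟪a, b⟫ ^ 2 ∧
      b = ⟪a, b⟫ • a + s • e := by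
  have h1 : ‖b - ⟪a, b⟫ • a‖ ^ 2 = 1 - ⟪a, b⟫ ^ 2 := by
    rw [norm_sub_sq_real, norm_smul, inner_smul_right, ha, hb, real_inner_comm a b, mul_one,
      Real.norm_eq_abs, sq_abs]
    ring
  have h2 : ∀ v : E n, v ≠ 0 → ⟪a, v⟫ = 0 → ‖‖v‖⁻¹ • v‖ = 1 ∧ ⟪a, ‖v‖⁻¹ • v⟫ = 0 :=
    fun v h h' => ⟨norm_smul_inv_norm h, by rw [inner_smul_right, h', mul_zero]⟩
  by_cases h : b - ⟪a, b⟫ • a = 0
  · have h3 : (ℝ ∙ a)ᗮ ≠ ⊥ := fun h3 => by
      have h4 := (ℝ ∙ a).finrank_add_finrank_orthogonal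
      have h5 := finrank_span_singleton (K := ℝ) (v := a) (by rintro rfl; simp at ha)
      rw [h3, finrank_bot, h5, finrank_euclideanSpace_fin] at h4
      omega
    obtain ⟨v, h4, h5⟩ := Submodule.exists_mem_ne_zero_of_ne_bot h3
    obtain ⟨h6, h7⟩ := h2 v h5 (Submodule.mem_orthogonal_singleton_iff_inner_right.1 h4)
    exact ⟨_, _, h6, h7, h1, by rw [h, norm_zero, zero_smul, add_zero, ← sub_eq_zero, h]⟩
  · obtain ⟨h6, h7⟩ := h2 _ h (by
      rw [inner_sub_right, inner_smul_right, real_inner_self_eq_norm_sq, ha]; ring)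
    exact ⟨_, _, h6, h7, h1, by rw [smul_inv_smul₀ (norm_ne_zero_iff.2 h), add_sub_cancel]⟩

theorem fk_pow (hn : 2 ≤ n) {κ : ℝ → ℝ} (hκ : Continuous κ) {k m : ℕ} (hk : k ≤ m) :
    ∃ G ∈ momSp (Qp n) m, ∀ a b : E n, ‖a‖ = 1 → ‖b‖ = 1 →
      ∫ θ, κ ⟪a, (θ : E n)⟫ * ⟪(θ : E n), b⟫ ^ (2 * k) ∂sig n = G ⟪a, b⟫ := by
  have h0 := norm_e0 (n := n) (by omega)
  obtain ⟨e1, -, h1, h2, -⟩ := fk_decomp hn h0 h0
  refine ⟨_, momSp_sum _ (Finset.range (2 * k + 1)) (fun i => ((2 * k).choose i : ℝ) *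
    ∫ θ, κ ⟪e0 n, (θ : E n)⟫ * ⟪e0 n, (θ : E n)⟫ ^ (2 * k - i) * ⟪e1, (θ : E n)⟫ ^ i ∂sig n) _
    (fun i hi => mom_mem hn (k := k - i / 2) (i := i / 2) (by simp at hi; omega)) fun _ => rfl,
    fun a b ha hb => ?_⟩
  obtain ⟨e, s, h3, h4, h5, h6⟩ := fk_decomp hn ha hb
  generalize ⟪a, b⟫ = t at h5 h6
  have h7 : ∀ θ : Sph n, κ ⟪a, (θ : E n)⟫ * ⟪(θ : E n), b⟫ ^ (2 * k) =
      ∑ i ∈ Finset.range (2 * k + 1), ((2 * k).choose i * (t ^ (2 * k - i) * s ^ i)) *
        (κ ⟪a, (θ : E n)⟫ * ⟪a, (θ : E n)⟫ ^ (2 * k - i) * ⟪e, (θ : E n)⟫ ^ i) := fun θ => by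
    rw [h6, inner_add_right, inner_smul_right, inner_smul_right, add_comm, add_pow, Finset.mul_sum,
      real_inner_comm a, real_inner_comm e]
    exact Finset.sum_congr rfl fun i _ => by ring
  simp only [h7]
  rw [integral_finsetSum _ fun i _ => integrable_sig (by fun_prop)]
  refine Finset.sum_congr rfl fun i hi => ?_
  rw [integral_const_mul, pair_eq ha h3 h4 h0 h1 h2 fun x y => κ x * x ^ (2 * k - i) * y ^ i]
  rcases Nat.even_or_odd' i with ⟨j, rfl | rfl⟩
  · rw [pow_mul s, h5, Nat.mul_div_cancel_left _ two_pos, Nat.mul_sub]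
    ring
  · have h8 := pair_eq h0 h1 h2 h0 (e' := -e1) (by rwa [norm_neg]) (by rw [inner_neg_right, h2,
      neg_zero]) fun x y => κ x * x ^ (2 * k - (2 * j + 1)) * y ^ (2 * j + 1)
    simp only [inner_neg_left, (odd_two_mul_add_one j).neg_pow, mul_neg, integral_neg] at h8
    rw [self_eq_neg.1 h8]
    simp

theorem fk_Qp (hn : 2 ≤ n) {κ : ℝ → ℝ} (hκ : Continuous κ) (m : ℕ) :
    ∃ lam : ℕ → ℝ, ∀ a b : E n, ‖a‖ = 1 → ‖b‖ = 1 →
      ∫ θ, κ ⟪a, (θ : E n)⟫ * Qp n m ⟪(θ : E n), b⟫ ∂sig n =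
        ∑ l ∈ Finset.range (m + 1), lam l * Qp n l ⟪a, b⟫ := by
  obtain ⟨c, hc⟩ := mom_Qp_mem (n := n) m
  choose! G hG hG' using fun k (hk : k ≤ m) => fk_pow hn hκ hk
  obtain ⟨lam, h⟩ := momSp_sum _ (Finset.range (m + 1)) c G
    (fun k hk => hG k (Nat.lt_succ_iff.1 (Finset.mem_range.1 hk))) fun _ => rfl
  refine ⟨lam, fun a b ha hb => ?_⟩
  simp only [hc, ← h, Finset.mul_sum, mul_left_comm (κ _)]
  rw [integral_finsetSum _ fun i _ => integrable_sig (by fun_prop)]
  refine Finset.sum_congr rfl fun k hk => ?_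
  rw [integral_const_mul, hG' k (Nat.lt_succ_iff.1 (Finset.mem_range.1 hk)) a b ha hb]

/-- The Funk-Hecke formula for zonal functions. -/
theorem funk_hecke (hn : 2 ≤ n) {κ : ℝ → ℝ} (hκ : Continuous κ) (m : ℕ) {a b : E n}
    (ha : ‖a‖ = 1) (hb : ‖b‖ = 1) :
    ∫ θ, κ ⟪a, (θ : E n)⟫ * Qp n m ⟪(θ : E n), b⟫ ∂sig n =
      zon n (fun t => κ t * Qp n m t) * Qp n m ⟪a, b⟫ := by
  have hQ := continuous_Qp (n := n)
  have h0 := norm_e0 (n := n) (by omega)
  obtain ⟨lam, h⟩ := fk_Qp hn hκ m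
  have h1 : ∀ l < m, lam l = 0 := fun l hl => by
    obtain ⟨lam', h'⟩ := fk_Qp hn hκ l
    have h2 := fk_ip_Tk hκ (f := fun x => Qp n l ⟪x, e0 n⟫) (g := fun x => Qp n m ⟪x, e0 n⟫)
      (by fun_prop) (by fun_prop)
    simp only [ip, Tk, h _ _ (norm_coe _) h0, h' _ _ (norm_coe _) h0] at h2
    simp only [real_inner_comm (e0 n), mul_comm (Qp n l _)] at h2
    have h3 := mom_coef hn hl.le (lam := lam) fun _ => rfl
    have h4 := mom_coef hn (D := m) (m := m) le_rfl (lam := fun i => if i ≤ l then lam' i else 0)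
      (f := fun t => ∑ i ∈ Finset.range (l + 1), lam' i * Qp n i t) fun t => by
        simp only [ite_mul, zero_mul, ← Finset.sum_filter]
        congr 1
        ext i
        simp
        omega
    rw [if_neg hl.not_ge, zero_mul] at h4
    exact (mul_eq_zero.1 (h3.symm.trans (h2.trans h4))).resolve_right (zon_Qp_sq_pos hn l).ne'
  have h2 : ∀ t, ∑ l ∈ Finset.range (m + 1), lam l * Qp n l t = lam m * Qp n m t := fun t => by
    rw [Finset.sum_range_succ, Finset.sum_eq_zero fun l hl => by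
      rw [h1 l (Finset.mem_range.1 hl), zero_mul], zero_add]
  have h3 := h _ _ h0 h0
  rw [h2, real_inner_self_eq_norm_sq, h0, one_pow, Qp_one, mul_one] at h3
  rw [h a b ha hb, h2, ← h3]
  simp only [zon, real_inner_comm (e0 n)]

theorem continuous_comp {f : E n → ℝ} (hf : Continuous f) (m : ℕ) : Continuous (comp m f) := by
  exact continuous_const.mul (continuous_Tk (continuous_Qp m) hf)

theorem continuous_rest {f : E n → ℝ} (hf : Continuous f) (D : ℕ) : Continuous (rest D f) := by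
  exact hf.sub (continuous_finsetSum _ fun m _ => continuous_comp hf m)

theorem continuous_Aop {f : E n → ℝ} (hf : Continuous f) (j : ℕ) : Continuous (Aop j f) := by
  exact continuous_const.mul (continuous_Tk (continuous_pow _) hf)

theorem ip_Tk {κ : ℝ → ℝ} (hκ : Continuous κ) {f g : E n → ℝ} (hf : Continuous f)
    (hg : Continuous g) : ip f (Tk κ g) = ip (Tk κ f) g := by
  exact fk_ip_Tk hκ hf hg

theorem Tk_comp (hn : 2 ≤ n) {κ : ℝ → ℝ} (hκ : Continuous κ) {f : E n → ℝ} (hf : Continuous f)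
    (m : ℕ) {a : E n} (ha : ‖a‖ = 1) :
    Tk κ (comp m f) a = zon n (fun t => κ t * Qp n m t) * comp m f a := by
  have hQ := continuous_Qp (n := n) m
  simp only [comp, Tk, ← integral_const_mul]
  rw [fk_swap (by unfold Function.uncurry; fun_prop)]
  refine integral_congr_ae (ae_of_all _ fun η => ?_)
  have h : ∀ (c : ℝ) (θ : Sph n), κ ⟪a, (θ : E n)⟫ * (c * (Qp n m ⟪(θ : E n), (η : E n)⟫ * f η)) =
      c * f η * (κ ⟪a, (θ : E n)⟫ * Qp n m ⟪(θ : E n), (η : E n)⟫) := fun c θ => by ring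
  simp only [h, integral_const_mul, funk_hecke hn hκ m ha (norm_coe η)]
  ring

theorem comp_zero (hn : 2 ≤ n) (f : E n → ℝ) (a : E n) : comp 0 f a = av f := by
  simp [comp, Tk, av, Qp_zero_left, zon_const (by omega : 0 < n)]

theorem comp_one_of_iso (hn : 2 ≤ n) {f : E n → ℝ} (hf : Continuous f) (h : Iso f) {a : E n}
    (ha : ‖a‖ = 1) : comp 1 f a = 0 := by
  have h1 : (n : ℝ) ≠ 0 := by positivity
  have h2 : ∀ θ : Sph n, Qp n 1 ⟪a, (θ : E n)⟫ * f θ =
      (n * (f θ * ⟪a, (θ : E n)⟫ ^ 2) - f θ) / ((n : ℝ) - 1) := fun θ => by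
    rw [Qp_one_left hn]
    ring
  simp only [comp, Tk, h2]
  rw [integral_div, integral_sub (integrable_sig (by fun_prop)) (integrable_sig (by fun_prop)),
    integral_const_mul, h a ha, mul_div_cancel₀ _ h1, av, sub_self, zero_div, mul_zero]

theorem ip_self_nonneg (f : E n → ℝ) : 0 ≤ ip f f := by
  exact integral_nonneg fun _ => mul_self_nonneg _

theorem fk_cs {w u v : Sph n → ℝ} (hw : Continuous w) (hu : Continuous u) (hv : Continuous v)
    (h0 : ∀ θ, 0 ≤ w θ) : (∫ θ, w θ * (u θ * v θ) ∂sig n) ^ 2 ≤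
      (∫ θ, w θ * (u θ * u θ) ∂sig n) * ∫ θ, w θ * (v θ * v θ) ∂sig n := by
  have h := discrim_le_zero (a := ∫ θ, w θ * (u θ * u θ) ∂sig n)
    (b := 2 * ∫ θ, w θ * (u θ * v θ) ∂sig n) (c := ∫ θ, w θ * (v θ * v θ) ∂sig n) fun s => by
      rw [mul_right_comm 2, ← integral_mul_const, ← integral_const_mul,
        ← integral_add (integrable_sig (by fun_prop)) (integrable_sig (by fun_prop)),
        ← integral_add (integrable_sig (by fun_prop)) (integrable_sig (by fun_prop))]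
      exact integral_nonneg fun θ =>
        (mul_nonneg (h0 θ) (sq_nonneg (s * u θ + v θ))).trans_eq (by ring)
  rw [discrim] at h
  linarith

theorem fk_abs_ip_le {f g : E n → ℝ} (hf : Continuous f) (hg : Continuous g) :
    |ip f g| ≤ √(ip f f) * √(ip g g) := by
  rw [← Real.sqrt_mul (ip_self_nonneg f)]
  refine Real.abs_le_sqrt ?_
  simpa [ip] using fk_cs (w := fun _ => 1) (u := fun θ : Sph n => f θ) (v := fun θ => g θ)
    continuous_const (by fun_prop) (by fun_prop) fun _ => zero_le_one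

theorem fk_schur {κ : ℝ → ℝ} (hκ : Continuous κ) {r : E n → ℝ} (hr : Continuous r) :
    √(ip (Tk κ r) (Tk κ r)) ≤ zon n (fun t => |κ t|) * √(ip r r) := by
  have hZ : 0 ≤ zon n (fun t => |κ t|) := integral_nonneg fun _ => abs_nonneg _
  have hκ' : Continuous fun t => |κ t| := hκ.abs
  have h1 : ∀ a : Sph n, Tk (fun t => |κ t|) (fun _ => 1) (a : E n) = zon n (fun t => |κ t|) :=
    fun a => by simpa [Tk] using zon_eq (norm_coe a) fun t => |κ t|
  have h2 := fk_ip_Tk hκ' (f := fun _ => 1) (g := fun x => r x * r x) continuous_const (by fun_prop)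
  simp only [ip, h1, one_mul, integral_const_mul] at h2
  rw [← Real.sqrt_sq hZ, ← Real.sqrt_mul (sq_nonneg _), sq, mul_assoc]
  refine Real.sqrt_le_sqrt ?_
  rw [ip, ip, ← h2, ← integral_const_mul]
  have h3 := continuous_Tk hκ hr
  have h4 := continuous_Tk hκ' (f := fun x => r x * r x) (by fun_prop)
  refine integral_mono (integrable_sig (by fun_prop)) (integrable_sig (by fun_prop)) fun a => ?_
  have h5 := fk_cs (w := fun θ : Sph n => |κ ⟪(a : E n), (θ : E n)⟫|) (u := fun _ => 1)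
    (v := fun θ => |r θ|) (by fun_prop) continuous_const (by fun_prop) fun _ => abs_nonneg _
  simp only [one_mul, mul_one, abs_mul_abs_self, ← abs_mul,
    zon_eq (norm_coe a) fun t => |κ t|] at h5
  refine le_trans ?_ (h5.trans_eq ?_)
  · rw [← sq, ← sq_abs]
    exact pow_le_pow_left₀ (abs_nonneg _) abs_integral_le_integral_abs 2
  · simp only [Tk]

theorem fk_ip_sum {ι : Type*} (s : Finset ι) (α : ι → ℝ) {F : ι → E n → ℝ}
    (hF : ∀ m, Continuous (F m)) {u w v : E n → ℝ} (hw : Continuous w) (hv : Continuous v)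
    (hu : ∀ x, ‖x‖ = 1 → u x = w x + ∑ m ∈ s, α m * F m x) :
    ip u v = ip w v + ∑ m ∈ s, α m * ip (F m) v := by
  simp only [ip, hu _ (norm_coe _), add_mul, Finset.sum_mul, mul_assoc]
  rw [integral_add (integrable_sig (by fun_prop)) (integrable_sig (by fun_prop)),
    integral_finsetSum _ fun i _ => integrable_sig (by fun_prop)]
  simp only [integral_const_mul]

theorem fk_adj {f g : E n → ℝ} (hf : Continuous f) (hg : Continuous g) (m : ℕ) :
    ip (comp m f) g = ip f (comp m g) := by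
  have h := fk_ip_Tk (continuous_Qp (n := n) m) hf hg
  simp only [ip, comp, mul_assoc, mul_left_comm (f _), integral_const_mul] at h ⊢
  rw [h]

theorem fk_comp_comp (hn : 2 ≤ n) {f g : E n → ℝ} (hf : Continuous f) (hg : Continuous g)
    (m l : ℕ) : ip (comp m f) (comp l g) = if m = l then ip f (comp l g) else 0 := by
  rw [fk_adj hf (continuous_comp hg l)]
  simp only [ip, comp.eq_1 m, Tk_comp hn (continuous_Qp m) hg l (norm_coe _)]
  split_ifs with h
  · subst h
    simp only [← sq, inv_mul_cancel_left₀ (zon_Qp_sq_pos hn m).ne']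
  · simp [zon_Qp_mul hn h]

theorem fk_split (D : ℕ) (f : E n → ℝ) (x : E n) :
    f x = rest D f x + ∑ m ∈ Finset.range (D + 1), 1 * comp m f x := by simp [rest]

theorem fk_rest_comp (hn : 2 ≤ n) {f g : E n → ℝ} (hf : Continuous f) (hg : Continuous g)
    {D l : ℕ} (hl : l ≤ D) : ip (rest D f) (comp l g) = 0 := by
  have h := fk_ip_sum _ _ (continuous_comp hf) (continuous_rest hf D) (continuous_comp hg l)
    fun x _ => fk_split D f x
  simpa [fk_comp_comp hn hf hg, Nat.lt_succ_of_le hl] using h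

theorem fk_Tk_split (hn : 2 ≤ n) {κ : ℝ → ℝ} (hκ : Continuous κ) {f : E n → ℝ} (hf : Continuous f)
    (D : ℕ) (x : E n) (hx : ‖x‖ = 1) : Tk κ f x = Tk κ (rest D f) x +
      ∑ m ∈ Finset.range (D + 1), zon n (fun t => κ t * Qp n m t) * comp m f x := by
  have h1 := continuous_comp hf
  simp only [← Tk_comp hn hκ hf _ hx, Tk, rest, mul_sub, Finset.mul_sum]
  rw [integral_sub (integrable_sig (by fun_prop)) (integrable_sig (by fun_prop)),
    integral_finsetSum _ fun i _ => integrable_sig (by fun_prop), sub_add_cancel]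

theorem fk_Aop (hn : 2 ≤ n) {f : E n → ℝ} (hf : Continuous f) {j D : ℕ} (hj : j ≤ D) (x : E n) :
    Aop j f x = ∑ m ∈ Finset.range (D + 1), rho n j m * comp m f x := by
  have hQ := continuous_Qp (n := n)
  simp only [Aop, Tk, comp]
  simp only [pow_expand hn hj ⟪x, _⟫, Finset.sum_mul, mul_assoc]
  rw [integral_finsetSum _ fun i _ => integrable_sig (by fun_prop), Finset.mul_sum]
  refine Finset.sum_congr rfl fun m _ => ?_
  rw [integral_const_mul, integral_const_mul, zon_pow_Qp hn, mul_assoc,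
    inv_mul_cancel_left₀ (zon_pow_pos hn j).ne']

/-- Spectral estimate for a zonal bilinear form. -/
theorem ip_Tk_sub_le (hn : 2 ≤ n) {κ : ℝ → ℝ} (hκ : Continuous κ) {f g : E n → ℝ}
    (hf : Continuous f) (hg : Continuous g) (D : ℕ) :
    |ip f (Tk κ g) - ∑ m ∈ Finset.range (D + 1),
        zon n (fun t => κ t * Qp n m t) * ip (comp m f) (comp m g)| ≤
      zon n (fun t => |κ t|) * (√(ip (rest D f) (rest D f)) * √(ip (rest D g) (rest D g))) := by
  have hr := continuous_rest hf D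
  have hr' := continuous_rest hg D
  rw [fk_comm, fk_ip_sum _ _ (continuous_comp hg) (continuous_Tk hκ hr') hf
    (fk_Tk_split hn hκ hg D), ← fk_ip_Tk hκ hr' hf, fk_comm,
    fk_ip_sum _ _ (continuous_comp hf) (continuous_Tk hκ hr) hr' (fk_Tk_split hn hκ hf D),
    Finset.sum_eq_zero fun m hm => by
      rw [fk_comm, fk_rest_comp hn hg hf (Nat.lt_succ_iff.1 (Finset.mem_range.1 hm)), mul_zero]]
  simp only [fk_comp_comp hn hf hg, if_true, fk_comm (comp _ g), add_zero, add_sub_cancel_right]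
  rw [← mul_assoc]
  exact (fk_abs_ip_le (continuous_Tk hκ hr) hr').trans
    (mul_le_mul_of_nonneg_right (fk_schur hκ hr) (Real.sqrt_nonneg _))

theorem fk_approx (hn : 2 ≤ n) {f : E n → ℝ} (hf : Continuous f) (he : ∀ x, f (-x) = f x)
    {L : ℝ} (hL : ∀ a b : E n, ‖a‖ = 1 → ‖b‖ = 1 → |f a - f b| ≤ L * ‖a - b‖) (j : ℕ) {a : E n}
    (ha : ‖a‖ = 1) : (f a - Aop j f a) ^ 2 ≤ 2 * L ^ 2 * ((n - 1) / (2 * j + n)) := by
  have hμ := zon_pow_pos hn j
  have h1 := zon_eq ha fun t => t ^ (2 * j)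
  have h2 := fk_cs (w := fun θ : Sph n => ⟪a, (θ : E n)⟫ ^ (2 * j)) (u := fun θ => f a - f θ)
    (v := fun _ => 1) (by fun_prop) (by fun_prop) continuous_const
    fun _ => (even_two_mul j).pow_nonneg _
  simp only [mul_one, h1] at h2
  have h3 : ∫ θ : Sph n, ⟪a, (θ : E n)⟫ ^ (2 * j) * (f a - f θ) ∂sig n =
      (f a - Aop j f a) * zon n fun t => t ^ (2 * j) := by
    simp only [mul_sub]
    rw [integral_sub (integrable_sig (by fun_prop)) (integrable_sig (by fun_prop)),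
      integral_mul_const, h1, Aop, Tk]
    field_simp
  have h4 := zon_abs_pow_mul hn (2 * j) 1
  simp only [(even_two_mul j).pow_abs, pow_one, Finset.prod_range_one, Nat.cast_zero, mul_zero,
    add_zero, Nat.cast_mul, Nat.cast_ofNat] at h4
  have h5 : ∫ θ : Sph n, ⟪a, (θ : E n)⟫ ^ (2 * j) * ((f a - f θ) * (f a - f θ)) ∂sig n ≤
      2 * L ^ 2 * zon n fun t => t ^ (2 * j) * (1 - t ^ 2) := by
    rw [← zon_eq ha, ← integral_const_mul]
    refine integral_mono (integrable_sig (by fun_prop)) (integrable_sig (by fun_prop)) fun θ => ?_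
    simp only [mul_left_comm (2 * L ^ 2)]
    refine mul_le_mul_of_nonneg_left ?_ ((even_two_mul j).pow_nonneg _)
    have h6 := abs_le.1 (mom_abs_le ha θ)
    have h7 := pow_le_pow_left₀ (abs_nonneg _) (hL a θ ha (norm_coe θ)) 2
    have h8 := pow_le_pow_left₀ (abs_nonneg _) (hL a (-θ) ha (by rw [norm_neg, norm_coe])) 2
    rw [sq_abs, mul_pow, norm_sub_sq_real, ha, norm_coe] at h7
    rw [sq_abs, mul_pow, he, sub_neg_eq_add, norm_add_sq_real, ha, norm_coe] at h8
    generalize ⟪a, (θ : E n)⟫ = t at h6 h7 h8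
    rcases le_total 0 t with h | h
    · nlinarith [mul_nonneg (sq_nonneg L) (mul_nonneg h (sub_nonneg.2 h6.2))]
    · nlinarith [mul_nonneg (sq_nonneg L) (mul_nonneg (neg_nonneg.2 h) (sub_nonneg.2 h6.1))]
  rw [h3] at h2
  rw [h4] at h5
  refine le_of_mul_le_mul_right ?_ (pow_pos hμ 2)
  nlinarith [mul_le_mul_of_nonneg_right h5 hμ.le]

/-- Completeness for even Lipschitz functions. -/
theorem rest_tendsto (hn : 2 ≤ n) {f : E n → ℝ} (hf : Continuous f) (he : ∀ x, f (-x) = f x)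
    {L : ℝ} (hL : ∀ a b : E n, ‖a‖ = 1 → ‖b‖ = 1 → |f a - f b| ≤ L * ‖a - b‖) :
    Tendsto (fun D => ip (rest D f) (rest D f)) atTop (𝓝 0) := by
  have := sig_prob (n := n) (by omega)
  have h1 : Tendsto (fun D : ℕ => 2 * L ^ 2 * (((n : ℝ) - 1) / (2 * D + n))) atTop (𝓝 0) := by
    simpa using (tendsto_const_nhds.div_atTop (tendsto_atTop_add_const_right _ (n : ℝ)
      (tendsto_natCast_atTop_atTop.const_mul_atTop two_pos))).const_mul (2 * L ^ 2)
  refine squeeze_zero (fun D => ip_self_nonneg _) (fun D => ?_) h1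
  have hr := continuous_rest hf D
  have hA := continuous_Aop hf D
  have h2 := fk_ip_sum (Finset.range (D + 1)) (fun m => 1 - rho n D m) (continuous_comp hf)
    (u := fun x => f x - Aop D f x) hr hr fun x _ => by
      simp [fk_Aop hn hf le_rfl, rest, sub_mul, Finset.sum_sub_distrib]
  rw [Finset.sum_eq_zero fun m hm => by
    rw [fk_comm, fk_rest_comp hn hf hf (Nat.lt_succ_iff.1 (Finset.mem_range.1 hm)), mul_zero],
    add_zero] at h2
  have h3 : ∫ θ : Sph n, 2 * ((f θ - Aop D f θ) * rest D f θ) - rest D f θ * rest D f θ ∂sig n ≤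
      ∫ _ : Sph n, 2 * L ^ 2 * (((n : ℝ) - 1) / (2 * D + n)) ∂sig n :=
    integral_mono (integrable_sig (by fun_prop)) (integrable_const _) fun θ =>
      le_trans (by nlinarith [sq_nonneg (f θ - Aop D f θ - rest D f θ)])
        (fk_approx hn hf he hL D (norm_coe θ))
  rw [integral_sub (integrable_sig (by fun_prop)) (integrable_sig (by fun_prop)),
    integral_const_mul, integral_const, probReal_univ, one_smul] at h3
  simp only [ip] at h2 ⊢
  linarith

theorem abs_ip_le {f g : E n → ℝ} (hf : Continuous f) (hg : Continuous g) :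
    |ip f g| ≤ √(ip f f) * √(ip g g) := by
  exact fk_abs_ip_le hf hg

theorem fk_parseval {ι : Type*} (s : Finset ι) (α β : ι → ℝ) {F : ι → E n → ℝ}
    (hF : ∀ m, Continuous (F m)) (ho : ∀ m ∈ s, ∀ l ∈ s, l ≠ m → ip (F l) (F m) = 0)
    {u v : E n → ℝ} (hv' : Continuous v) (hu : ∀ x, u x = ∑ m ∈ s, α m * F m x)
    (hv : ∀ x, v x = ∑ m ∈ s, β m * F m x) :
    ip u v = ∑ m ∈ s, α m * β m * ip (F m) (F m) := by
  have h : ∀ w : E n → ℝ, ip (fun _ => 0) w = 0 := fun w => by simp [ip]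
  rw [fk_ip_sum s α hF continuous_const hv' fun x _ => (hu x).trans (zero_add _).symm, h, zero_add]
  refine Finset.sum_congr rfl fun m hm => ?_
  rw [fk_comm, fk_ip_sum s β hF continuous_const (hF m) fun x _ => (hv x).trans (zero_add _).symm,
    h, zero_add, Finset.sum_eq_single_of_mem m hm fun l hl h' => by rw [ho m hm l hl h', mul_zero],
    mul_assoc]

theorem fk_range (D : ℕ) (g : ℕ → ℝ) :
    ∑ m ∈ Finset.range (D + 2), g m = g 0 + ∑ m ∈ Finset.Icc 1 (D + 1), g m := by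
  rw [← Finset.sum_insert (by simp)]
  congr 1
  ext m
  simp
  omega

/-- The centred test function built from `Aop j` and a constant `τ`. -/
noncomputable def yf (j : ℕ) (τ : ℝ) (f : E n → ℝ) (a : E n) : ℝ :=
  (τ * (f a - 1) - (Aop j f a - 1)) / (1 - τ)

noncomputable def bet (n j : ℕ) (τ : ℝ) (m : ℕ) : ℝ := (τ - rho n j m) / (1 - τ)

/-- The spectral data of a normalised function. -/
theorem spectral_data (hn : 2 ≤ n) {f : E n → ℝ} (hf : Continuous f) (h1 : av f = 1) (D : ℕ) :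
    ∃ a : ℕ → ℝ, (∀ m, 0 ≤ a m) ∧ (∀ m, m ≤ D → a m = ip (comp m f) (comp m f)) ∧
      ∑ m ∈ Finset.Icc 1 (D + 1), a m = ip f f - 1 ∧
      ∀ (j : ℕ) (τ : ℝ), j ≤ D → τ < 1 →
        av (yf j τ f) = 0 ∧
        ip (yf j τ f) f = ∑ m ∈ Finset.Icc 1 (D + 1), bet n j τ m * a m ∧
        ip (yf j τ f) (yf j τ f) = ∑ m ∈ Finset.Icc 1 (D + 1), bet n j τ m ^ 2 * a m ∧
        ip (yf j τ f) f = (τ * (ip f f - 1) - (ip f (Aop j f) - 1)) / (1 - τ) := by
  have := sig_prob (n := n) (by omega)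
  let F : ℕ → E n → ℝ := fun m => if m ≤ D then comp m f else rest D f
  have hF : ∀ m, Continuous (F m) := fun m => by
    simp only [F]
    split_ifs
    exacts [continuous_comp hf m, continuous_rest hf D]
  have ho : ∀ m ∈ Finset.range (D + 2), ∀ l ∈ Finset.range (D + 2), l ≠ m →
      ip (F l) (F m) = 0 := fun m hm l hl h => by
    simp only [F]
    split_ifs with h2 h3 h3
    · rw [fk_comp_comp hn hf hf, if_neg h]
    · rw [fk_comm, fk_rest_comp hn hf hf h2]
    · exact fk_rest_comp hn hf hf h3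
    · simp at hm hl
      omega
  have hs : ∀ (c : ℕ → ℝ) x, ∑ m ∈ Finset.range (D + 2), c m * F m x =
      ∑ m ∈ Finset.range (D + 1), c m * comp m f x + c (D + 1) * rest D f x := fun c x => by
    rw [Finset.sum_range_succ, Finset.sum_congr rfl fun m hm => by
      rw [show F m = comp m f from if_pos (Nat.lt_succ_iff.1 (Finset.mem_range.1 hm))]]
    simp [F]
  have h0 : ∀ x, F 0 x = 1 := fun x => by simp [F, comp_zero hn, h1]
  have h00 : ip (F 0) (F 0) = 1 := by simp [ip, h0]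
  have hf1 : ∀ x, f x = ∑ m ∈ Finset.range (D + 2), 1 * F m x := fun x => by
    rw [hs fun _ => 1, one_mul, add_comm, ← fk_split]
  have h2 := fk_parseval _ _ _ hF ho hf hf1 hf1
  simp only [one_mul, fk_range, h00] at h2
  refine ⟨fun m => ip (F m) (F m), fun m => ip_self_nonneg _, fun m hm => by simp [F, hm],
    by linarith, fun j τ hj hτ => ?_⟩
  have hA : ∀ x, Aop j f x = ∑ m ∈ Finset.range (D + 2), rho n j m * F m x := fun x => by
    rw [hs, rho_eq_zero (Nat.lt_succ_of_le hj), zero_mul, add_zero, fk_Aop hn hf hj]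
  have hb : ∀ g : ℕ → ℝ, ∑ m ∈ Finset.range (D + 2), (if m = 0 then 0 else bet n j τ m) * g m =
      ∑ m ∈ Finset.Icc 1 (D + 1), bet n j τ m * g m := fun g => by
    rw [fk_range, if_pos rfl, zero_mul, zero_add]
    exact Finset.sum_congr rfl fun m hm => by rw [if_neg (by simp at hm; omega)]
  have hc : ∀ g : ℕ → ℝ, ∑ m ∈ Finset.Icc 1 (D + 1), bet n j τ m * g m =
      (τ * ∑ m ∈ Finset.Icc 1 (D + 1), g m -
        ∑ m ∈ Finset.Icc 1 (D + 1), rho n j m * g m) / (1 - τ) := fun g => by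
    rw [Finset.mul_sum, ← Finset.sum_sub_distrib, Finset.sum_div]
    exact Finset.sum_congr rfl fun m _ => by rw [bet]; ring
  have hρ : rho n j 0 = 1 := by simp [rho]
  have hy : ∀ x, yf j τ f x = ∑ m ∈ Finset.range (D + 2),
      (if m = 0 then 0 else bet n j τ m) * F m x := fun x => by
    rw [hb, hc, yf, hA, hf1 x]
    simp only [one_mul, fk_range, h0, hρ, add_sub_cancel_left]
  have hy' : Continuous (yf j τ f) := by
    have := continuous_Aop hf j
    unfold yf
    fun_prop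
  have h3 := fk_parseval _ _ (Pi.single 0 1) hF ho (hF 0) hy fun x => by simp [Pi.single_apply]
  have h4 := fk_parseval _ _ _ hF ho hf hy hf1
  have h5 := fk_parseval _ _ _ hF ho hy' hy hy
  have h6 := fk_parseval _ _ _ hF ho (continuous_Aop hf j) hf1 hA
  simp only [mul_one, hb] at h4
  simp only [one_mul, fk_range, h00, hρ] at h6
  refine ⟨?_, h4, ?_, ?_⟩
  · simpa [ip, av, h0, Pi.single_apply] using h3
  · simp only [mul_assoc, hb] at h5
    refine h5.trans (Finset.sum_congr rfl fun m hm => ?_)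
    rw [if_neg (by simp at hm; omega), sq, mul_assoc]
  · rw [h4, hc, h2, h6, add_sub_cancel_left, add_sub_cancel_left]

end Vale.Agent.P237
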