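import Vale.Agent.P237.Sphere

open MeasureTheory Metric Set
open scoped RealInnerProductSpace Pointwise ENNReal NNReal

namespace Vale.Agent.P237

variable {n : ℕ} {g : E n → ℝ}

theorem IsGauge.zero (hg : IsGauge g) : g 0 = 0 := by
  simpa using hg.smul 0 0 le_rfl

theorem IsGauge.nonneg (hg : IsGauge g) (x : E n) : 0 ≤ g x := by
  by_cases h : x = 0
  · rw [h, hg.zero]
  · exact (hg.pos x h).le

theorem ga_convexOn (hg : IsGauge g) : ConvexOn ℝ univ g :=
  ⟨convex_univ, fun x _ y _ a b ha hb _ => by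
    have := hg.add_le (a • x) (b • y)
    rwa [hg.smul a x ha, hg.smul b y hb] at this⟩

theorem IsGauge.continuous (hg : IsGauge g) : Continuous g :=
  continuousOn_univ.1 ((ga_convexOn hg).continuousOn isOpen_univ)

theorem ga_scale (hg : IsGauge g) {x : E n} (hx : x ≠ 0) :
    ‖x‖⁻¹ • x ∈ sphere (0 : E n) 1 ∧ g x = g (‖x‖⁻¹ • x) * ‖x‖ := by
  have h := norm_pos_iff.2 hx
  refine ⟨?_, ?_⟩
  · rw [mem_sphere_zero_iff_norm, norm_smul, norm_inv, norm_norm, inv_mul_cancel₀ h.ne']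
  · rw [hg.smul _ _ (inv_nonneg.2 h.le)]; field_simp

theorem ga_upper (hg : IsGauge g) : ∃ L : ℝ, 0 < L ∧ ∀ x, g x ≤ L * ‖x‖ := by
  obtain ⟨L, hL⟩ := (isCompact_sphere (0 : E n) 1).bddAbove_image hg.continuous.continuousOn
  refine ⟨max L 1, lt_max_of_lt_right one_pos, fun x => ?_⟩
  by_cases hx : x = 0
  · rw [hx, hg.zero]; simp
  · obtain ⟨h1, h2⟩ := ga_scale hg hx
    rw [h2]
    exact mul_le_mul_of_nonneg_right ((hL ⟨_, h1, rfl⟩).trans (le_max_left _ _)) (norm_nonneg _)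

theorem ga_lower (hg : IsGauge g) : ∃ c : ℝ, 0 < c ∧ ∀ x, c * ‖x‖ ≤ g x := by
  obtain ⟨c, hc, h⟩ := (isCompact_sphere (0 : E n) 1).exists_forall_le'
    hg.continuous.continuousOn (a := 0) fun b hb => hg.pos b (ne_zero_of_mem_unit_sphere ⟨b, hb⟩)
  refine ⟨c, hc, fun x => ?_⟩
  by_cases hx : x = 0
  · rw [hx, hg.zero]; simp
  · obtain ⟨h1, h2⟩ := ga_scale hg hx
    rw [h2]
    exact mul_le_mul_of_nonneg_right (h _ h1) (norm_nonneg _)

theorem IsGauge.lipschitz (hg : IsGauge g) : ∃ L : ℝ≥0, LipschitzWith L g := by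
  obtain ⟨L, hL, h⟩ := ga_upper hg
  refine ⟨⟨L, hL.le⟩, LipschitzWith.of_le_add_mul _ fun x y => ?_⟩
  have h1 := hg.add_le y (x - y)
  rw [add_sub_cancel] at h1
  rw [dist_eq_norm]
  exact h1.trans (add_le_add le_rfl (h _))

theorem ga_line {x : E n} (hx : DifferentiableAt ℝ g x) (z : E n) :
    HasDerivAt (fun t : ℝ => g (x + t • z)) ⟪gradient g x, z⟫ 0 := by
  have h1 : HasDerivAt (fun t : ℝ => x + t • z) z 0 := by
    simpa using ((hasDerivAt_id (0 : ℝ)).smul_const z).const_add x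
  have h2 : HasFDerivAt g (InnerProductSpace.toDual ℝ (E n) (gradient g x)) (x + (0 : ℝ) • z) := by
    simpa using hx.hasGradientAt.hasFDerivAt
  exact h2.comp_hasDerivAt (0 : ℝ) h1

/-- The gradient is a subgradient (also where it has the junk value `0`). -/
theorem IsGauge.inner_grad_le (hg : IsGauge g) (x z : E n) : ⟪gradient g x, z⟫ ≤ g z := by
  by_cases hx : DifferentiableAt ℝ g x
  · refine le_of_tendsto (ga_line hx z).tendsto_slope_zero_right ?_
    filter_upwards [self_mem_nhdsWithin] with t ht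
    have ht' : (0 : ℝ) < t := ht
    have h1 := hg.add_le x (t • z)
    rw [hg.smul t z ht'.le] at h1
    simp only [zero_add, zero_smul, add_zero, smul_eq_mul]
    rw [inv_mul_le_iff₀ ht']
    linarith
  · rw [gradient_eq_zero_of_not_differentiableAt hx, inner_zero_left]
    exact hg.nonneg z

/-- Two-sided comparison with the Euclidean norm, and a bound for the gradient. -/
theorem IsGauge.bounds (hg : IsGauge g) : ∃ c L : ℝ, 0 < c ∧ 0 < L ∧
    (∀ x, c * ‖x‖ ≤ g x) ∧ (∀ x, g x ≤ L * ‖x‖) ∧ ∀ x, ‖gradient g x‖ ≤ L := by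
  obtain ⟨c, hc, h1⟩ := ga_lower hg
  obtain ⟨L, hL, h2⟩ := ga_upper hg
  refine ⟨c, L, hc, hL, h1, h2, fun x => ?_⟩
  have h3 := (hg.inner_grad_le x (gradient g x)).trans (h2 _)
  rw [real_inner_self_eq_norm_mul_norm] at h3
  rcases (norm_nonneg (gradient g x)).eq_or_lt with h | h
  · rw [← h]; exact hL.le
  · exact le_of_mul_le_mul_right h3 h

theorem IsGauge.ae_diff (hg : IsGauge g) : ∀ᵐ x : E n, DifferentiableAt ℝ g x := by
  obtain ⟨L, hL⟩ := hg.lipschitz
  exact hL.ae_differentiableAt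

theorem ga_hasFDeriv_smul (hg : IsGauge g) {r : ℝ} (hr : 0 < r) {x : E n} {D : E n →L[ℝ] ℝ}
    (h : HasFDerivAt g D x) : HasFDerivAt g D (r • x) := by
  have e : g = fun y => r * g (r⁻¹ • y) := by
    funext y; rw [hg.smul _ _ (inv_nonneg.2 hr.le)]; field_simp
  have h1 : HasFDerivAt g D (r⁻¹ • r • x) := by rwa [inv_smul_smul₀ hr.ne']
  have h2 := (h1.comp (r • x) ((hasFDerivAt_id (r • x)).const_smul r⁻¹)).const_mul r
  have e2 : r • D.comp (r⁻¹ • ContinuousLinearMap.id ℝ (E n)) = D := by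
    ext y; simp [hr.ne']
  rw [e2] at h2
  rw [e]
  exact h2

theorem IsGauge.diff_smul (hg : IsGauge g) {r : ℝ} (hr : 0 < r) (x : E n) :
    DifferentiableAt ℝ g (r • x) ↔ DifferentiableAt ℝ g x := by
  refine ⟨fun h => ?_, fun h => (ga_hasFDeriv_smul hg hr h.hasFDerivAt).differentiableAt⟩
  have := (ga_hasFDeriv_smul hg (inv_pos.2 hr) h.hasFDerivAt).differentiableAt
  rwa [inv_smul_smul₀ hr.ne'] at this

theorem IsGauge.grad_smul (hg : IsGauge g) {r : ℝ} (hr : 0 < r) (x : E n) :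
    gradient g (r • x) = gradient g x := by
  by_cases h : DifferentiableAt ℝ g x
  · rw [gradient, gradient, (ga_hasFDeriv_smul hg hr h.hasFDerivAt).fderiv]
  · rw [gradient_eq_zero_of_not_differentiableAt h,
      gradient_eq_zero_of_not_differentiableAt (fun h' => h ((hg.diff_smul hr x).1 h'))]

theorem IsGauge.ae_diff_sig (hg : IsGauge g) :
    ∀ᵐ θ : Sph n ∂sig n, DifferentiableAt ℝ g (θ : E n) :=
  ae_sig_of_ae hg.ae_diff fun _ x hr h => (hg.diff_smul hr x).1 h

/-- Euler's identity. -/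
theorem IsGauge.euler (hg : IsGauge g) {x : E n} (hx : DifferentiableAt ℝ g x) :
    ⟪gradient g x, x⟫ = g x := by
  have h1 : HasDerivAt (fun t : ℝ => (1 + t) * g x) (g x) 0 := by
    simpa using ((hasDerivAt_id (0 : ℝ)).const_add 1).mul_const (g x)
  refine (ga_line hx x).unique (h1.congr_of_eventuallyEq ?_)
  filter_upwards [Ioi_mem_nhds (show (-1 : ℝ) < 0 by norm_num)] with t ht
  have ht' : (-1 : ℝ) < t := ht
  rw [← hg.smul _ _ (by linarith), add_smul, one_smul]

theorem measurable_gradient (f : E n → ℝ) : Measurable (gradient f) :=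
  (InnerProductSpace.toDual ℝ (E n)).symm.continuous.measurable.comp (measurable_fderiv ℝ f)

theorem IsGauge.measurable_XF (hg : IsGauge g) (d : ℕ) : Measurable (XF d g) :=
  (hg.continuous.measurable.pow_const (d - 1)).smul (measurable_gradient g)

theorem IsGauge.XF_bdd (hg : IsGauge g) (d : ℕ) :
    ∃ C : ℝ, ∀ θ : Sph n, ‖XF d g (θ : E n)‖ ≤ C := by
  obtain ⟨c, L, -, hL, -, h2, h3⟩ := hg.bounds
  refine ⟨L ^ (d - 1) * L, fun θ => ?_⟩
  have h4 := h2 θ
  rw [norm_coe, mul_one] at h4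
  rw [XF, norm_smul, norm_pow, Real.norm_of_nonneg (hg.nonneg _)]
  exact mul_le_mul (pow_le_pow_left₀ (hg.nonneg _) h4 _) (h3 _) (norm_nonneg _) (by positivity)

theorem IsGauge.isCompact (hg : IsGauge g) : IsCompact {x | g x ≤ 1} := by
  obtain ⟨c, hc, h⟩ := ga_lower hg
  refine (isCompact_closedBall (0 : E n) c⁻¹).of_isClosed_subset
    (isClosed_le hg.continuous continuous_const) fun x hx => ?_
  rw [mem_closedBall_zero_iff, ← one_div, le_div_iff₀' hc]
  exact (h x).trans hx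

theorem IsGauge.convex (hg : IsGauge g) : Convex ℝ {x | g x ≤ 1} := by
  simpa using (ga_convexOn hg).convex_le 1

theorem ga_pos_sph (hg : IsGauge g) (θ : Sph n) : 0 < g θ :=
  hg.pos _ (ne_zero_of_mem_unit_sphere θ)

theorem ga_cont_inv (hg : IsGauge g) : Continuous fun θ : Sph n => (g (θ : E n))⁻¹ :=
  (hg.continuous.comp continuous_subtype_val).inv₀ fun θ => (ga_pos_sph hg θ).ne'

theorem ga_inv_le (hg : IsGauge g) : ∃ C : ℝ, ∀ θ : Sph n, (g (θ : E n))⁻¹ ≤ C := by
  obtain ⟨c, hc, h⟩ := ga_lower hg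
  refine ⟨c⁻¹, fun θ => inv_anti₀ hc ?_⟩
  simpa [norm_coe] using h θ

theorem ga_ray (hg : IsGauge g) (θ : Sph n) (r : ℝ) (hr : 0 < r) :
    r • (θ : E n) ∈ {x | g x ≤ 1} ↔ r ≤ (g (θ : E n))⁻¹ := by
  rw [mem_ofPred_eq, hg.smul _ _ hr.le, ← one_div, le_div_iff₀ (ga_pos_sph hg θ)]

/-- Volume of the unit ball of a gauge in polar coordinates. -/
theorem IsGauge.vol_eq (hg : IsGauge g) (hn : 0 < n) :
    vol {x | g x ≤ 1} = kappa n * ∫ θ, (g (θ : E n))⁻¹ ^ n ∂sig n := by
  obtain ⟨C, hC⟩ := ga_inv_le hg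
  have h := setIntegral_star hn hg.isCompact.measurableSet (ga_cont_inv hg).measurable
    (fun θ => inv_nonneg.2 (hg.nonneg _)) hC (ga_ray hg) (F := fun _ => 1) measurable_const
    (B := 1) (fun _ => by simp) (fun _ _ _ => rfl)
  simpa [Measure.real] using h

theorem IsGauge.int_inv_pos (hg : IsGauge g) (hn : 0 < n) :
    0 < ∫ θ, (g (θ : E n))⁻¹ ^ n ∂sig n := by
  obtain ⟨L, hL, h⟩ := ga_upper hg
  have := sig_prob hn
  have h1 : ∫ _ : Sph n, L⁻¹ ^ n ∂sig n ≤ ∫ θ, (g (θ : E n))⁻¹ ^ n ∂sig n := by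
    refine integral_mono (integrable_const _) (integrable_sig ((ga_cont_inv hg).pow n)) fun θ => ?_
    refine pow_le_pow_left₀ (by positivity) (inv_anti₀ (ga_pos_sph hg θ) ?_) n
    simpa [norm_coe] using h θ
  refine lt_of_lt_of_le ?_ h1
  simp only [integral_const, probReal_univ, smul_eq_mul, one_mul]
  positivity

theorem ga_le_of_subset {g' : E n → ℝ} (hg : IsGauge g) (hg' : IsGauge g')
    (h : {x | g x ≤ 1} ⊆ {x | g' x ≤ 1}) (x : E n) : g' x ≤ g x := by
  by_cases hx : x = 0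
  · rw [hx, hg.zero, hg'.zero]
  · have hp := hg.pos x hx
    have h1 : g' ((g x)⁻¹ • x) ≤ 1 := h (show g ((g x)⁻¹ • x) ≤ 1 by
      rw [hg.smul _ _ (inv_nonneg.2 hp.le), inv_mul_cancel₀ hp.ne'])
    rwa [hg'.smul _ _ (inv_nonneg.2 hp.le), inv_mul_le_iff₀ hp, mul_one] at h1

/-- A gauge is determined by its unit ball. -/
theorem IsGauge.ext {g' : E n → ℝ} (hg : IsGauge g) (hg' : IsGauge g')
    (h : {x | g x ≤ 1} = {x | g' x ≤ 1}) : g = g' :=
  funext fun x => le_antisymm (ga_le_of_subset hg' hg h.symm.subset x)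
    (ga_le_of_subset hg hg' h.subset x)

theorem isNorm_norm : IsNorm (fun x : E n => ‖x‖) where
  add_le := norm_add_le
  smul r x hr := by rw [norm_smul, Real.norm_of_nonneg hr]
  pos _ hx := norm_pos_iff.2 hx
  neg := norm_neg

theorem IsNorm.const_mul (hg : IsNorm g) {c : ℝ} (hc : 0 < c) : IsNorm (fun x => c * g x) where
  add_le x y := by rw [← mul_add]; exact mul_le_mul_of_nonneg_left (hg.add_le x y) hc.le
  smul r x hr := by rw [hg.smul r x hr]; ring
  pos x hx := mul_pos hc (hg.pos x hx)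
  neg x := by rw [hg.neg]

theorem IsNorm.comp (hg : IsNorm g) (T : E n ≃L[ℝ] E n) : IsNorm (fun x => g (T x)) where
  add_le x y := by rw [map_add]; exact hg.add_le _ _
  smul r x hr := by rw [map_smul, hg.smul r _ hr]
  pos x hx := hg.pos _ (by simpa using hx)
  neg x := by rw [map_neg, hg.neg]

/-- The gauge of a convex body with the origin in its interior. -/
theorem exists_gauge {K : Set (E n)} (hK : IsCompact K) (hc : Convex ℝ K)
    (h0 : (0 : E n) ∈ interior K) : ∃ g : E n → ℝ, IsGauge g ∧ K = {x | g x ≤ 1} := by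
  have hn := mem_interior_iff_mem_nhds.1 h0
  have ha : Absorbent ℝ K := absorbent_nhds_zero hn
  refine ⟨gauge K, ⟨gauge_add_le hc ha, fun r x hr => gauge_smul_of_nonneg hr x, fun x hx =>
    (gauge_pos ha (NormedSpace.isVonNBounded_of_isBounded ℝ hK.isBounded)).2 hx⟩, ?_⟩
  ext x
  rw [mem_ofPred_eq, gauge_le_one_iff_mem_closure hc hn, hK.isClosed.closure_eq]

theorem ga_dense {P : Sph n → Prop} (h : ∀ᵐ θ ∂sig n, P θ) : Dense {θ | P θ} := by
  rw [sig, Measure.ae_ennreal_smul_measure_iff (ENNReal.inv_ne_zero.2 (measure_ne_top _ _))] at h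
  exact Measure.dense_of_ae h

/-- The zonoid generated by a weighted gradient field is full dimensional. -/
theorem IsGauge.isNorm_zq (hg : IsGauge g) (hn : 0 < n) {ω : Sph n → ℝ} (hω : Continuous ω)
    (hp : ∀ θ, 0 < ω θ) : IsNorm (zq fun θ : Sph n => ω θ • gradient g (θ : E n)) := by
  obtain ⟨c, L, hc, hL, h1, -, h3⟩ := hg.bounds
  obtain ⟨M, hM⟩ := isCompact_univ.bddAbove_image hω.continuousOn
  have hI : ∀ u : E n,
      Integrable (fun θ : Sph n => |⟪ω θ • gradient g (θ : E n), u⟫|) (sig n) := by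
    intro u
    refine integrable_sig_bdd (C := M * (L * ‖u‖)) ?_ fun θ => ?_
    · exact ((hω.measurable.smul ((measurable_gradient g).comp measurable_subtype_coe)).inner
        measurable_const).abs
    · have h4 : ω θ ≤ M := hM ⟨θ, mem_univ _, rfl⟩
      rw [abs_abs, real_inner_smul_left, abs_mul, abs_of_pos (hp θ)]
      refine mul_le_mul h4 ((abs_real_inner_le_norm _ _).trans ?_) (abs_nonneg _)
        ((hp θ).le.trans h4)
      exact mul_le_mul_of_nonneg_right (h3 _) (norm_nonneg _)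
  refine ⟨⟨fun x y => ?_, fun r x hr => ?_, fun x hx => ?_⟩, fun x => ?_⟩
  · unfold zq
    rw [← integral_add (hI x) (hI y)]
    refine integral_mono (hI _) ((hI x).add (hI y)) fun θ => ?_
    simp only [inner_add_right]
    exact abs_add_le _ _
  · unfold zq
    simp only [real_inner_smul_right, abs_mul, abs_of_nonneg hr]
    rw [integral_const_mul]
  · refine lt_of_le_of_ne (integral_nonneg fun θ => abs_nonneg _) fun h0 => ?_
    have h5 := (integral_eq_zero_iff_of_nonneg (fun θ => abs_nonneg _) (hI x)).1 h0.symm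
    obtain ⟨hu, -⟩ := ga_scale hg hx
    obtain ⟨θ, hθ, h6, h7⟩ := (Metric.dense_iff.1 (ga_dense (h5.and hg.ae_diff_sig)))
      ⟨_, hu⟩ (c / L) (div_pos hc hL)
    have h8 : ⟪gradient g (θ : E n), x⟫ = 0 := by
      simpa [real_inner_smul_left, (hp θ).ne'] using h6
    have h9 : ‖(θ : E n) - ‖x‖⁻¹ • x‖ < c / L := by
      rw [← dist_eq_norm]; exact hθ
    have h10 : ⟪gradient g (θ : E n), (θ : E n) - ‖x‖⁻¹ • x⟫ = g θ := by
      rw [inner_sub_right, real_inner_smul_right, h8, hg.euler h7]; simp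
    have h11 := real_inner_le_norm (gradient g (θ : E n)) ((θ : E n) - ‖x‖⁻¹ • x)
    have h12 := h1 θ
    rw [norm_coe, mul_one] at h12
    rw [lt_div_iff₀ hL] at h9
    nlinarith [mul_le_mul_of_nonneg_right (h3 θ) (norm_nonneg ((θ : E n) - ‖x‖⁻¹ • x))]
  · unfold zq
    simp only [inner_neg_right, abs_neg]

theorem ga_dual_max {q : E n → ℝ} (hq : IsNorm q) (x : E n) :
    ∃ u, q u ≤ 1 ∧ dual q x = ⟪x, u⟫ ∧ ∀ v, q v ≤ 1 → ⟪x, v⟫ ≤ dual q x := by
  obtain ⟨u, hu, h⟩ := hq.toIsGauge.isCompact.exists_isMaxOn (f := fun u => ⟪x, u⟫)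
    ⟨0, show q 0 ≤ 1 by rw [hq.toIsGauge.zero]; exact zero_le_one⟩
    (continuous_const.inner continuous_id).continuousOn
  have e : dual q x = ⟪x, u⟫ :=
    IsGreatest.csSup_eq ⟨⟨u, hu, rfl⟩, by rintro _ ⟨v, hv, rfl⟩; exact h hv⟩
  exact ⟨u, hu, e, fun v hv => e ▸ h hv⟩

theorem ga_le_dual {q : E n → ℝ} (hq : IsNorm q) (x : E n) {v : E n} (hv : q v ≤ 1) :
    ⟪x, v⟫ ≤ dual q x :=
  let ⟨_, _, _, h⟩ := ga_dual_max hq x
  h v hv

theorem ga_inner_le {q : E n → ℝ} (hq : IsNorm q) (x v : E n) : ⟪x, v⟫ ≤ dual q x * q v := by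
  by_cases hv : v = 0
  · rw [hv, hq.toIsGauge.zero]; simp
  · have hp := hq.pos v hv
    have h := ga_le_dual hq x (v := (q v)⁻¹ • v) (by
      rw [hq.smul _ _ (inv_nonneg.2 hp.le), inv_mul_cancel₀ hp.ne'])
    rwa [real_inner_smul_right, inv_mul_le_iff₀' hp] at h

theorem ga_dual_neg {q : E n → ℝ} (hq : IsNorm q) (x : E n) : dual q (-x) ≤ dual q x := by
  obtain ⟨u, hu, e, -⟩ := ga_dual_max hq (-x)
  rw [e, inner_neg_left, ← inner_neg_right]
  exact ga_le_dual hq x (by rwa [hq.neg])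

theorem IsNorm.dual {q : E n → ℝ} (hq : IsNorm q) : IsNorm (dual q) := by
  refine ⟨⟨fun x y => ?_, fun r x hr => le_antisymm ?_ ?_, fun x hx => ?_⟩, fun x => ?_⟩
  · obtain ⟨u, hu, e, -⟩ := ga_dual_max hq (x + y)
    rw [e, inner_add_left]
    exact add_le_add (ga_le_dual hq x hu) (ga_le_dual hq y hu)
  · obtain ⟨u, hu, e, -⟩ := ga_dual_max hq (r • x)
    rw [e, real_inner_smul_left]
    exact mul_le_mul_of_nonneg_left (ga_le_dual hq x hu) hr
  · obtain ⟨u, hu, e, -⟩ := ga_dual_max hq x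
    rw [e, ← real_inner_smul_left]
    exact ga_le_dual hq _ hu
  · have h1 := ga_inner_le hq x x
    have h2 : 0 < ⟪x, x⟫ := real_inner_self_pos.2 hx
    exact (mul_pos_iff_of_pos_right (hq.pos x hx)).1 (h2.trans_le h1)
  · refine le_antisymm (ga_dual_neg hq x) ?_
    simpa using ga_dual_neg hq (-x)

theorem IsNorm.dual_ball {q : E n → ℝ} (hq : IsNorm q) :
    {x | Vale.Agent.P237.dual q x ≤ 1} = Zb q := by
  ext x
  refine ⟨fun h u => (ga_inner_le hq x u).trans ?_, fun h => ?_⟩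
  · exact mul_le_of_le_one_left (hq.toIsGauge.nonneg u) h
  · obtain ⟨u, hu, e, -⟩ := ga_dual_max hq x
    rw [mem_ofPred_eq, e]
    exact (h u).trans hu

theorem IsNorm.grad_dual_le {q : E n → ℝ} (hq : IsNorm q) (x : E n) :
    q (gradient (Vale.Agent.P237.dual q) x) ≤ 1 := by
  by_cases hx : DifferentiableAt ℝ (Vale.Agent.P237.dual q) x
  · obtain ⟨u, hu, e, -⟩ := ga_dual_max hq x
    have h1 : IsLocalMin (fun z => Vale.Agent.P237.dual q z - innerSL ℝ u z) x := by
      refine Filter.Eventually.of_forall fun z => ?_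
      have := ga_le_dual hq z hu
      simp only [innerSL_apply_apply, e, real_inner_comm u]
      rw [real_inner_comm] at this
      linarith
    have h2 := h1.hasFDerivAt_eq_zero (hx.hasFDerivAt.sub (innerSL ℝ u).hasFDerivAt)
    have h3 : gradient (Vale.Agent.P237.dual q) x = u := by
      rw [gradient, sub_eq_zero.1 h2]
      exact (InnerProductSpace.toDual ℝ (E n)).symm_apply_apply u
    rwa [h3]
  · rw [gradient_eq_zero_of_not_differentiableAt hx, hq.toIsGauge.zero]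
    exact zero_le_one

theorem Zb_const_mul {q : E n → ℝ} {c : ℝ} (hc : 0 < c) :
    Zb (fun u => c * q u) = c • Zb q := by
  ext x
  rw [mem_smul_set_iff_inv_smul_mem₀ hc.ne']
  simp only [Zb, mem_ofPred_eq, real_inner_smul_left, inv_mul_le_iff₀ hc]

theorem Zb_norm {r : ℝ} (hr : 0 ≤ r) :
    Zb (fun u : E n => r * ‖u‖) = closedBall 0 r := by
  ext x
  rw [mem_closedBall_zero_iff]
  refine ⟨fun h => ?_, fun h u => (real_inner_le_norm x u).trans
    (mul_le_mul_of_nonneg_right h (norm_nonneg u))⟩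
  have h3 : ⟪x, x⟫ ≤ r * ‖x‖ := h x
  rw [real_inner_self_eq_norm_mul_norm] at h3
  rcases (norm_nonneg x).eq_or_lt with h | h
  · rw [← h]; exact hr
  · exact le_of_mul_le_mul_right h3 h

end Vale.Agent.P237
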