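import Vale.Agent.P237.Gauge

open MeasureTheory Metric Set
open scoped RealInnerProductSpace Pointwise ENNReal NNReal

namespace Vale.Agent.P237

variable {n : ℕ}

/-- A locally Lipschitz function that vanishes outside a ball is Lipschitz. -/
theorem ibp_lip {H : E n → ℝ} (hH : LocallyLipschitz H) (h0 : ∀ x, 2 ≤ ‖x‖ → H x = 0) :
    ∃ K, LipschitzWith K H := by
  obtain ⟨K, hK⟩ := LocallyLipschitzOn.exists_lipschitzOnWith_of_compact
    (isCompact_closedBall (0 : E n) 3) hH.locallyLipschitzOn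
  obtain ⟨C, hC⟩ := (isCompact_closedBall (0 : E n) 3).exists_bound_of_continuousOn
    hH.continuous.continuousOn
  have hC0 : 0 ≤ C := (norm_nonneg _).trans (hC 0 (mem_closedBall_self (by norm_num)))
  have key : ∀ x y : E n, 3 < ‖x‖ → dist (H x) (H y) ≤ ((K : ℝ) + C) * dist x y := by
    intro x y hx
    rw [h0 x (by linarith)]
    by_cases hy : 2 ≤ ‖y‖
    · rw [h0 y hy, dist_self]; positivity
    · have h1 := norm_sub_norm_le x y
      rw [← dist_eq_norm] at h1
      have h2 := hC y (by rw [mem_closedBall_zero_iff]; linarith)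
      rw [dist_comm, dist_zero_right]
      have h3 : (0 : ℝ) ≤ K := K.2
      nlinarith
  refine ⟨_, LipschitzWith.of_dist_le' (K := (K : ℝ) + C) fun x y => ?_⟩
  by_cases hx : 3 < ‖x‖
  · exact key x y hx
  by_cases hy : 3 < ‖y‖
  · rw [dist_comm, dist_comm x y]; exact key y x hy
  have h1 := hK.dist_le_mul x (by rw [mem_closedBall_zero_iff]; linarith) y
    (by rw [mem_closedBall_zero_iff]; linarith)
  have h2 := dist_nonneg (x := x) (y := y)
  nlinarith

/-- The directional derivative of such a function is integrable with integral zero. -/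
theorem ibp_zero {H : E n → ℝ} (hH : LocallyLipschitz H) (h0 : ∀ x, 2 ≤ ‖x‖ → H x = 0)
    (V : E n) : Integrable (fun x => lineDeriv ℝ H x V) ∧ ∫ x, lineDeriv ℝ H x V = 0 := by
  obtain ⟨K, hK⟩ := ibp_lip hH h0
  have hc : HasCompactSupport H :=
    HasCompactSupport.intro (isCompact_closedBall (0 : E n) 2) fun x hx =>
      h0 x (by rw [mem_closedBall_zero_iff, not_le] at hx; exact hx.le)
  refine ⟨?_, ?_⟩
  · refine ((hK.locallyIntegrable_lineDeriv V).integrableOn_isCompact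
      (isCompact_closedBall (0 : E n) 2)).integrable_of_forall_notMem_eq_zero fun x hx => ?_
    rw [mem_closedBall_zero_iff, not_le] at hx
    have h1 : H =ᶠ[nhds x] fun _ => 0 := by
      filter_upwards [(isOpen_lt continuous_const continuous_norm).mem_nhds hx] with y hy
      exact h0 y (le_of_lt hy)
    rw [h1.lineDeriv_eq, lineDeriv]
    exact deriv_const _ _
  · have h1 := (LipschitzWith.const (1 : ℝ)).integral_lineDeriv_mul_eq (μ := volume) hK hc (-V)
    simp only [neg_neg, mul_one] at h1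
    rw [← h1]
    simp [lineDeriv]

/-- A radial cut-off. -/
theorem ibp_bump : ∃ χ : ℝ → ℝ, ContDiff ℝ 1 χ ∧ (∀ r, r ≤ 1 → χ r = 0) ∧
    (∀ r, 2 ≤ r → χ r = 0) ∧ (∀ r, 0 ≤ χ r) ∧ χ (3 / 2) = 1 := by
  let f : ContDiffBump (3 / 2 : ℝ) := ⟨1 / 4, 1 / 2, by norm_num, by norm_num⟩
  refine ⟨f, f.contDiff, fun r hr => f.zero_of_le_dist ?_, fun r hr => f.zero_of_le_dist ?_,
    f.nonneg', f.one_of_mem_closedBall (mem_closedBall_self f.rIn_pos.le)⟩
  · rw [Real.dist_eq, abs_of_nonpos (by linarith)]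
    show (1 / 2 : ℝ) ≤ _
    linarith
  · rw [Real.dist_eq, abs_of_nonneg (by linarith)]
    show (1 / 2 : ℝ) ≤ _
    linarith

/-- The radial integrals. -/
theorem ibp_radial {χ : ℝ → ℝ} (hχ : ContDiff ℝ 1 χ) (h1 : ∀ r, r ≤ 1 → χ r = 0)
    (h2 : ∀ r, 2 ≤ r → χ r = 0) (h3 : ∀ r, 0 ≤ χ r) (h4 : χ (3 / 2) = 1) (m : ℕ) :
    ∃ A : ℝ, 0 < A ∧ ∀ P Q : ℝ, ∫ r in Ioi (0 : ℝ), (r ^ (m + 1) * deriv χ r * P + r ^ m * χ r * Q)
      = A * (Q - (m + 1) * P) := by
  have hc : HasCompactSupport χ := HasCompactSupport.intro (isCompact_Icc (a := 1) (b := 2))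
    fun r hr => by
      rcases le_total r 1 with h | h
      · exact h1 r h
      · exact h2 r (le_of_lt (not_le.1 fun h' => hr ⟨h, h'⟩))
  have hcont := hχ.continuous
  have hcd : Continuous (deriv χ) := hχ.continuous_deriv le_rfl
  have hdiff : Differentiable ℝ χ := hχ.differentiable one_ne_zero
  have c1 : Continuous fun r : ℝ => r ^ m * χ r := by fun_prop
  have s1 : HasCompactSupport fun r : ℝ => r ^ m * χ r := hc.mul_left
  have i1 : Integrable fun r : ℝ => r ^ m * χ r := c1.integrable_of_hasCompactSupport s1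
  have i2 : Integrable fun r : ℝ => r ^ (m + 1) * deriv χ r :=
    (by fun_prop : Continuous fun r : ℝ => r ^ (m + 1) * deriv χ r).integrable_of_hasCompactSupport
      hc.deriv.mul_left
  have hB : ∫ r in Ioi (0 : ℝ), ((m + 1) * (r ^ m * χ r) + r ^ (m + 1) * deriv χ r) =
      0 - (0 : ℝ) ^ (m + 1) * χ 0 := by
    refine integral_Ioi_of_hasDerivAt_of_tendsto' (f := fun r => r ^ (m + 1) * χ r)
      (fun r _ => ?_) ((i1.const_mul _).add i2).integrableOn ?_
    · refine ((hasDerivAt_pow (m + 1) r).mul (hdiff r).hasDerivAt).congr_deriv ?_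
      push_cast
      ring
    · refine tendsto_const_nhds.congr' ?_
      filter_upwards [Filter.eventually_ge_atTop 2] with r hr
      rw [h2 r hr, mul_zero]
  rw [integral_add (i1.const_mul _).integrableOn i2.integrableOn, integral_const_mul,
    h1 0 zero_le_one] at hB
  refine ⟨∫ r in Ioi (0 : ℝ), r ^ m * χ r, ?_, fun P Q => ?_⟩
  · rw [setIntegral_eq_integral_of_forall_compl_eq_zero fun r hr => by
      rw [h1 r ((not_lt.1 hr).trans zero_le_one), mul_zero]]
    refine c1.integral_pos_of_hasCompactSupport_nonneg_nonzero s1 (fun r => ?_) (x := 3 / 2) ?_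
    · rcases le_total r 1 with h | h
      · simp only [h1 r h, mul_zero, Pi.zero_apply, le_refl]
      · exact mul_nonneg (pow_nonneg (zero_le_one.trans h) _) (h3 r)
    · rw [h4]; positivity
  · rw [integral_add (i2.mul_const _).integrableOn (i1.mul_const _).integrableOn,
      integral_mul_const, integral_mul_const]
    linear_combination P * hB

theorem ibp_norm_line {x : E n} (hx : x ≠ 0) (V : E n) :
    HasDerivAt (fun s : ℝ => ‖x + s • V‖) (⟪x, V⟫ / ‖x‖) 0 := by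
  have h1 : HasDerivAt (fun t : ℝ => x + t • V) V 0 := by
    simpa using ((hasDerivAt_id (0 : ℝ)).smul_const V).const_add x
  have hx' := norm_pos_iff.2 hx
  have h2 := h1.norm_sq.sqrt (by simpa using hx)
  simp only [Real.sqrt_sq (norm_nonneg _), zero_smul, add_zero] at h2
  refine h2.congr_deriv ?_
  field_simp

theorem ibp_inner_line (b x V : E n) : HasDerivAt (fun s : ℝ => ⟪b, x + s • V⟫) ⟪b, V⟫ 0 := by
  simp only [inner_add_right, real_inner_smul_right]
  simpa using ((hasDerivAt_id (0 : ℝ)).mul_const ⟪b, V⟫).const_add ⟪b, x⟫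

/-- The directional derivative of the test function. -/
theorem ibp_line {N : E n → ℝ} (hN : IsGauge N) (d : ℕ) {φ φ' χ : ℝ → ℝ}
    (hφ : ∀ t, HasDerivAt φ (φ' t) t) (hχ : Differentiable ℝ χ) (b V : E n) (θ : Sph n)
    (hθ : DifferentiableAt ℝ N (θ : E n)) {r : ℝ} (hr : 0 < r) :
    lineDeriv ℝ (fun x => χ ‖x‖ * φ (⟪b, x⟫ / ‖x‖) * N x ^ (d + 1)) (r • (θ : E n)) V =
      r ^ (d + 1) * deriv χ r * (N θ ^ (d + 1) * ⟪(θ : E n), V⟫ * φ ⟪b, (θ : E n)⟫) +
      r ^ d * χ r * (φ ⟪b, (θ : E n)⟫ * (((d + 1 : ℕ) : ℝ) * ⟪XF (d + 1) N (θ : E n), V⟫) +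
        N θ ^ (d + 1) * (φ' ⟪b, (θ : E n)⟫ * (⟪b, V⟫ - ⟪b, (θ : E n)⟫ * ⟪(θ : E n), V⟫))) := by
  have hn : ‖r • (θ : E n)‖ = r := by rw [norm_smul, norm_coe, mul_one, Real.norm_of_nonneg hr.le]
  have hx : r • (θ : E n) ≠ 0 := by rw [← norm_pos_iff, hn]; exact hr
  have e0 : r • (θ : E n) + (0 : ℝ) • V = r • (θ : E n) := by rw [zero_smul, add_zero]
  have e1 : ⟪b, r • (θ : E n)⟫ / r = ⟪b, (θ : E n)⟫ := by
    rw [real_inner_smul_right]; field_simp
  have d1 := ibp_norm_line hx V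
  have d2 := ibp_inner_line b (r • (θ : E n)) V
  have d3 := ga_line ((hN.diff_smul hr _).2 hθ) V
  have d4 := (hχ _).hasDerivAt.comp (0 : ℝ) d1
  have d5 := (hφ _).comp (0 : ℝ) (d2.div d1 (by rw [e0, hn]; exact hr.ne'))
  have d6 := (d4.mul d5).mul (d3.pow (d + 1))
  refine Eq.trans (HasLineDerivAt.lineDeriv d6) ?_
  simp only [Function.comp_def, Pi.mul_apply, Pi.div_apply, Pi.pow_apply, e0, hn, e1,
    hN.grad_smul hr, hN.smul r _ hr.le, XF, Nat.add_sub_cancel, real_inner_smul_left,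
    real_inner_smul_right]
  field_simp
  ring

theorem ibp_locLip {N : E n → ℝ} (hN : IsGauge N) (d : ℕ) {φ φ' χ : ℝ → ℝ}
    (hφ : ∀ t, HasDerivAt φ (φ' t) t) (hφ' : Continuous φ') (hχ : ContDiff ℝ 1 χ)
    (h1 : ∀ r, r ≤ 1 → χ r = 0) (b : E n) :
    LocallyLipschitz fun x : E n => χ ‖x‖ * φ (⟪b, x⟫ / ‖x‖) * N x ^ d := by
  have hφ1 : ContDiff ℝ 1 φ := contDiff_one_iff_deriv.2 ⟨fun t => (hφ t).differentiableAt, by
    rw [show deriv φ = φ' from funext fun t => (hφ t).deriv]; exact hφ'⟩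
  have hw : ContDiff ℝ 1 fun x : E n => χ ‖x‖ * φ (⟪b, x⟫ / ‖x‖) := by
    refine contDiff_iff_contDiffAt.2 fun x => ?_
    by_cases hx : x = 0
    · refine (contDiffAt_const (c := (0 : ℝ))).congr_of_eventuallyEq ?_
      filter_upwards [(isOpen_lt continuous_norm continuous_const).mem_nhds
        (show ‖x‖ < 1 by rw [hx, norm_zero]; exact one_pos)] with y hy
      rw [h1 _ (le_of_lt hy), zero_mul]
    · have c1 : ContDiffAt ℝ 1 (fun y : E n => ‖y‖) x := contDiffAt_norm ℝ hx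
      have c2 : ContDiffAt ℝ 1 (fun y : E n => ⟪b, y⟫) x := contDiffAt_const.inner ℝ contDiffAt_id
      exact (hχ.contDiffAt.comp x c1).mul
        (hφ1.contDiffAt.comp x (c2.div c1 (norm_ne_zero_iff.2 hx)))
  have hG : ContDiff ℝ 1 fun p : ℝ × ℝ => p.1 * p.2 ^ d := by fun_prop
  obtain ⟨L, hL⟩ := hN.lipschitz
  exact hG.locallyLipschitz.comp (hw.locallyLipschitz.prodMk hL.locallyLipschitz)

theorem ibp_int {N : E n → ℝ} (hN : IsGauge N) (d : ℕ) {φ : ℝ → ℝ} (hφ : Continuous φ)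
    (b V : E n) :
    Integrable (fun θ : Sph n => φ ⟪b, (θ : E n)⟫ * (d * ⟪XF d N (θ : E n), V⟫)) (sig n) := by
  obtain ⟨C, hC⟩ := hN.XF_bdd d
  have h1 : Integrable (fun θ : Sph n => φ ⟪b, (θ : E n)⟫) (sig n) := integrable_sig (by fun_prop)
  refine h1.mul_bdd (c := d * (C * ‖V‖)) ?_ (Filter.Eventually.of_forall fun θ => ?_)
  · exact ((((hN.measurable_XF d).comp measurable_subtype_coe).inner measurable_const).const_mul
      _).aestronglyMeasurable
  · rw [norm_mul, Real.norm_natCast]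
    exact mul_le_mul_of_nonneg_left ((norm_inner_le_norm _ _).trans
      (mul_le_mul_of_nonneg_right (hC θ) (norm_nonneg _))) (Nat.cast_nonneg _)

/-- Integration by parts on the sphere for `N^d` against a zonal function. -/
theorem ibp (hn : 0 < n) {N : E n → ℝ} (hN : IsGauge N) {d : ℕ} (hd : 1 ≤ d)
    {φ φ' : ℝ → ℝ} (hφ : ∀ t, HasDerivAt φ (φ' t) t) (hφ' : Continuous φ')
    {b : E n} (hb : ‖b‖ = 1) (V : E n) :
    ∫ θ, φ ⟪b, (θ : E n)⟫ * (d * ⟪XF d N (θ : E n), V⟫) ∂sig n =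
      ∫ θ, N θ ^ d * (((n : ℝ) + d - 1) * ⟪(θ : E n), V⟫ * φ ⟪b, (θ : E n)⟫ -
        φ' ⟪b, (θ : E n)⟫ * (⟪b, V⟫ - ⟪b, (θ : E n)⟫ * ⟪(θ : E n), V⟫)) ∂sig n := by
  obtain ⟨d, rfl⟩ := Nat.exists_eq_add_of_le' hd
  obtain ⟨χ, c0, c1, c2, c3, c4⟩ := ibp_bump
  obtain ⟨A, hA, hrad⟩ := ibp_radial c0 c1 c2 c3 c4 (n - 1 + d)
  obtain ⟨i1, i2⟩ := ibp_zero (ibp_locLip hN (d + 1) hφ hφ' c0 c1 b)
    (fun x hx => by rw [c2 _ hx, zero_mul, zero_mul]) V
  have hφc : Continuous φ := continuous_iff_continuousAt.2 fun t => (hφ t).continuousAt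
  have hNc := hN.continuous
  have hk := kappa_pos n
  have hn' : (0 : ℝ) < n := Nat.cast_pos.2 hn
  rw [integral_polar hn i1, mul_eq_zero, or_iff_right (by positivity)] at i2
  rw [← sub_eq_zero, ← integral_sub (ibp_int hN _ hφc b V) (integrable_sig (by fun_prop)),
    ← mul_eq_zero_iff_left hA.ne', ← integral_const_mul, ← i2]
  refine integral_congr_ae ?_
  filter_upwards [hN.ae_diff_sig] with θ hθ
  have h1 := hrad (N θ ^ (d + 1) * ⟪(θ : E n), V⟫ * φ ⟪b, (θ : E n)⟫)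
    (φ ⟪b, (θ : E n)⟫ * (((d + 1 : ℕ) : ℝ) * ⟪XF (d + 1) N (θ : E n), V⟫) +
      N θ ^ (d + 1) * (φ' ⟪b, (θ : E n)⟫ * (⟪b, V⟫ - ⟪b, (θ : E n)⟫ * ⟪(θ : E n), V⟫)))
  rw [Nat.cast_add (n - 1) d, Nat.cast_pred hn] at h1
  refine Eq.trans ?_ (h1.symm.trans (setIntegral_congr_fun measurableSet_Ioi fun r hr => ?_))
  · push_cast
    ring
  · rw [ibp_line hN d hφ (c0.differentiable one_ne_zero) b V θ hθ hr]
    ring

theorem ibp_grad_norm (θ : Sph n) (V : E n) :
    ⟪gradient (fun x : E n => ‖x‖) θ, V⟫ = ⟪(θ : E n), V⟫ := by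
  have hθ : (θ : E n) ≠ 0 := ne_zero_of_mem_unit_sphere θ
  have h1 := ga_line ((contDiffAt_norm ℝ (n := 1) hθ).differentiableAt one_ne_zero) V
  rw [h1.unique (ibp_norm_line hθ V), norm_coe, div_one]

/-- Stein's identity for a coordinate of a uniform point on the sphere. -/
theorem stein (hn : 0 < n) {φ φ' : ℝ → ℝ} (hφ : ∀ t, HasDerivAt φ (φ' t) t)
    (hφ' : Continuous φ') :
    zon n (fun t => (1 - t ^ 2) * φ' t) = ((n : ℝ) - 1) * zon n (fun t => t * φ t) := by
  have hφc : Continuous φ := continuous_iff_continuousAt.2 fun t => (hφ t).continuousAt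
  have h := ibp hn isNorm_norm.toIsGauge (d := 1) le_rfl hφ hφ' (norm_e0 hn) (e0 n)
  simp only [XF, Nat.sub_self, pow_zero, one_smul, ibp_grad_norm, norm_coe, Nat.cast_one, one_mul,
    real_inner_self_eq_norm_sq, norm_e0 hn, one_pow] at h
  simp only [real_inner_comm (e0 n)] at h
  rw [← sub_eq_zero, ← integral_sub (integrable_sig (by fun_prop))
    (integrable_sig (by fun_prop))] at h
  rw [zon, zon, ← integral_const_mul, ← sub_eq_zero, ← integral_sub (integrable_sig (by fun_prop))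
    (integrable_sig (by fun_prop)), ← h]
  refine integral_congr_ae (Filter.Eventually.of_forall fun θ => ?_)
  simp only
  ring

end Vale.Agent.P237
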