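import Vale.Agent.P237.KernelB

open MeasureTheory Metric Set Filter Topology
open scoped RealInnerProductSpace Pointwise ENNReal NNReal

namespace Vale.Agent.P237

variable {n : ℕ}

theorem kc_rest (hn : 2 ≤ n) {N : E n → ℝ} (hN : IsNorm N) (d : ℕ) :
    Tendsto (fun D => ip (rest D fun x => N x ^ d) (rest D fun x => N x ^ d)) atTop (𝓝 0) := by
  obtain ⟨K, hK⟩ := hN.toIsGauge.lipschitz
  obtain ⟨c, L, -, hL, -, hle, -⟩ := hN.toIsGauge.bounds
  refine rest_tendsto hn (hN.toIsGauge.continuous.pow d) (fun x => by rw [hN.neg])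
    (L := K * (d * L ^ (d - 1))) fun a b ha hb => ?_
  have h1 : |N a - N b| ≤ K * ‖a - b‖ := by
    have := hK.dist_le_mul a b
    rwa [Real.dist_eq, dist_eq_norm] at this
  have h2 : max |N a| |N b| ≤ L := by
    rw [abs_of_nonneg (hN.toIsGauge.nonneg a), abs_of_nonneg (hN.toIsGauge.nonneg b)]
    refine max_le ?_ ?_
    · simpa [ha] using hle a
    · simpa [hb] using hle b
  have h3 : 0 ≤ max |N a| |N b| := le_max_of_le_left (abs_nonneg _)
  calc |N a ^ d - N b ^ d| ≤ |N a - N b| * d * max |N a| |N b| ^ (d - 1) :=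
        abs_pow_sub_pow_le _ _ _
    _ ≤ K * ‖a - b‖ * d * L ^ (d - 1) := by gcongr
    _ = _ := by ring

theorem kc_sum (hn : 2 ≤ n) {d : ℕ} (hd : 1 ≤ d) {f g : E n → ℝ} (hf : Continuous f)
    (hg : Continuous g) (hiso : Iso g) {w w' : ℝ} {D : ℕ} (hD : 1 ≤ D) (hw : Wsum d D f ≤ w)
    (hw' : Wsum d D g ≤ w') :
    av f * av g - √w * √w' ≤
      ∑ m ∈ Finset.range (D + 1), gamS n d m * ip (comp m f) (comp m g) := by
  have := sig_prob (n := n) (by omega)
  have hs : Finset.range (D + 1) = insert 0 (insert 1 (Finset.Icc 2 D)) := by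
    ext m
    simp only [Finset.mem_range, Finset.mem_insert, Finset.mem_Icc]
    omega
  have h0 : ip (comp 0 f) (comp 0 g) = av f * av g := by
    unfold ip
    simp only [comp_zero hn]
    simp
  have h1 : ip (comp 1 f) (comp 1 g) = 0 := by
    unfold ip
    simp only [fun θ : Sph n => comp_one_of_iso hn hg hiso (norm_coe θ), mul_zero, integral_zero]
  rw [hs, Finset.sum_insert (by simp), Finset.sum_insert (by simp), h0, h1, gamS_zero hd]
  have h2 := Real.sum_sqrt_mul_sqrt_le (Finset.Icc 2 D)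
    (f := fun m => gam n d m * ip (comp m f) (comp m f))
    (g := fun m => gam n d m * ip (comp m g) (comp m g))
    (fun m => mul_nonneg (gam_nonneg hn hd m) (ip_self_nonneg _))
    (fun m => mul_nonneg (gam_nonneg hn hd m) (ip_self_nonneg _))
  have h3 : √(Wsum d D f) * √(Wsum d D g) ≤ √w * √w' :=
    mul_le_mul (Real.sqrt_le_sqrt hw) (Real.sqrt_le_sqrt hw') (Real.sqrt_nonneg _)
      (Real.sqrt_nonneg _)
  have h4 : -∑ m ∈ Finset.Icc 2 D, gamS n d m * ip (comp m f) (comp m g) ≤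
      ∑ m ∈ Finset.Icc 2 D, √(gam n d m * ip (comp m f) (comp m f)) *
        √(gam n d m * ip (comp m g) (comp m g)) := by
    rw [← Finset.sum_neg_distrib]
    refine Finset.sum_le_sum fun m _ => (neg_le_abs _).trans ?_
    have hg0 := gam_nonneg hn hd m
    rw [abs_mul, Real.sqrt_mul hg0, Real.sqrt_mul hg0, mul_mul_mul_comm, Real.mul_self_sqrt hg0]
    exact mul_le_mul (abs_gamS_le hn hd m) (abs_ip_le (continuous_comp hf m) (continuous_comp hg m))
      (abs_nonneg _) hg0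
  unfold Wsum at h3
  linarith

/-- The bilinear lower bound. -/
theorem kernel_bound (hn : 2 ≤ n) {N N' : E n → ℝ} (hN : IsNorm N) (hN' : IsNorm N') {d : ℕ}
    (hd : 1 ≤ d) (hiso : Iso fun x => N' x ^ d) {w w' : ℝ}
    (hw : ∀ D, Wsum d D (fun x => N x ^ d) ≤ w) (hw' : ∀ D, Wsum d D (fun x => N' x ^ d) ≤ w') :
    c0 n * (av (fun x => N x ^ d) * av (fun x => N' x ^ d) - √w * √w') ≤ Lam d N N' := by
  have hn0 : 0 < n := by omega
  have hf : Continuous fun x => N x ^ d := hN.toIsGauge.continuous.pow d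
  have hg : Continuous fun x => N' x ^ d := hN'.toIsGauge.continuous.pow d
  have r1 := kc_rest hn hN d
  have r2 := kc_rest hn hN' d
  generalize hfe : (fun x => N x ^ d) = f at *
  generalize hge : (fun x => N' x ^ d) = g at *
  obtain ⟨C, hC⟩ := zon_abs_Kk_le hn d
  have hd0 : (0 : ℝ) < (d : ℝ) ^ 2 := by
    have : (1 : ℝ) ≤ d := by exact_mod_cast hd
    positivity
  have hc := c0_pos hn0
  have A : ∀ D, 1 ≤ D → c0 n * (d : ℝ) ^ 2 * (av f * av g - √w * √w') -
      C * (√(ip (rest D f) (rest D f)) * √(ip (rest D g) (rest D g))) ≤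
      (d : ℝ) ^ 2 * Lam d N N' := by
    intro D hD
    have h1 := kc_sum hn hd hf hg hiso hD (hw D) (hw' D)
    have h2 : Tendsto (fun δ => ∑ m ∈ Finset.range (D + 1),
        zon n (fun t => Kk n d (s0 δ) (s1 δ) (s2 δ) t * Qp n m t) * ip (comp m f) (comp m g))
        (𝓝[>] 0) (𝓝 (∑ m ∈ Finset.range (D + 1),
          c0 n * (d : ℝ) ^ 2 * gamS n d m * ip (comp m f) (comp m g))) :=
      tendsto_finsetSum _ fun m _ => (zon_Kk_tendsto hn hd m).mul_const _
    have h3 : ∑ m ∈ Finset.range (D + 1),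
        c0 n * (d : ℝ) ^ 2 * gamS n d m * ip (comp m f) (comp m g) ≤ (d : ℝ) ^ 2 * Lam d N N' +
          C * (√(ip (rest D f) (rest D f)) * √(ip (rest D g) (rest D g))) := by
      refine le_of_tendsto h2 ?_
      filter_upwards [Ioc_mem_nhdsGT (zero_lt_one' ℝ)] with δ hδ
      have a1 := two_ibp hn0 hN.toIsGauge hN'.toIsGauge hd (hasDerivAt_s0 hδ.1)
        (hasDerivAt_s1 hδ.1) (continuous_s2 hδ.1) (abs_s0_le hδ.1)
      rw [hfe, hge] at a1
      have a2 := (abs_le.1 (ip_Tk_sub_le hn (kb_cK (n := n) hδ.1 d) hf hg D)).1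
      have a3 := mul_le_mul_of_nonneg_right (hC δ hδ.1 hδ.2)
        (mul_nonneg (Real.sqrt_nonneg (ip (rest D f) (rest D f)))
          (Real.sqrt_nonneg (ip (rest D g) (rest D g))))
      linarith
    have h4 := mul_le_mul_of_nonneg_left h1 (mul_pos hc hd0).le
    rw [Finset.mul_sum] at h4
    simp only [← mul_assoc] at h4
    simp only [← mul_assoc] at h3 ⊢
    linarith
  have B : Tendsto (fun D => c0 n * (d : ℝ) ^ 2 * (av f * av g - √w * √w') -
      C * (√(ip (rest D f) (rest D f)) * √(ip (rest D g) (rest D g)))) atTop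
      (𝓝 (c0 n * (d : ℝ) ^ 2 * (av f * av g - √w * √w') - C * (√0 * √0))) :=
    tendsto_const_nhds.sub ((r1.sqrt.mul r2.sqrt).const_mul C)
  have h := le_of_tendsto B (eventually_atTop.2 ⟨1, A⟩)
  rw [Real.sqrt_zero, mul_zero, mul_zero, sub_zero, mul_comm (c0 n), mul_assoc] at h
  exact le_of_mul_le_mul_left h hd0

theorem kc_av_pos (hn : 0 < n) {N : E n → ℝ} (hN : IsGauge N) (k : ℕ) :
    0 < ∫ θ, N (θ : E n) ^ k ∂sig n := by
  have := sig_prob hn
  obtain ⟨c, L, hc, -, hle, -, -⟩ := hN.bounds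
  have hc' := hN.continuous
  have : ∫ _ : Sph n, c ^ k ∂sig n ≤ ∫ θ, N (θ : E n) ^ k ∂sig n := by
    refine integral_mono (integrable_const _) (integrable_sig (by fun_prop)) fun θ => ?_
    refine pow_le_pow_left₀ hc.le ?_ k
    simpa [norm_coe θ] using hle θ
  rw [integral_const, probReal_univ, one_smul] at this
  exact (pow_pos hc k).trans_le this

theorem kc_tau_pos (hn : 0 < n) {N : E n → ℝ} (hN : IsGauge N) (d : ℕ) : 0 < tau d N :=
  mul_pos (kc_av_pos hn hN _) (Real.rpow_pos_of_pos (hN.int_inv_pos hn) _)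

theorem kc_rev {f f' A A' : ℝ} (hf : 0 ≤ f) (hf' : 0 ≤ f') (hA : 0 ≤ A) (hA' : 0 ≤ A')
    (h : A ≤ f ^ 2) (h' : A' ≤ f' ^ 2) :
    √A * √A' ≤ f * f' - √(f ^ 2 - A) * √(f' ^ 2 - A') := by
  have e1 := Real.sq_sqrt hA
  have e2 := Real.sq_sqrt hA'
  have e3 := Real.sq_sqrt (sub_nonneg.2 h)
  have e4 := Real.sq_sqrt (sub_nonneg.2 h')
  rw [le_sub_iff_add_le]
  refine (sq_le_sq₀ (by positivity) (by positivity)).1 ?_
  generalize √A = x at *
  generalize √A' = x' at *
  generalize √(f ^ 2 - A) = y at *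
  generalize √(f' ^ 2 - A') = y' at *
  have e5 : (f * f') ^ 2 = (x ^ 2 + y ^ 2) * (x' ^ 2 + y' ^ 2) := by
    rw [e1, e2, e3, e4]; ring
  rw [e5]
  nlinarith [sq_nonneg (x * y' - y * x')]

/-- The analytic core: the bilinear bound in terms of `tau`, strict unless `N'` is Euclidean. -/
theorem lam_bound (hn : 2 ≤ n) {d : ℕ} (hd : 1 ≤ d) (h : OneNorm n d) {N N' : E n → ℝ}
    (hN : IsNorm N) (hN' : IsNorm N') (hiso : Iso fun x => N' x ^ d) :
    c0 n * (tau d N * tau d N') ≤ Lam d N N' ∧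
      ((∃ a b : Sph n, N' a ≠ N' b) → c0 n * (tau d N * tau d N') < Lam d N N') := by
  have hn0 : 0 < n := by omega
  obtain ⟨ε, hε, -, h1⟩ := h N hN
  obtain ⟨ε', hε', hp, h1'⟩ := h N' hN'
  have hτ := kc_tau_pos hn0 hN.toIsGauge d
  have hτ' := kc_tau_pos hn0 hN'.toIsGauge d
  have hc := c0_pos hn0
  have hb := kernel_bound hn hN hN' hd hiso
    (w := av (fun x => N x ^ d) ^ 2 - (tau d N ^ 2 + ε))
    (w' := av (fun x => N' x ^ d) ^ 2 - (tau d N' ^ 2 + ε'))
    (fun D => by linarith [h1 D]) (fun D => by linarith [h1' D])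
  have h0 := h1 0
  have h0' := h1' 0
  simp only [Wsum, show Finset.Icc 2 0 = ∅ from rfl, Finset.sum_empty, add_zero] at h0 h0'
  have hr := kc_rev (f := av fun x => N x ^ d) (f' := av fun x => N' x ^ d)
    (kc_av_pos hn0 hN.toIsGauge d).le (kc_av_pos hn0 hN'.toIsGauge d).le
    (by positivity) (by positivity) h0 h0'
  have h2 := (mul_le_mul_of_nonneg_left hr hc.le).trans hb
  have h3 : tau d N ≤ √(tau d N ^ 2 + ε) := Real.le_sqrt_of_sq_le (by linarith)
  have h3' : tau d N' ≤ √(tau d N' ^ 2 + ε') := Real.le_sqrt_of_sq_le (by linarith)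
  refine ⟨le_trans (mul_le_mul_of_nonneg_left (mul_le_mul h3 h3' hτ'.le (Real.sqrt_nonneg _))
    hc.le) h2, fun hab => lt_of_lt_of_le (mul_lt_mul_of_pos_left ?_ hc) h2⟩
  have h4 : tau d N' < √(tau d N' ^ 2 + ε') := Real.lt_sqrt_of_sq_lt (by linarith [hp hab])
  exact mul_lt_mul' h3 h4 hτ'.le (hτ.trans_le h3)

end Vale.Agent.P237
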