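import Vale.Agent.P237.Funk

open MeasureTheory Metric Set Filter Topology
open scoped RealInnerProductSpace Pointwise ENNReal NNReal

namespace Vale.Agent.P237

variable {n : ℕ}

/-- The kernel obtained after two integrations by parts. -/
noncomputable def Kk (n d : ℕ) (φ φ' φ'' : ℝ → ℝ) (t : ℝ) : ℝ :=
  ((n : ℝ) + d - 1) * t * (((n : ℝ) + d - 1) * φ t + t * φ' t) -
    (1 - t ^ 2) * (((n : ℝ) + d) * φ' t + t * φ'' t) - d * φ' t

/-- Bounded and measurable. -/
def KBM {X : Type*} [MeasurableSpace X] (F : X → ℝ) : Prop :=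
  Measurable F ∧ ∃ C : ℝ, ∀ x, |F x| ≤ C

section
variable {X Y : Type*} [MeasurableSpace X] [MeasurableSpace Y] {F G : X → ℝ}

theorem KBM.mul (hF : KBM F) (hG : KBM G) : KBM fun x => F x * G x := by
  obtain ⟨h1, C, hC⟩ := hF
  obtain ⟨h2, D, hD⟩ := hG
  refine ⟨h1.mul h2, C * D, fun x => ?_⟩
  rw [abs_mul]
  exact mul_le_mul (hC x) (hD x) (abs_nonneg _) ((abs_nonneg _).trans (hC x))

theorem KBM.sub (hF : KBM F) (hG : KBM G) : KBM fun x => F x - G x := by
  obtain ⟨h1, C, hC⟩ := hF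
  obtain ⟨h2, D, hD⟩ := hG
  exact ⟨h1.sub h2, C + D, fun x => (abs_sub _ _).trans (add_le_add (hC x) (hD x))⟩

theorem KBM.abs (hF : KBM F) : KBM fun x => |F x| := by
  obtain ⟨h1, C, hC⟩ := hF
  exact ⟨continuous_abs.measurable.comp h1, C, fun x => by rw [abs_abs]; exact hC x⟩

theorem KBM.comp (hF : KBM F) {h : Y → X} (hh : Measurable h) : KBM fun y => F (h y) := by
  obtain ⟨h1, C, hC⟩ := hF
  exact ⟨h1.comp hh, C, fun y => hC _⟩

theorem KBM.integrable (hF : KBM F) (μ : Measure X) [IsFiniteMeasure μ] : Integrable F μ := by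
  obtain ⟨h1, C, hC⟩ := hF
  exact Integrable.of_bound h1.aestronglyMeasurable C (Eventually.of_forall hC)

theorem kbm_cont [TopologicalSpace X] [OpensMeasurableSpace X] [CompactSpace X]
    (hF : Continuous F) : KBM F := by
  obtain ⟨C, hC⟩ := isCompact_univ.exists_bound_of_continuousOn hF.continuousOn
  exact ⟨hF.measurable, C, fun x => hC x (mem_univ _)⟩

theorem kbm_inner {U V : X → E n} (hU : Measurable U) (hV : Measurable V) {C D : ℝ}
    (hC : ∀ x, ‖U x‖ ≤ C) (hD : ∀ x, ‖V x‖ ≤ D) : KBM fun x => ⟪U x, V x⟫ :=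
  ⟨hU.inner hV, C * D, fun x => (abs_real_inner_le_norm _ _).trans
    (mul_le_mul (hC x) (hD x) (norm_nonneg _) ((norm_nonneg _).trans (hC x)))⟩

end

theorem two_ibp (hn : 0 < n) {N N' : E n → ℝ} (hN : IsGauge N) (hN' : IsGauge N') {d : ℕ}
    (hd : 1 ≤ d) {φ φ' φ'' : ℝ → ℝ} (hφ : ∀ t, HasDerivAt φ (φ' t) t)
    (hφ' : ∀ t, HasDerivAt φ' (φ'' t) t) (hφ'' : Continuous φ'') (h1 : ∀ t, |φ t| ≤ 1) :
    ip (fun x => N x ^ d) (Tk (Kk n d φ φ' φ'') fun x => N' x ^ d) ≤ (d : ℝ) ^ 2 * Lam d N N' := by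
  have c0 : Continuous φ := continuous_iff_continuousAt.2 fun t => (hφ t).continuousAt
  have c1 : Continuous φ' := continuous_iff_continuousAt.2 fun t => (hφ' t).continuousAt
  have cN := hN.continuous
  have cN' := hN'.continuous
  obtain ⟨C, hC⟩ := hN.XF_bdd d
  obtain ⟨C', hC'⟩ := hN'.XF_bdd d
  have mX := (hN.measurable_XF d).comp (measurable_subtype_coe (p := (· ∈ sphere (0 : E n) 1)))
  have mX' := (hN'.measurable_XF d).comp (measurable_subtype_coe (p := (· ∈ sphere (0 : E n) 1)))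
  set ψ : ℝ → ℝ := fun t => ((n : ℝ) + d - 1) * φ t + t * φ' t with hψdef
  set ψ' : ℝ → ℝ := fun t => ((n : ℝ) + d) * φ' t + t * φ'' t with hψ'def
  have hψ : ∀ t, HasDerivAt ψ (ψ' t) t := fun t =>
    (((hφ t).const_mul ((n : ℝ) + d - 1)).add ((hasDerivAt_id t).mul (hφ' t))).congr_deriv
      (by simp only [hψ'def, id]; ring)
  have cψ : Continuous ψ := continuous_iff_continuousAt.2 fun t => (hψ t).continuousAt
  have cψ' : Continuous ψ' := by simp only [hψ'def]; fun_prop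
  -- the three integrands on the product
  have bXX : KBM fun p : Sph n × Sph n => ⟪XF d N (p.1 : E n), XF d N' (p.2 : E n)⟫ :=
    kbm_inner (mX.comp measurable_fst) (mX'.comp measurable_snd) (fun p => hC p.1)
      (fun p => hC' p.2)
  have bXθ : KBM fun p : Sph n × Sph n => ⟪XF d N' (p.2 : E n), (p.1 : E n)⟫ :=
    kbm_inner (mX'.comp measurable_snd) (measurable_subtype_coe.comp measurable_fst)
      (fun p => hC' p.2) (fun p => (norm_coe p.1).le)
  have b1 : KBM fun p : Sph n × Sph n => φ ⟪(p.1 : E n), (p.2 : E n)⟫ *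
      ((d : ℝ) ^ 2 * ⟪XF d N (p.1 : E n), XF d N' (p.2 : E n)⟫) :=
    (kbm_cont (by fun_prop)).mul ((kbm_cont continuous_const).mul bXX)
  have b2 : KBM fun p : Sph n × Sph n => ψ ⟪(p.1 : E n), (p.2 : E n)⟫ *
      ((d : ℝ) * ⟪XF d N' (p.2 : E n), (p.1 : E n)⟫) :=
    (kbm_cont (by fun_prop)).mul ((kbm_cont continuous_const).mul bXθ)
  have b3 : KBM fun p : Sph n × Sph n =>
      d * φ' ⟪(p.1 : E n), (p.2 : E n)⟫ * N' (p.2 : E n) ^ d := kbm_cont (by fun_prop)
  have b4 : KBM fun p : Sph n × Sph n => N (p.1 : E n) ^ d * (ψ ⟪(p.1 : E n), (p.2 : E n)⟫ *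
      ((d : ℝ) * ⟪XF d N' (p.2 : E n), (p.1 : E n)⟫) -
      d * φ' ⟪(p.1 : E n), (p.2 : E n)⟫ * N' (p.2 : E n) ^ d) :=
    (kbm_cont (by fun_prop)).mul (b2.sub b3)
  have s1 : ∫ θ, ∫ θ', φ ⟪(θ : E n), (θ' : E n)⟫ *
      ((d : ℝ) ^ 2 * ⟪XF d N (θ : E n), XF d N' (θ' : E n)⟫) ∂sig n ∂sig n ≤
      (d : ℝ) ^ 2 * Lam d N N' := by
    unfold Lam
    rw [integral_integral (b1.integrable _), integral_integral (bXX.abs.integrable _),
      ← integral_const_mul]
    refine integral_mono (b1.integrable _) ((bXX.abs.integrable _).const_mul _) fun p => ?_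
    refine (le_abs_self _).trans ?_
    beta_reduce
    rw [abs_mul, abs_mul, abs_of_nonneg (sq_nonneg (d : ℝ))]
    exact mul_le_of_le_one_left (by positivity) (h1 _)
  have s2 : ∀ᵐ θ' : Sph n ∂sig n, ∫ θ, φ ⟪(θ : E n), (θ' : E n)⟫ *
      ((d : ℝ) ^ 2 * ⟪XF d N (θ : E n), XF d N' (θ' : E n)⟫) ∂sig n =
      ∫ θ, N (θ : E n) ^ d * (ψ ⟪(θ : E n), (θ' : E n)⟫ *
        ((d : ℝ) * ⟪XF d N' (θ' : E n), (θ : E n)⟫) -
        d * φ' ⟪(θ : E n), (θ' : E n)⟫ * N' (θ' : E n) ^ d) ∂sig n := by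
    filter_upwards [hN'.ae_diff_sig] with θ' hθ'
    have h := ibp hn hN hd hφ c1 (norm_coe θ') ((d : ℝ) • XF d N' (θ' : E n))
    have he : ⟪(θ' : E n), (d : ℝ) • XF d N' (θ' : E n)⟫ = d * N' (θ' : E n) ^ d := by
      rw [inner_smul_right, XF, inner_smul_right, real_inner_comm, hN'.euler hθ', ← pow_succ,
        Nat.sub_add_cancel hd]
    rw [he] at h
    refine Eq.trans (integral_congr_ae (Eventually.of_forall fun θ => ?_)) (h.trans
      (integral_congr_ae (Eventually.of_forall fun θ => ?_)))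
    · beta_reduce
      rw [inner_smul_right, real_inner_comm (θ : E n) (θ' : E n)]
      ring
    · beta_reduce
      rw [inner_smul_right, real_inner_comm (θ : E n) (θ' : E n),
        real_inner_comm (θ : E n) (XF d N' (θ' : E n))]
      simp only [hψdef]
      ring
  have s3 : ∀ θ : Sph n, ∫ θ', N (θ : E n) ^ d * (ψ ⟪(θ : E n), (θ' : E n)⟫ *
        ((d : ℝ) * ⟪XF d N' (θ' : E n), (θ : E n)⟫) -
        d * φ' ⟪(θ : E n), (θ' : E n)⟫ * N' (θ' : E n) ^ d) ∂sig n =
      N (θ : E n) ^ d * Tk (Kk n d φ φ' φ'') (fun x => N' x ^ d) θ := by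
    intro θ
    have hm : Measurable fun θ' : Sph n => (θ, θ') := measurable_const.prodMk measurable_id
    rw [integral_const_mul, integral_sub ((b2.comp hm).integrable _) ((b3.comp hm).integrable _),
      ibp hn hN' hd hψ cψ' (norm_coe θ) (θ : E n),
      ← integral_sub (integrable_sig (by fun_prop)) ((b3.comp hm).integrable _)]
    congr 1
    unfold Tk
    refine integral_congr_ae (Eventually.of_forall fun θ' => ?_)
    beta_reduce
    rw [real_inner_self_eq_norm_sq, norm_coe, real_inner_comm (θ : E n) (θ' : E n)]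
    simp only [Kk, hψdef, hψ'def]
    ring
  refine le_trans (le_of_eq ?_) s1
  rw [integral_integral_swap (b1.integrable _), integral_congr_ae s2,
    ← integral_integral_swap (b4.integrable _)]
  unfold ip
  exact integral_congr_ae (Eventually.of_forall fun θ => (s3 θ).symm)

end Vale.Agent.P237
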