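import Vale.Agent.P237.KernelA

open MeasureTheory Metric Set Filter Topology
open scoped RealInnerProductSpace Pointwise ENNReal NNReal

namespace Vale.Agent.P237

variable {n : ℕ}

noncomputable def s0 (δ t : ℝ) : ℝ := t / √(t ^ 2 + δ ^ 2)

noncomputable def s1 (δ t : ℝ) : ℝ := δ ^ 2 / √(t ^ 2 + δ ^ 2) ^ 3

noncomputable def s2 (δ t : ℝ) : ℝ := -3 * δ ^ 2 * t / √(t ^ 2 + δ ^ 2) ^ 5

theorem kb_pos {δ : ℝ} (hδ : 0 < δ) (t : ℝ) : 0 < √(t ^ 2 + δ ^ 2) :=
  Real.sqrt_pos.2 (by positivity)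

theorem kb_sq (δ t : ℝ) : √(t ^ 2 + δ ^ 2) ^ 2 = t ^ 2 + δ ^ 2 :=
  Real.sq_sqrt (by positivity)

theorem kb_abs_le (δ t : ℝ) : |t| ≤ √(t ^ 2 + δ ^ 2) :=
  Real.abs_le_sqrt (by nlinarith [sq_nonneg δ])

theorem kb_del_le (δ t : ℝ) : δ ≤ √(t ^ 2 + δ ^ 2) :=
  (le_abs_self δ).trans (Real.abs_le_sqrt (by nlinarith [sq_nonneg t]))

theorem kb_le_add {δ : ℝ} (hδ : 0 < δ) (t : ℝ) : √(t ^ 2 + δ ^ 2) ≤ |t| + δ := by
  rw [Real.sqrt_le_left (by positivity)]
  nlinarith [sq_abs t, abs_nonneg t]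

theorem kb_deriv {δ : ℝ} (hδ : 0 < δ) (t : ℝ) :
    HasDerivAt (fun t : ℝ => √(t ^ 2 + δ ^ 2)) (t / √(t ^ 2 + δ ^ 2)) t := by
  have h1 : HasDerivAt (fun t : ℝ => t ^ 2 + δ ^ 2) (2 * t) t := by
    simpa using (hasDerivAt_pow 2 t).add_const (δ ^ 2)
  refine (h1.sqrt (by positivity)).congr_deriv ?_
  have := kb_pos hδ t
  field_simp

theorem hasDerivAt_s0 {δ : ℝ} (hδ : 0 < δ) (t : ℝ) : HasDerivAt (s0 δ) (s1 δ t) t := by
  have hp := kb_pos hδ t
  have hs := kb_sq δ t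
  refine ((hasDerivAt_id t).div (kb_deriv hδ t) hp.ne').congr_deriv ?_
  unfold s1
  simp only [id]
  generalize √(t ^ 2 + δ ^ 2) = r at hp hs
  field_simp
  linarith

theorem hasDerivAt_s1 {δ : ℝ} (hδ : 0 < δ) (t : ℝ) : HasDerivAt (s1 δ) (s2 δ t) t := by
  have hp := kb_pos hδ t
  refine ((hasDerivAt_const t (δ ^ 2)).div ((kb_deriv hδ t).pow 3)
    (pow_pos hp 3).ne').congr_deriv ?_
  unfold s2
  simp only [Pi.pow_apply]
  generalize √(t ^ 2 + δ ^ 2) = r at hp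
  field_simp
  push_cast
  ring

theorem continuous_s2 {δ : ℝ} (hδ : 0 < δ) : Continuous (s2 δ) := by
  unfold s2
  exact Continuous.div (by fun_prop) (by fun_prop) fun t => (pow_pos (kb_pos hδ t) 5).ne'

theorem abs_s0_le {δ : ℝ} (hδ : 0 < δ) (t : ℝ) : |s0 δ t| ≤ 1 := by
  unfold s0
  rw [abs_div, abs_of_pos (kb_pos hδ t), div_le_one (kb_pos hδ t)]
  exact kb_abs_le δ t

theorem kb_c0 {δ : ℝ} (hδ : 0 < δ) : Continuous (s0 δ) :=
  continuous_iff_continuousAt.2 fun t => (hasDerivAt_s0 hδ t).continuousAt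

theorem kb_c1 {δ : ℝ} (hδ : 0 < δ) : Continuous (s1 δ) :=
  continuous_iff_continuousAt.2 fun t => (hasDerivAt_s1 hδ t).continuousAt

theorem kb_cK {δ : ℝ} (hδ : 0 < δ) (d : ℕ) : Continuous (Kk n d (s0 δ) (s1 δ) (s2 δ)) := by
  have := kb_c0 hδ
  have := kb_c1 hδ
  have := continuous_s2 hδ
  unfold Kk
  fun_prop

theorem kb_s1_nonneg (δ t : ℝ) : 0 ≤ s1 δ t := by
  unfold s1; positivity

theorem kb_sq_s1 {δ : ℝ} (hδ : 0 < δ) (t : ℝ) : t ^ 2 * s1 δ t ≤ δ := by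
  have hp := kb_pos hδ t
  have hs := kb_sq δ t
  have h1 := kb_del_le δ t
  unfold s1
  generalize √(t ^ 2 + δ ^ 2) = r at hp hs h1
  rw [← mul_div_assoc, div_le_iff₀ (by positivity)]
  have h2 : t ^ 2 ≤ r ^ 2 := by nlinarith [sq_nonneg δ]
  calc t ^ 2 * δ ^ 2 = δ * (t ^ 2 * δ) := by ring
    _ ≤ δ * (r ^ 2 * r) := by gcongr
    _ = δ * r ^ 3 := by ring

theorem kb_s2 {δ : ℝ} (hδ : 0 < δ) (t : ℝ) : |t * s2 δ t| ≤ 3 * s1 δ t := by
  have hp := kb_pos hδ t
  have hs := kb_sq δ t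
  unfold s1 s2
  generalize √(t ^ 2 + δ ^ 2) = r at hp hs
  have h2 : t ^ 2 / r ^ 2 ≤ 1 := by
    rw [div_le_one (by positivity)]; nlinarith [sq_nonneg δ]
  have h3 : t * (-3 * δ ^ 2 * t / r ^ 5) = -(3 * (δ ^ 2 / r ^ 3) * (t ^ 2 / r ^ 2)) := by
    field_simp
  rw [h3, abs_neg, abs_of_nonneg (by positivity)]
  exact mul_le_of_le_one_right (by positivity) h2

theorem kb_ts0 {δ : ℝ} (hδ : 0 < δ) (t : ℝ) : |t * s0 δ t - abs t| ≤ δ := by
  have hp := kb_pos hδ t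
  have h1 := kb_abs_le δ t
  have h2 := kb_le_add hδ t
  unfold s0
  generalize √(t ^ 2 + δ ^ 2) = r at hp h1 h2
  have h3 : t * (t / r) - abs t = -((r - abs t) * (abs t / r)) := by
    have := sq_abs t
    field_simp
    linarith
  have h4 : abs t / r ≤ 1 := by rwa [div_le_one hp]
  have h5 : 0 ≤ r - abs t := by linarith
  rw [h3, abs_neg, abs_of_nonneg (by positivity)]
  exact (mul_le_of_le_one_right h5 h4).trans (by linarith)

theorem kb_stein (hn : 2 ≤ n) {δ : ℝ} (hδ : 0 < δ) :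
    zon n (fun t => (1 - t ^ 2) * s1 δ t) = ((n : ℝ) - 1) * zon n (fun t => t * s0 δ t) :=
  stein (by omega) (hasDerivAt_s0 hδ) (kb_c1 hδ)

theorem zon_abs_Kk_le (hn : 2 ≤ n) (d : ℕ) : ∃ C : ℝ, ∀ δ : ℝ, 0 < δ → δ ≤ 1 →
    zon n (fun t => |Kk n d (s0 δ) (s1 δ) (s2 δ) t|) ≤ C := by
  have hn0 : 0 < n := by omega
  have hn' : (2 : ℝ) ≤ n := by exact_mod_cast hn
  have hd' : (0 : ℝ) ≤ d := Nat.cast_nonneg d
  set a : ℝ := (n : ℝ) + d - 1 with ha
  have ha0 : 0 ≤ a := by linarith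
  refine ⟨(a ^ 2 + a + d) + (a + d + 4) * (n - 1), fun δ hδ hδ1 => ?_⟩
  have c0 := kb_c0 hδ
  have c1 := kb_c1 hδ
  have h1 : zon n (fun t => |Kk n d (s0 δ) (s1 δ) (s2 δ) t|) ≤
      zon n (fun t => (a ^ 2 + a + d) + (a + d + 4) * ((1 - t ^ 2) * s1 δ t)) := by
    refine zon_mono hn0 (kb_cK hδ d).abs (by fun_prop) fun t ht => ?_
    have b0 : |t * s0 δ t| ≤ 1 := by
      rw [abs_mul]; exact mul_le_one₀ ht (abs_nonneg _) (abs_s0_le hδ t)
    have b1 := kb_s1_nonneg δ t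
    have b2 := (kb_sq_s1 hδ t).trans hδ1
    have b3 := kb_s2 hδ t
    have b4 : 0 ≤ 1 - t ^ 2 := by nlinarith [sq_abs t, abs_nonneg t]
    have b5 : 0 ≤ t ^ 2 * s1 δ t := by positivity
    have e : Kk n d (s0 δ) (s1 δ) (s2 δ) t = a ^ 2 * (t * s0 δ t) + (a - d) * (t ^ 2 * s1 δ t)
        - (a + 1 + d) * ((1 - t ^ 2) * s1 δ t) - (1 - t ^ 2) * (t * s2 δ t) := by
      unfold Kk; rw [ha]; ring
    obtain ⟨l0, u0⟩ := abs_le.1 b0
    obtain ⟨l3, u3⟩ := abs_le.1 b3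
    have p1 := mul_le_mul_of_nonneg_left l0 (sq_nonneg a)
    have p2 := mul_le_mul_of_nonneg_left u0 (sq_nonneg a)
    have p3 := mul_le_mul_of_nonneg_left l3 b4
    have p4 := mul_le_mul_of_nonneg_left u3 b4
    have p5 := mul_le_mul_of_nonneg_left b2 ha0
    have p6 := mul_le_mul_of_nonneg_left b2 hd'
    have p7 := mul_nonneg ha0 b5
    have p8 := mul_nonneg hd' b5
    have p9 := mul_nonneg (show 0 ≤ a + 1 + d by linarith) (mul_nonneg b4 b1)
    rw [e, abs_le]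
    constructor <;> linarith only [p1, p2, p3, p4, p5, p6, p7, p8, p9, ha0, hd']
  have h2 : zon n (fun t => t * s0 δ t) ≤ 1 := by
    rw [← zon_const hn0 1]
    refine zon_mono hn0 (by fun_prop) continuous_const fun t ht => (le_abs_self _).trans ?_
    rw [abs_mul]; exact mul_le_one₀ ht (abs_nonneg _) (abs_s0_le hδ t)
  rw [zon_add continuous_const (by fun_prop), zon_const hn0, zon_const_mul, kb_stein hn hδ] at h1
  refine h1.trans (add_le_add le_rfl (mul_le_mul_of_nonneg_left ?_ (by linarith)))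
  exact mul_le_of_le_one_right (by linarith) h2

/-- Uniform approximation of order `δ` passes to zonal means. -/
theorem kb_lim (hn : 0 < n) {F : ℝ → ℝ → ℝ} {G U : ℝ → ℝ} (hF : ∀ δ, 0 < δ → Continuous (F δ))
    (hG : Continuous G) (hU : Continuous U)
    (h : ∀ δ t, 0 < δ → |t| ≤ 1 → |F δ t - G t| ≤ δ) :
    Tendsto (fun δ => zon n fun t => F δ t * U t) (𝓝[>] 0) (𝓝 (zon n fun t => G t * U t)) := by
  obtain ⟨M, hM⟩ := (isCompact_Icc (a := (-1 : ℝ)) (b := 1)).exists_bound_of_continuousOn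
    hU.continuousOn
  have key : ∀ δ t, 0 < δ → |t| ≤ 1 → |F δ t * U t - G t * U t| ≤ δ * M := by
    intro δ t hδ ht
    rw [← sub_mul, abs_mul]
    exact mul_le_mul (h δ t hδ ht) (hM t (abs_le.1 ht)) (abs_nonneg _) hδ.le
  have l0 : Tendsto (fun δ : ℝ => δ * M) (𝓝[>] 0) (𝓝 0) := by
    have : Tendsto (fun δ : ℝ => δ * M) (𝓝 0) (𝓝 (0 * M)) := tendsto_id.mul_const M
    rw [zero_mul] at this
    exact this.mono_left nhdsWithin_le_nhds
  refine tendsto_of_tendsto_of_tendsto_of_le_of_le'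
    (g := fun δ => (zon n fun t => G t * U t) - δ * M)
    (h := fun δ => (zon n fun t => G t * U t) + δ * M)
    (by simpa using tendsto_const_nhds.sub l0) (by simpa using tendsto_const_nhds.add l0) ?_ ?_
  · filter_upwards [self_mem_nhdsWithin] with δ hδ
    have := hF δ hδ
    rw [← zon_const hn (δ * M), ← zon_sub (by fun_prop) continuous_const]
    refine zon_mono hn (by fun_prop) (by fun_prop) fun t ht => ?_
    linarith [(abs_le.1 (key δ t hδ ht)).1]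
  · filter_upwards [self_mem_nhdsWithin] with δ hδ
    have := hF δ hδ
    rw [← zon_const hn (δ * M), ← zon_add (by fun_prop) continuous_const]
    refine zon_mono hn (by fun_prop) (by fun_prop) fun t ht => ?_
    linarith [(abs_le.1 (key δ t hδ ht)).2]

/-- Structure of `Qp` near the origin. -/
theorem kb_Qp (n m : ℕ) : ∃ u v : ℝ → ℝ, Continuous u ∧ Continuous v ∧
    (∀ t, HasDerivAt (Qp n m) (t * u t) t) ∧ ∀ t, Qp n m t = Qp n m 0 + t ^ 2 * v t := by
  obtain ⟨q, hq⟩ : ∃ q : Polynomial ℝ, ∀ t, Qp n m t = q.eval (1 - t ^ 2) := by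
    refine ⟨∑ i ∈ Finset.range (m + 1), Polynomial.C ((-1) ^ i * (m.choose i : ℝ) *
      (∏ l ∈ Finset.range i, (2 * (m : ℝ) + n - 2 + 2 * l) / ((n : ℝ) - 1 + 2 * l))) *
        Polynomial.X ^ i, fun t => ?_⟩
    unfold Qp
    rw [Polynomial.eval_finsetSum]
    refine Finset.sum_congr rfl fun i _ => ?_
    rw [Polynomial.eval_mul, Polynomial.eval_C, Polynomial.eval_pow, Polynomial.eval_X]
  obtain ⟨r, hr⟩ := Polynomial.X_sub_C_dvd_sub_C_eval (p := q) (a := 1)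
  refine ⟨fun t => -2 * q.derivative.eval (1 - t ^ 2), fun t => -r.eval (1 - t ^ 2), ?_, ?_,
    fun t => ?_, fun t => ?_⟩
  · exact continuous_const.mul (q.derivative.continuous.comp (by fun_prop))
  · exact (r.continuous.comp (by fun_prop)).neg
  · have h1 : HasDerivAt (fun t : ℝ => 1 - t ^ 2) (-(2 * t)) t := by
      simpa using (hasDerivAt_pow 2 t).const_sub 1
    rw [show Qp n m = fun t => q.eval (1 - t ^ 2) from funext hq]
    have h2 := (q.hasDerivAt (1 - t ^ 2)).comp t h1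
    refine h2.congr_deriv ?_
    ring
  · have := congrArg (Polynomial.eval (1 - t ^ 2)) hr
    simp only [Polynomial.eval_sub, Polynomial.eval_C, Polynomial.eval_mul,
      Polynomial.eval_X] at this
    rw [hq t, hq 0]
    simp only [ne_eq, OfNat.ofNat_ne_zero, not_false_eq_true, zero_pow, sub_zero]
    linarith

theorem zon_Kk_tendsto (hn : 2 ≤ n) {d : ℕ} (hd : 1 ≤ d) (m : ℕ) :
    Tendsto (fun δ => zon n (fun t => Kk n d (s0 δ) (s1 δ) (s2 δ) t * Qp n m t)) (𝓝[>] 0)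
      (𝓝 (c0 n * (d : ℝ) ^ 2 * gamS n d m)) := by
  have hn0 : 0 < n := by omega
  obtain ⟨u, v, cu, cv, hP, hv⟩ := kb_Qp n m
  have cP : Continuous (Qp n m) := continuous_Qp m
  set a : ℝ := (n : ℝ) + d - 1 with ha
  have key : ∀ δ, 0 < δ → zon n (fun t => Kk n d (s0 δ) (s1 δ) (s2 δ) t * Qp n m t) =
      a ^ 2 * zon n (fun t => (t * s0 δ t) * Qp n m t) -
        (a + d) * Qp n m 0 * (((n : ℝ) - 1) * zon n (fun t => (t * s0 δ t) * 1)) -
        zon n (fun t => (t ^ 2 * s1 δ t) * ((1 - t ^ 2) * ((a + d) * v t - u t))) := by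
    intro δ hδ
    have c0 := kb_c0 hδ
    have c1 := kb_c1 hδ
    have c2 := continuous_s2 hδ
    have A := stein hn0 (φ := fun t => (a * s0 δ t + t * s1 δ t) * Qp n m t)
      (φ' := fun t => ((a + 1) * s1 δ t + t * s2 δ t) * Qp n m t +
        (a * s0 δ t + t * s1 δ t) * (t * u t))
      (fun t => ((((hasDerivAt_s0 hδ t).const_mul a).add
        ((hasDerivAt_id t).mul (hasDerivAt_s1 hδ t))).mul (hP t)).congr_deriv
          (by simp only [id, Pi.add_apply, Pi.mul_apply]; ring)) (by fun_prop)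
    have B := stein hn0 (φ := fun t => s0 δ t * Qp n m t)
      (φ' := fun t => s1 δ t * Qp n m t + s0 δ t * (t * u t))
      (fun t => (hasDerivAt_s0 hδ t).mul (hP t)) (by fun_prop)
    have C := kb_stein hn hδ
    simp only [mul_one]
    rw [← C]
    rw [← zon_const_mul] at A B
    have E : zon n (fun t => Kk n d (s0 δ) (s1 δ) (s2 δ) t * Qp n m t) = zon n (fun t =>
        (a ^ 2 * ((t * s0 δ t) * Qp n m t) - (a + d) * Qp n m 0 * ((1 - t ^ 2) * s1 δ t) -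
          (t ^ 2 * s1 δ t) * ((1 - t ^ 2) * ((a + d) * v t - u t))) +
        ((((n : ℝ) - 1) * (t * ((a * s0 δ t + t * s1 δ t) * Qp n m t)) -
          (1 - t ^ 2) * (((a + 1) * s1 δ t + t * s2 δ t) * Qp n m t +
            (a * s0 δ t + t * s1 δ t) * (t * u t))) -
         a * (((n : ℝ) - 1) * (t * (s0 δ t * Qp n m t)) -
          (1 - t ^ 2) * (s1 δ t * Qp n m t + s0 δ t * (t * u t))))) := by
      congr 1
      funext t
      have := hv t
      unfold Kk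
      rw [ha]
      linear_combination (-(((n : ℝ) + d - 1) + d) * (1 - t ^ 2) * s1 δ t) * this
    rw [E, zon_add (by fun_prop) (by fun_prop), zon_sub (by fun_prop) (by fun_prop),
      zon_sub (by fun_prop) (by fun_prop), zon_sub (by fun_prop) (by fun_prop),
      zon_sub (by fun_prop) (by fun_prop), zon_const_mul a, zon_sub (by fun_prop) (by fun_prop),
      zon_const_mul (a ^ 2), zon_const_mul ((a + d) * Qp n m 0), A, B]
    ring
  have L1 := kb_lim hn0 (F := fun δ t => t * s0 δ t) (G := fun t => |t|)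
    (fun δ hδ => continuous_id.mul (kb_c0 hδ)) continuous_abs cP fun δ t hδ _ => kb_ts0 hδ t
  have L2 := kb_lim hn0 (F := fun δ t => t * s0 δ t) (G := fun t => |t|) (U := fun _ => 1)
    (fun δ hδ => continuous_id.mul (kb_c0 hδ)) continuous_abs continuous_const
    fun δ t hδ _ => kb_ts0 hδ t
  have L3 := kb_lim hn0 (F := fun δ t => t ^ 2 * s1 δ t) (G := fun _ => 0)
    (U := fun t => (1 - t ^ 2) * ((a + d) * v t - u t))
    (fun δ hδ => (continuous_pow 2).mul (kb_c1 hδ)) continuous_const (by fun_prop)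
    fun δ t hδ _ => by
      rw [sub_zero, abs_of_nonneg (mul_nonneg (sq_nonneg t) (kb_s1_nonneg δ t))]
      exact kb_sq_s1 hδ t
  have L := ((L1.const_mul (a ^ 2)).sub
    ((L2.const_mul ((n : ℝ) - 1)).const_mul ((a + d) * Qp n m 0))).sub L3
  have h1 := zon_abs_pow_Qp hn 1 m
  simp only [pow_one, Nat.cast_one] at h1
  simp only [mul_one, zero_mul, zon_const hn0, h1] at L
  have hd0 : (d : ℝ) ≠ 0 := by
    have : (1 : ℝ) ≤ d := by exact_mod_cast hd
    linarith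
  have e : c0 n * (d : ℝ) ^ 2 * gamS n d m =
      a ^ 2 * ((zon n fun t => |t|) * ∏ l ∈ Finset.range m, (1 - 2 * (l : ℝ)) / (1 + n + 2 * l)) -
        (a + d) * Qp n m 0 * (((n : ℝ) - 1) * zon n fun t => |t|) - 0 := by
    rw [Qp_at_zero hn, gamS, c0, ha, add_comm (1 : ℝ) n]
    field_simp
    ring
  rw [e]
  refine L.congr' ?_
  filter_upwards [self_mem_nhdsWithin] with δ hδ
  rw [key δ hδ]
  simp only [mul_one]

end Vale.Agent.P237
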