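import Vale.Agent.P237.Gauge
import Vale.Agent.Lib.PrekopaLeindler

open MeasureTheory Metric Set Filter Topology
open scoped RealInnerProductSpace Pointwise ENNReal NNReal

namespace Vale.Agent.P237

variable {n : ℕ}

theorem mink_compact_Zb {q : E n → ℝ} (hq : IsNorm q) : IsCompact (Zb q) := by
  rw [← hq.dual_ball]
  exact hq.dual.toIsGauge.isCompact

theorem mink_coe_ne (θ : Sph n) : (θ : E n) ≠ 0 := by
  intro h
  have := norm_coe θ
  rw [h, norm_zero] at this
  exact zero_ne_one this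

theorem mink_vol_smul {r : ℝ} (hr : 0 ≤ r) (A : Set (E n)) : vol (r • A) = r ^ n * vol A := by
  rw [vol, Measure.addHaar_smul_of_nonneg _ hr, ENNReal.toReal_mul,
    ENNReal.toReal_ofReal (by positivity), finrank_euclideanSpace_fin]

theorem mink_vol_image (T : E n ≃L[ℝ] E n) (A : Set (E n)) :
    vol (T '' A) = |LinearMap.det (T : E n →ₗ[ℝ] E n)| * vol A := by
  rw [vol, Measure.addHaar_image_continuousLinearEquiv, ENNReal.toReal_mul,
    ENNReal.toReal_ofReal (abs_nonneg _)]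

theorem mink_det_pos (T : E n ≃L[ℝ] E n) : 0 < |LinearMap.det (T : E n →ₗ[ℝ] E n)| :=
  abs_pos.2 (T.toLinearEquiv.isUnit_det'.ne_zero)

/-- Bounds for the inverse of a gauge and for a norm of its gradient on the sphere. -/
theorem mink_bounds {g q : E n → ℝ} (hg : IsGauge g) (hq : IsNorm q) :
    ∃ A B : ℝ, (∀ θ : Sph n, 0 < (g θ)⁻¹ ∧ (g θ)⁻¹ ≤ A) ∧
      ∀ x, 0 ≤ q (gradient g x) ∧ q (gradient g x) ≤ B := by
  obtain ⟨c, L, hc, hL, h1, -, h3⟩ := hg.bounds
  obtain ⟨c', L', -, hL', -, h2, -⟩ := hq.toIsGauge.bounds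
  refine ⟨c⁻¹, L' * L, fun θ => ⟨inv_pos.2 (hg.pos _ (mink_coe_ne θ)), ?_⟩, fun x =>
    ⟨hq.toIsGauge.nonneg _, (h2 _).trans (mul_le_mul_of_nonneg_left (h3 x) hL'.le)⟩⟩
  have := h1 θ
  rw [norm_coe, mul_one] at this
  exact inv_anti₀ hc this

theorem mink_meas_inv {g : E n → ℝ} (hg : IsGauge g) : Measurable fun θ : Sph n => (g θ)⁻¹ :=
  (hg.continuous.measurable.comp measurable_subtype_coe).inv

theorem mink_meas_H {g q : E n → ℝ} (hq : IsNorm q) :
    Measurable fun θ : Sph n => q (gradient g (θ : E n)) :=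
  hq.toIsGauge.continuous.measurable.comp ((measurable_gradient g).comp measurable_subtype_coe)

/-- Real form of the multiplicative Brunn-Minkowski inequality. -/
theorem mink_bm {a b : ℝ} (ha : 0 < a) (hb : 0 < b) (hab : a + b = 1) {A B C : Set (E n)}
    (hA : IsCompact A) (hB : IsCompact B) (hC : IsCompact C)
    (H : ∀ x ∈ A, ∀ y ∈ B, a • x + b • y ∈ C) : vol A ^ a * vol B ^ b ≤ vol C := by
  have h := Lib.PL.brunn_minkowski_mul (volume : Measure (E n)) ha hb hab hA.measurableSet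
    hB.measurableSet hC.measurableSet H
  have h2 := ENNReal.toReal_mono hC.measure_lt_top.ne h
  rwa [ENNReal.toReal_mul, ← ENNReal.toReal_rpow, ← ENNReal.toReal_rpow] at h2

theorem mink_limit {V W a D δ : ℝ} (hV : 0 < V) (hW : 0 ≤ W) (hδ : 0 < δ)
    (h : ∀ t, 0 < t → t < δ → V ^ (1 - 2 * t) * W ^ (2 * t) ≤ V * Real.exp (t * a + t ^ 2 * D)) :
    W ≤ V * Real.exp (a / 2) := by
  rcases hW.eq_or_lt with rfl | hW
  · positivity
  have key : ∀ t, 0 < t → t < δ → Real.log W - Real.log V ≤ a / 2 + t * D / 2 := by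
    intro t ht htδ
    have h1 := Real.log_le_log (by positivity) (h t ht htδ)
    rw [Real.log_mul (by positivity) (by positivity), Real.log_mul hV.ne' (by positivity),
      Real.log_rpow hV, Real.log_rpow hW, Real.log_exp] at h1
    have h2 : t * (2 * (Real.log W - Real.log V)) ≤ t * (a + t * D) := by linarith
    have h3 := le_of_mul_le_mul_left h2 ht
    linarith
  have lim : Tendsto (fun t : ℝ => a / 2 + t * D / 2) (𝓝[>] 0) (𝓝 (a / 2 + 0 * D / 2)) :=
    ((by fun_prop : Continuous fun t : ℝ => a / 2 + t * D / 2).tendsto 0).mono_left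
      nhdsWithin_le_nhds
  have h4 : Real.log W - Real.log V ≤ a / 2 + 0 * D / 2 := by
    refine ge_of_tendsto lim ?_
    filter_upwards [Ioo_mem_nhdsGT hδ] with t ht using key t ht.1 ht.2
  calc W = Real.exp (Real.log W) := (Real.exp_log hW).symm
    _ ≤ Real.exp (Real.log V + a / 2) := Real.exp_le_exp.2 (by linarith)
    _ = V * Real.exp (a / 2) := by rw [Real.exp_add, Real.exp_log hV]

theorem mink_pow_le {x : ℝ} (h0 : 0 ≤ 1 + x) (h1 : |n * x| ≤ 1) :
    (1 + x) ^ n ≤ 1 + n * x + (n * x) ^ 2 := by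
  have h2 : (1 + x) ^ n ≤ Real.exp (n * x) := by
    rw [Real.exp_nat_mul]
    exact pow_le_pow_left₀ h0 (by linarith [Real.add_one_le_exp x]) n
  have h3 := (abs_le.1 (Real.abs_exp_sub_one_sub_id_le h1)).2
  linarith

/-- First variation of volume, upper bound. -/
theorem vol_add_smul_le (hn : 0 < n) {g q : E n → ℝ} (hg : IsGauge g) (hq : IsNorm q) {ε : ℝ}
    (hε : 0 ≤ ε) :
    vol ({x | g x ≤ 1} + ε • Zb q) ≤
      kappa n * ∫ θ, ((1 + ε * q (gradient g (θ : E n))) * (g θ)⁻¹) ^ n ∂sig n := by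
  obtain ⟨A, B, hA, hB⟩ := mink_bounds hg hq
  have hc : IsCompact ({x | g x ≤ 1} + ε • Zb q) :=
    hg.isCompact.add ((mink_compact_Zb hq).smul ε)
  have h0 : ∀ θ : Sph n, 0 ≤ (1 + ε * q (gradient g (θ : E n))) * (g θ)⁻¹ := fun θ =>
    mul_nonneg (by have := (hB θ).1; positivity) (hA θ).1.le
  have h := volume_le_radial hn hc.measurableSet
    (ρ := fun θ : Sph n => (1 + ε * q (gradient g (θ : E n))) * (g θ)⁻¹)
    (((mink_meas_H hq).const_mul ε).const_add 1 |>.mul (mink_meas_inv hg)) h0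
    (C := (1 + ε * B) * A)
    (fun θ => mul_le_mul (by have := mul_le_mul_of_nonneg_left (hB θ).2 hε; linarith) (hA θ).2
      (hA θ).1.le (by have := (hB θ).1.trans (hB θ).2; positivity))
    (by
      filter_upwards [hg.ae_diff_sig] with θ hθ r hr hmem
      obtain ⟨k, hk, _, ⟨m, hm, rfl⟩, hkm⟩ := hmem
      have hgp := hg.pos _ (mink_coe_ne θ)
      rw [← div_eq_mul_inv, le_div_iff₀ hgp]
      have e1 : r * g θ = ⟪gradient g (θ : E n), k⟫ + ε * ⟪gradient g (θ : E n), m⟫ := by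
        have hkm' : k + ε • m = r • (θ : E n) := hkm
        rw [← hg.euler hθ, ← real_inner_smul_right, ← hkm', inner_add_right,
          real_inner_smul_right]
      have e2 := hg.inner_grad_le (θ : E n) k
      have e3 : ⟪gradient g (θ : E n), m⟫ ≤ q (gradient g (θ : E n)) := by
        rw [real_inner_comm]; exact hm _
      have e4 : g k ≤ 1 := hk
      have e5 := mul_le_mul_of_nonneg_left e3 hε
      linarith)
  exact ENNReal.toReal_le_of_le_ofReal
    (mul_nonneg (kappa_pos n).le (integral_nonneg fun θ => pow_nonneg (h0 θ) n)) h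

theorem mink_gauge (hn : 0 < n) {g q : E n → ℝ} (hg : IsGauge g) (hq : IsNorm q) :
    vol ((1 / 2 : ℝ) • ({x | g x ≤ 1} + Zb q)) ≤ vol {x | g x ≤ 1} *
      Real.exp ((2 * (∫ θ, q (YF g θ) ∂sig n) / vol {x | g x ≤ 1} - n) / 2) := by
  obtain ⟨A, B, hA, hB⟩ := mink_bounds hg hq
  have hκ := kappa_pos n
  have hnr : (0 : ℝ) < n := by exact_mod_cast hn
  set K := {x | g x ≤ 1} with hK
  set w : Sph n → ℝ := fun θ => (g θ)⁻¹ ^ n with hw
  set H : Sph n → ℝ := fun θ => q (gradient g (θ : E n)) with hH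
  have hw0 : ∀ θ, 0 ≤ w θ := fun θ => pow_nonneg (hA θ).1.le n
  have hwA : ∀ θ, w θ ≤ A ^ n := fun θ => pow_le_pow_left₀ (hA θ).1.le (hA θ).2 n
  have hwm : Measurable w := (mink_meas_inv hg).pow_const n
  have hHm : Measurable H := mink_meas_H hq
  have hB0 : 0 ≤ B := (hB 0).1.trans (hB 0).2
  have iw : Integrable w (sig n) :=
    integrable_sig_bdd hwm (C := A ^ n) fun θ => by rw [abs_of_nonneg (hw0 θ)]; exact hwA θ
  have iH : Integrable (fun θ => H θ * w θ) (sig n) :=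
    integrable_sig_bdd (hHm.mul hwm) (C := B * A ^ n) fun θ => by
      rw [abs_of_nonneg (mul_nonneg (hB θ).1 (hw0 θ))]
      exact mul_le_mul (hB θ).2 (hwA θ) (hw0 θ) hB0
  have hV : vol K = kappa n * ∫ θ, w θ ∂sig n := hg.vol_eq hn
  have hVp : 0 < vol K := by rw [hV]; exact mul_pos hκ (hg.int_inv_pos hn)
  have hY : 2 * (∫ θ, q (YF g θ) ∂sig n) = n * (kappa n * ∫ θ, H θ * w θ ∂sig n) := by
    have : ∀ θ, q (YF g θ) = (n * kappa n / 2) * (H θ * w θ) := by
      intro θ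
      have := hw0 θ
      rw [YF, hq.smul _ _ (by positivity)]
      ring
    simp only [this]
    rw [integral_const_mul]
    ring
  set I := kappa n * ∫ θ, H θ * w θ ∂sig n with hI
  rw [hY]
  have hKc : IsCompact K := hg.isCompact
  have hMc := mink_compact_Zb hq
  refine mink_limit (D := (n * (B + 1)) ^ 2) (δ := min (1 / 2) (1 / (n * (B + 1)))) hVp
    ENNReal.toReal_nonneg (lt_min (by norm_num) (by positivity)) fun t ht htδ => ?_
  have ht1 : t < 1 / 2 := htδ.trans_le (min_le_left _ _)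
  have ht2 : t * (n * (B + 1)) ≤ 1 := by
    have := (htδ.trans_le (min_le_right _ _)).le
    rwa [le_div_iff₀ (by positivity)] at this
  have h1t : 0 < 1 - t := by linarith
  have hε : 0 ≤ t / (1 - t) := by positivity
  have b1 := mink_bm (a := 1 - 2 * t) (b := 2 * t) (by linarith) (by linarith) (by ring) hKc
    ((hKc.add hMc).smul (1 / 2 : ℝ)) ((hKc.add (hMc.smul (t / (1 - t)))).smul (1 - t)) (by
      rintro k hk _ ⟨_, ⟨k', hk', m, hm, rfl⟩, rfl⟩
      refine ⟨((1 - 2 * t) / (1 - t)) • k + (t / (1 - t)) • k' + (t / (1 - t)) • m,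
        ⟨_, hg.convex hk hk' (div_nonneg (by linarith) h1t.le) hε (by field_simp; ring), _,
          ⟨m, hm, rfl⟩, rfl⟩, ?_⟩
      simp only [smul_add, smul_smul]
      rw [mul_div_cancel₀ _ h1t.ne', mul_div_cancel₀ _ h1t.ne', add_assoc]
      congr 2 <;> congr 1 <;> ring)
  refine b1.trans ?_
  rw [mink_vol_smul h1t.le]
  have b2 := mul_le_mul_of_nonneg_left (vol_add_smul_le hn hg hq hε) (pow_nonneg h1t.le n)
  refine b2.trans ?_
  have b3 : (1 - t) ^ n * (kappa n * ∫ θ, ((1 + t / (1 - t) * H θ) * (g θ)⁻¹) ^ n ∂sig n) =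
      kappa n * ∫ θ, (1 + t * (H θ - 1)) ^ n * w θ ∂sig n := by
    rw [mul_left_comm, ← integral_const_mul]
    congr 1
    refine integral_congr_ae (Eventually.of_forall fun θ => ?_)
    simp only [hw]
    rw [mul_pow, ← mul_assoc, ← mul_pow]
    congr 2
    field_simp
    ring
  have b4 : ∫ θ, (1 + t * (H θ - 1)) ^ n * w θ ∂sig n ≤
      ∫ θ, ((1 - n * t + (t * (n * (B + 1))) ^ 2) * w θ + n * t * (H θ * w θ)) ∂sig n := by
    refine integral_mono_of_nonneg (Eventually.of_forall fun θ => ?_)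
      ((iw.const_mul _).add (iH.const_mul _)) (Eventually.of_forall fun θ => ?_)
    · have := (hB θ).1
      exact mul_nonneg (pow_nonneg (by simp only [hH]; nlinarith) n) (hw0 θ)
    · have a1 : 0 ≤ H θ := (hB θ).1
      have a2 : H θ ≤ B := (hB θ).2
      have a3 : |H θ - 1| ≤ B + 1 := abs_le.2 ⟨by linarith, by linarith⟩
      have a4 : |n * (t * (H θ - 1))| ≤ t * (n * (B + 1)) := by
        rw [abs_mul, abs_mul, abs_of_pos hnr, abs_of_pos ht]
        have := mul_le_mul_of_nonneg_left a3 (mul_pos hnr ht).le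
        linarith
      have a5 := mink_pow_le (n := n) (x := t * (H θ - 1)) (by nlinarith) (a4.trans ht2)
      have a6 : (n * (t * (H θ - 1))) ^ 2 ≤ (t * (n * (B + 1))) ^ 2 := by
        rw [← sq_abs]
        exact pow_le_pow_left₀ (abs_nonneg _) a4 2
      have a7 := mul_le_mul_of_nonneg_right (a5.trans (add_le_add le_rfl a6)) (hw0 θ)
      simp only
      linarith
  rw [integral_add (iw.const_mul _) (iH.const_mul _), integral_const_mul,
    integral_const_mul] at b4
  have b5 := mul_le_mul_of_nonneg_left b4 hκ.le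
  have b6 := Real.add_one_le_exp (t * (n * I / vol K - n) + t ^ 2 * (n * (B + 1)) ^ 2)
  have b7 := mul_le_mul_of_nonneg_left b6 hVp.le
  have b8 : vol K * (t * (n * I / vol K - n) + t ^ 2 * (n * (B + 1)) ^ 2 + 1) =
      (1 - n * t + (t * (n * (B + 1))) ^ 2) * vol K + n * t * I := by
    field_simp
    ring
  have b9 : kappa n * ((1 - n * t + (t * (n * (B + 1))) ^ 2) * ∫ θ, w θ ∂sig n +
      n * t * ∫ θ, H θ * w θ ∂sig n) =
      (1 - n * t + (t * (n * (B + 1))) ^ 2) * vol K + n * t * I := by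
    rw [hV, hI]; ring
  exact (le_of_eq b3).trans (by linarith)

theorem surf_gauge (hn : 0 < n) {g : E n → ℝ} (hg : IsGauge g) : Surf {x | g x ≤ 1} (YF g) := by
  obtain ⟨A, B, hA, hB⟩ := mink_bounds hg isNorm_norm
  have hκ := kappa_pos n
  have hnr : (0 : ℝ) < n := by exact_mod_cast hn
  refine ⟨?_, ⟨n * kappa n / 2 * A ^ n * B, fun θ => ?_⟩, ?_, fun q hq => mink_gauge hn hg hq⟩
  · exact (((mink_meas_inv hg).pow_const n).const_mul _).smul
      ((measurable_gradient g).comp measurable_subtype_coe)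
  · have h1 := (hA θ).1
    rw [YF, norm_smul, Real.norm_of_nonneg (by positivity)]
    exact mul_le_mul (mul_le_mul_of_nonneg_left (pow_le_pow_left₀ h1.le (hA θ).2 n)
      (by positivity)) (hB θ).2 (norm_nonneg _) (by have := h1.le.trans (hA θ).2; positivity)
  · refine hg.isNorm_zq hn (ω := fun θ : Sph n => (n : ℝ) * kappa n / 2 * (g θ)⁻¹ ^ n) ?_
      fun θ => by have := (hA θ).1; positivity
    exact continuous_const.mul (((hg.continuous.comp continuous_subtype_val).inv₀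
      fun θ => (hg.pos _ (mink_coe_ne θ)).ne').pow n)

theorem mink_inner_S (T S : E n ≃L[ℝ] E n) (hTS : ∀ x y, ⟪T x, S y⟫ = ⟪x, y⟫) (y u : E n) :
    ⟪S y, u⟫ = ⟪y, T.symm u⟫ := by
  rw [real_inner_comm, real_inner_comm (T.symm u), ← hTS (T.symm u) y, T.apply_symm_apply]

theorem mink_zq_map (Y : Sph n → E n) (T S : E n ≃L[ℝ] E n)
    (hTS : ∀ x y, ⟪T x, S y⟫ = ⟪x, y⟫) {c : ℝ} (hc : 0 < c) :
    (zq fun θ => c • S (Y θ)) = fun u => c * zq Y (T.symm u) := by
  funext u
  simp only [zq]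
  rw [← integral_const_mul]
  refine integral_congr_ae (Eventually.of_forall fun θ => ?_)
  simp only
  rw [real_inner_smul_left, abs_mul, abs_of_pos hc, mink_inner_S T S hTS]

theorem mink_Zb_image (T S : E n ≃L[ℝ] E n) (hTS : ∀ x y, ⟪T x, S y⟫ = ⟪x, y⟫) (q : E n → ℝ) :
    Zb q = T '' Zb (fun a => q (S a)) := by
  ext x
  constructor
  · intro hx
    refine ⟨T.symm x, fun a => ?_, T.apply_symm_apply x⟩
    rw [← hTS, T.apply_symm_apply]
    exact hx _
  · rintro ⟨y, hy, rfl⟩ u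
    have : ⟪y, S.symm u⟫ ≤ q (S (S.symm u)) := hy (S.symm u)
    rwa [← hTS, S.apply_symm_apply] at this

/-- Behaviour of surface data under linear maps; `S` is the inverse of the adjoint of `T`. -/
theorem Surf.map {K : Set (E n)} {Y : Sph n → E n} (h : Surf K Y) (T S : E n ≃L[ℝ] E n)
    (hTS : ∀ x y, ⟪T x, S y⟫ = ⟪x, y⟫) :
    Surf (T '' K) (fun θ => |LinearMap.det (T : E n →ₗ[ℝ] E n)| • S (Y θ)) := by
  have hc := mink_det_pos T
  set c := |LinearMap.det (T : E n →ₗ[ℝ] E n)| with hcdef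
  obtain ⟨C, hC⟩ := h.bdd
  refine ⟨(S.continuous.measurable.comp h.meas).const_smul c,
    ⟨c * (‖(S : E n →L[ℝ] E n)‖ * C), fun θ => ?_⟩, ?_, fun q hq => ?_⟩
  · rw [norm_smul, Real.norm_of_nonneg hc.le]
    refine mul_le_mul_of_nonneg_left ?_ hc.le
    exact ((S : E n →L[ℝ] E n).le_opNorm _).trans
      (mul_le_mul_of_nonneg_left (hC θ) (norm_nonneg _))
  · rw [mink_zq_map Y T S hTS hc]
    exact (h.norm.comp T.symm).const_mul hc
  · have h1 := h.mink _ (hq.comp S)
    have e1 : (1 / 2 : ℝ) • (T '' K + Zb q) =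
        T '' ((1 / 2 : ℝ) • (K + Zb (fun a => q (S a)))) := by
      rw [mink_Zb_image T S hTS q, image_smul_set, image_add]
    have e2 : ∫ θ, q (c • S (Y θ)) ∂sig n = c * ∫ θ, q (S (Y θ)) ∂sig n := by
      rw [← integral_const_mul]
      exact integral_congr_ae (Eventually.of_forall fun θ => hq.smul _ _ hc.le)
    rw [e1, e2, mink_vol_image, mink_vol_image, ← hcdef, mul_left_comm 2 c,
      mul_div_mul_left _ _ hc.ne', mul_assoc]
    exact mul_le_mul_of_nonneg_left h1 hc.le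

theorem Zb_zq_map (Y : Sph n → E n) (T S : E n ≃L[ℝ] E n)
    (hTS : ∀ x y, ⟪T x, S y⟫ = ⟪x, y⟫) {c : ℝ} (hc : 0 < c) :
    Zb (zq fun θ => c • S (Y θ)) = c • (S '' Zb (zq Y)) := by
  rw [mink_zq_map Y T S hTS hc, Zb_const_mul hc,
    mink_Zb_image S T (fun x y => by rw [real_inner_comm, hTS, real_inner_comm])]
  simp only [ContinuousLinearEquiv.symm_apply_apply]

theorem exists_adjoint (R : E n ≃L[ℝ] E n) : ∃ T : E n ≃L[ℝ] E n,
    (∀ x y, ⟪T x, R.symm y⟫ = ⟪x, y⟫) ∧
      LinearMap.det (T : E n →ₗ[ℝ] E n) = LinearMap.det (R : E n →ₗ[ℝ] E n) := by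
  have key : ∀ (P Q : E n ≃L[ℝ] E n), (∀ y, Q (P y) = y) → ∀ x,
      ContinuousLinearMap.adjoint (P : E n →L[ℝ] E n)
        (ContinuousLinearMap.adjoint (Q : E n →L[ℝ] E n) x) = x := by
    intro P Q hPQ x
    apply ext_inner_right ℝ
    intro y
    rw [ContinuousLinearMap.adjoint_inner_left, ContinuousLinearMap.adjoint_inner_left]
    simp [hPQ]
  refine ⟨ContinuousLinearEquiv.equivOfInverse (ContinuousLinearMap.adjoint (R : E n →L[ℝ] E n))
    (ContinuousLinearMap.adjoint (R.symm : E n →L[ℝ] E n))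
    (key R.symm R R.apply_symm_apply) (key R R.symm R.symm_apply_apply), fun x y => ?_, ?_⟩
  · rw [ContinuousLinearEquiv.equivOfInverse_apply, ContinuousLinearMap.adjoint_inner_left]
    simp
  · have e : ((ContinuousLinearEquiv.equivOfInverse
        (ContinuousLinearMap.adjoint (R : E n →L[ℝ] E n))
        (ContinuousLinearMap.adjoint (R.symm : E n →L[ℝ] E n))
        (key R.symm R R.apply_symm_apply) (key R R.symm R.symm_apply_apply) :
          E n ≃L[ℝ] E n) : E n →ₗ[ℝ] E n) = LinearMap.adjoint (R : E n →ₗ[ℝ] E n) := by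
      rw [LinearMap.eq_adjoint_iff]
      intro x y
      exact ContinuousLinearMap.adjoint_inner_left (R : E n →L[ℝ] E n) y x
    rw [e, ← LinearMap.det_toMatrix (EuclideanSpace.basisFun (Fin n) ℝ).toBasis,
      LinearMap.toMatrix_adjoint, Matrix.det_conjTranspose, LinearMap.det_toMatrix, star_trivial]

/-- Minkowski's first inequality. -/
theorem Surf.minkowski (hn : 0 < n) {K : Set (E n)} {Y : Sph n → E n} (h : Surf K Y)
    (hK : IsCompact K) (hpos : 0 < vol K) {q : E n → ℝ} (hq : IsNorm q) :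
    n * vol K ^ (((n : ℝ) - 1) / n) * vol (Zb q) ^ (1 / (n : ℝ)) ≤
      2 * ∫ θ, q (Y θ) ∂sig n := by
  have hnr : (0 : ℝ) < n := by exact_mod_cast hn
  have hI : 0 ≤ ∫ θ, q (Y θ) ∂sig n := integral_nonneg fun θ => hq.toIsGauge.nonneg _
  rcases (ENNReal.toReal_nonneg : 0 ≤ vol (Zb q)).eq_or_lt with h0 | hW
  · rw [show vol (Zb q) = 0 from h0.symm, Real.zero_rpow (by positivity), mul_zero]
    positivity
  set V := vol K with hV
  set W := vol (Zb q) with hWd
  set l := (V / W) ^ (1 / (n : ℝ)) with hl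
  have hl0 : 0 < l := Real.rpow_pos_of_pos (div_pos hpos hW) _
  have hln : l ^ n = V / W := by
    rw [hl, one_div, Real.rpow_inv_natCast_pow (div_pos hpos hW).le hn.ne']
  have hq' := hq.const_mul hl0
  have h1 := h.mink _ hq'
  have hM := mink_compact_Zb hq'
  have h2 := mink_bm (a := 1 / 2) (b := 1 / 2) (by norm_num) (by norm_num) (by norm_num) hK hM
    ((hK.add hM).smul (1 / 2 : ℝ)) (fun x hx y hy => ⟨x + y, ⟨x, hx, y, hy, rfl⟩, smul_add _ _ _⟩)
  have h3 : vol (Zb fun u => l * q u) = V := by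
    rw [Zb_const_mul hl0, mink_vol_smul hl0.le, hln, div_mul_cancel₀ _ hW.ne']
  rw [h3, ← Real.rpow_add hpos, add_halves, Real.rpow_one] at h2
  have h4 := h2.trans h1
  rw [integral_const_mul] at h4
  have h5 : 1 ≤ Real.exp ((2 * (l * ∫ θ, q (Y θ) ∂sig n) / V - n) / 2) :=
    le_of_mul_le_mul_left (by rwa [mul_one]) hpos
  rw [Real.one_le_exp_iff] at h5
  have h6 : (n : ℝ) ≤ 2 * (l * ∫ θ, q (Y θ) ∂sig n) / V := by linarith
  rw [le_div_iff₀ hpos] at h6
  have h7 : V ^ (((n : ℝ) - 1) / n) * W ^ (1 / (n : ℝ)) * l = V := by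
    rw [hl, Real.div_rpow hpos.le hW.le, mul_assoc, mul_div_cancel₀ _
      (Real.rpow_pos_of_pos hW _).ne', ← Real.rpow_add hpos]
    have : ((n : ℝ) - 1) / n + 1 / n = 1 := by field_simp; ring
    rw [this, Real.rpow_one]
  refine le_of_mul_le_mul_right ?_ hl0
  calc n * V ^ (((n : ℝ) - 1) / n) * W ^ (1 / (n : ℝ)) * l
      = n * (V ^ (((n : ℝ) - 1) / n) * W ^ (1 / (n : ℝ)) * l) := by ring
    _ ≤ _ := by rw [h7]; linarith

end Vale.Agent.P237
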