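import Vale.Agent.P237.IBP

open MeasureTheory Metric Set Filter Topology
open scoped RealInnerProductSpace Pointwise ENNReal NNReal

namespace Vale.Agent.P237

variable {n : ℕ}

/-- The mean of `N (T θ) ^ d`. -/
noncomputable def posF (N : E n → ℝ) (d : ℕ) (T : E n →L[ℝ] E n) : ℝ :=
  ∫ θ, N (T (θ : E n)) ^ d ∂sig n

theorem posF_cont {N : E n → ℝ} (hN : IsGauge N) (d : ℕ) : Continuous (posF N d) := by
  have hc := hN.continuous
  have := continuous_parametric_integral_of_continuous (μ := sig n)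
    (f := fun (T : E n →L[ℝ] E n) (θ : Sph n) => N (T (θ : E n)) ^ d) (by fun_prop) isCompact_univ
  simp only [Measure.restrict_univ] at this
  exact this

theorem posF_pos (hn : 0 < n) {N : E n → ℝ} (hN : IsGauge N) (d : ℕ) {T : E n →L[ℝ] E n}
    (hT : T ≠ 0) : 0 < posF N d T := by
  have hc := hN.continuous
  have := Sphere_openPos (n := n)
  obtain ⟨x, hx⟩ : ∃ x, T x ≠ 0 := by
    by_contra h
    exact hT (ContinuousLinearMap.ext fun x => not_not.1 fun h' => h ⟨x, h'⟩)
  obtain ⟨u, hu, hxu⟩ := Sphere_unit hn x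
  have hu' : T u ≠ 0 := fun h => hx (by rw [hxu, map_smul, h, smul_zero])
  exact (by fun_prop : Continuous fun θ : Sph n => N (T (θ : E n)) ^ d)
    |>.integral_pos_of_hasCompactSupport_nonneg_nonzero (HasCompactSupport.of_compactSpace _)
      (fun θ => pow_nonneg (hN.nonneg _) _) (x := ⟨u, mem_sphere_zero_iff_norm.2 hu⟩)
      (pow_pos (hN.pos _ hu') _).ne'

theorem posF_smul {N : E n → ℝ} (hN : IsGauge N) (d : ℕ) {c : ℝ} (hc : 0 ≤ c)
    (T : E n →L[ℝ] E n) : posF N d (c • T) = c ^ d * posF N d T := by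
  simp only [posF, smul_apply, hN.smul c _ hc, mul_pow, integral_const_mul]

theorem pos_det_smul (c : ℝ) (T : E n →L[ℝ] E n) : (c • T).det = c ^ n * T.det := by
  have := LinearMap.det_smul c (T : E n →ₗ[ℝ] E n)
  rwa [finrank_euclideanSpace_fin] at this

/-- An extremal position. -/
theorem pos_max (hn : 0 < n) {N : E n → ℝ} (hN : IsGauge N) {d : ℕ} (hd : 1 ≤ d) :
    ∃ T : E n →L[ℝ] E n, T.det ≠ 0 ∧ 0 < posF N d T ∧ ∀ S : E n →L[ℝ] E n, S ≠ 0 →
      |S.det| ^ d * posF N d T ^ n ≤ |T.det| ^ d * posF N d S ^ n := by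
  have := Sphere_nontrivial hn
  have hne : ∀ T ∈ sphere (0 : E n →L[ℝ] E n) 1, T ≠ 0 := fun T hT =>
    ne_zero_of_mem_unit_sphere ⟨T, hT⟩
  have h1 : ContinuousLinearMap.id ℝ (E n) ∈ sphere (0 : E n →L[ℝ] E n) 1 := by
    rw [mem_sphere_zero_iff_norm, ContinuousLinearMap.norm_id]
  have hG : ContinuousOn (fun T : E n →L[ℝ] E n => |T.det| ^ d / posF N d T ^ n) (sphere 0 1) :=
    (ContinuousLinearMap.continuous_det.abs.pow d).continuousOn.div
      ((posF_cont hN d).pow n).continuousOn fun T hT => (pow_pos (posF_pos hn hN d (hne T hT)) _).ne'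
  obtain ⟨T, hT, hmax⟩ := (isCompact_sphere (0 : E n →L[ℝ] E n) 1).exists_isMaxOn ⟨_, h1⟩ hG
  have hF := posF_pos hn hN d (hne T hT)
  have key : ∀ S : E n →L[ℝ] E n, S ≠ 0 →
      |S.det| ^ d * posF N d T ^ n ≤ |T.det| ^ d * posF N d S ^ n := by
    intro S hS
    have hs := norm_pos_iff.2 hS
    have hc := inv_pos.2 hs
    have h2 : ‖S‖⁻¹ • S ∈ sphere (0 : E n →L[ℝ] E n) 1 := by
      rw [mem_sphere_zero_iff_norm, norm_smul, norm_inv, norm_norm, inv_mul_cancel₀ hs.ne']
    have h3 : |(‖S‖⁻¹ • S).det| ^ d / posF N d (‖S‖⁻¹ • S) ^ n ≤ |T.det| ^ d / posF N d T ^ n :=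
      hmax h2
    have hFS := posF_pos hn hN d hS
    rw [pos_det_smul, posF_smul hN d hc.le, abs_mul, abs_of_pos (pow_pos hc _), mul_pow, mul_pow,
      ← pow_mul, ← pow_mul, mul_comm d n, mul_div_mul_left _ _ (pow_pos hc _).ne',
      div_le_div_iff₀ (pow_pos hFS _) (pow_pos hF _)] at h3
    exact h3
  refine ⟨T, fun h0 => ?_, hF, key⟩
  have h4 := key _ (hne _ h1)
  have h5 : (ContinuousLinearMap.id ℝ (E n)).det = 1 := LinearMap.det_id
  rw [h0, h5, abs_zero, zero_pow (by omega), zero_mul, abs_one, one_pow, one_mul] at h4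
  exact absurd h4 (not_le.2 (pow_pos hF _))

/-- The first variation along a rank one perturbation of the identity. -/
theorem pos_deriv {f : E n → ℝ} (hf : IsGauge f) (d : ℕ) {a : E n} (ha : ‖a‖ = 1) :
    HasDerivAt (fun ε : ℝ => ∫ θ, f ((θ : E n) + ε • ⟪a, (θ : E n)⟫ • a) ^ d ∂sig n)
      (∫ θ, ⟪a, (θ : E n)⟫ * (d * ⟪XF d f (θ : E n), a⟫) ∂sig n) 0 := by
  have hc := hf.continuous
  obtain ⟨L, hL⟩ := hf.lipschitz
  have h1 : LocallyLipschitz fun x => f x ^ d :=
    (by fun_prop : ContDiff ℝ 1 fun t : ℝ => t ^ d).locallyLipschitz.comp hL.locallyLipschitz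
  obtain ⟨K, hK⟩ := LocallyLipschitzOn.exists_lipschitzOnWith_of_compact
    (isCompact_closedBall (0 : E n) 2) h1.locallyLipschitzOn
  refine (hasDerivAt_integral_of_dominated_loc_of_lip (μ := sig n) (bound := fun _ => (K : ℝ))
    (F := fun (ε : ℝ) (θ : Sph n) => f ((θ : E n) + ε • ⟪a, (θ : E n)⟫ • a) ^ d)
    (closedBall_mem_nhds (0 : ℝ) one_pos)
    (Eventually.of_forall fun ε => Continuous.aestronglyMeasurable (by fun_prop))
    (integrable_sig (by fun_prop)) (ibp_int hf d continuous_id a a).aestronglyMeasurable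
    (Eventually.of_forall fun θ => ?_) (integrable_const _) ?_).2
  · have hv : ‖⟪a, (θ : E n)⟫ • a‖ ≤ 1 := by
      rw [norm_smul, ha, mul_one]
      exact (norm_inner_le_norm _ _).trans (by rw [ha, norm_coe, mul_one])
    have h2 : LipschitzWith 1 fun ε : ℝ => (θ : E n) + ε • ⟪a, (θ : E n)⟫ • a := by
      refine LipschitzWith.mk_one fun x y => ?_
      rw [dist_add_left, dist_eq_norm, ← sub_smul, norm_smul, dist_eq_norm]
      exact mul_le_of_le_one_right (norm_nonneg _) hv
    have h3 := hK.comp (h2.lipschitzOnWith (s := closedBall 0 1)) fun ε hε => by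
      rw [mem_closedBall_zero_iff] at hε ⊢
      refine (norm_add_le _ _).trans ?_
      rw [norm_coe, norm_smul]
      have := mul_le_one₀ hε (norm_nonneg _) hv
      linarith
    rw [mul_one] at h3
    rw [Real.nnabs_coe]
    exact h3
  · filter_upwards [hf.ae_diff_sig] with θ hθ
    refine ((ga_line hθ (⟪a, (θ : E n)⟫ • a)).pow d).congr_deriv ?_
    simp only [zero_smul, add_zero, XF, real_inner_smul_left, real_inner_smul_right, id]
    ring

/-- Every norm has a position in which the second moments of `N^d` are those of a constant. -/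
theorem exists_iso (hn : 0 < n) {N : E n → ℝ} (hN : IsNorm N) {d : ℕ} (hd : 1 ≤ d) :
    ∃ R : E n ≃L[ℝ] E n, Iso fun x => N (R x) ^ d := by
  obtain ⟨T, hT, hF, hmax⟩ := pos_max hn hN.toIsGauge hd
  have := Sphere_nontrivial hn
  refine ⟨T.toContinuousLinearEquivOfDetNeZero hT, fun a ha => ?_⟩
  have hf : IsGauge fun x => N (T x) :=
    (hN.comp (T.toContinuousLinearEquivOfDetNeZero hT)).toIsGauge
  have hc := hN.toIsGauge.continuous
  have hn' : (0 : ℝ) < n := Nat.cast_pos.2 hn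
  have hd' : (0 : ℝ) < d := Nat.cast_pos.2 hd
  have h1 := pos_deriv hf d ha
  have h2 := ibp hn hf hd (φ := fun t => t) (φ' := fun _ => 1) (fun t => hasDerivAt_id t)
    continuous_const ha a
  rw [h2] at h1
  set D := ∫ θ, N (T θ) ^ d * (((n : ℝ) + d - 1) * ⟪(θ : E n), a⟫ * ⟪a, (θ : E n)⟫ -
    1 * (⟪a, a⟫ - ⟪a, (θ : E n)⟫ * ⟪(θ : E n), a⟫)) ∂sig n with hD
  have h3 : D = (n + d) * (∫ θ, N (T θ) ^ d * ⟪a, (θ : E n)⟫ ^ 2 ∂sig n) - posF N d T := by
    rw [hD, posF, ← integral_const_mul, ← integral_sub (integrable_sig (by fun_prop))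
      (integrable_sig (by fun_prop))]
    refine integral_congr_ae (Eventually.of_forall fun θ => ?_)
    simp only [real_inner_self_eq_norm_sq, ha, real_inner_comm a]
    ring
  have h4 : HasDerivAt (fun ε : ℝ => (1 + ε) ^ d * posF N d T ^ n) (d * posF N d T ^ n) 0 := by
    simpa using (((hasDerivAt_id (0 : ℝ)).const_add 1).pow d).mul_const (posF N d T ^ n)
  have h5 : IsLocalMin (fun ε : ℝ =>
      (∫ θ, N (T ((θ : E n) + ε • ⟪a, (θ : E n)⟫ • a)) ^ d ∂sig n) ^ n -
        (1 + ε) ^ d * posF N d T ^ n) 0 := by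
    filter_upwards [Ioi_mem_nhds (show (-1 : ℝ) < 0 by norm_num)] with ε hε
    have hε' : 0 < 1 + ε := by have : (-1 : ℝ) < ε := hε; linarith
    let P : E n →L[ℝ] E n := LinearMap.toContinuousLinearMap
      (LinearMap.transvection (innerSL ℝ a : E n →ₗ[ℝ] ℝ) (ε • a))
    have hP : P.det = 1 + ε := by
      refine (LinearMap.transvection.det _ _).trans ?_
      simp [real_inner_smul_right, ha]
    have hP' : ∀ x, P x = x + ε • ⟪a, x⟫ • a := fun x => by
      rw [smul_comm]; rfl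
    have hS : (T.comp P).det = T.det * (1 + ε) := by
      rw [← hP]; exact LinearMap.det_comp _ _
    have h6 := hmax (T.comp P) fun h => by
      have h7 : (0 : E n →L[ℝ] E n).det = 0 := by
        have h8 := pos_det_smul 0 T
        rwa [show (0 : ℝ) • T = 0 from zero_smul ℝ T, zero_pow hn.ne', zero_mul] at h8
      rw [h, h7] at hS
      exact mul_ne_zero hT hε'.ne' hS.symm
    rw [hS, abs_mul, abs_of_pos hε', mul_pow, mul_assoc,
      mul_le_mul_iff_right₀ (pow_pos (abs_pos.2 hT) _)] at h6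
    simp only [posF, ContinuousLinearMap.comp_apply, hP'] at h6
    simp only [posF, zero_smul, add_zero, one_pow, one_mul, sub_self]
    linarith
  have h8 := h5.hasDerivAt_eq_zero ((h1.pow n).sub h4)
  simp only [zero_smul, add_zero] at h8
  change n * posF N d T ^ (n - 1) * D - _ = 0 at h8
  show ∫ θ, N (T θ) ^ d * ⟪a, (θ : E n)⟫ ^ 2 ∂sig n = posF N d T / n
  rw [← pow_sub_one_mul hn.ne' (posF N d T), h3] at h8
  have h9 := pow_pos hF (n - 1)
  rw [eq_div_iff hn'.ne']
  refine mul_left_cancel₀ (mul_pos h9 (add_pos hn' hd')).ne' ?_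
  linear_combination h8

end Vale.Agent.P237
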