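import Vale.Agent.P237.Kernel
import Vale.Agent.P237.Mink
import Vale.Agent.P237.Position
import Vale.Agent.P237.BMeq
import Vale.Agent.P237.Ellipsoid

open MeasureTheory Metric Set Filter Topology
open scoped RealInnerProductSpace Pointwise ENNReal NNReal

namespace Vale.Agent.P237

variable {n : ℕ}

theorem zq_swap {Y₁ Y₂ : Sph n → E n} (h₁ : Measurable Y₁) (h₂ : Measurable Y₂) {C₁ C₂ : ℝ}
    (b₁ : ∀ θ, ‖Y₁ θ‖ ≤ C₁) (b₂ : ∀ θ, ‖Y₂ θ‖ ≤ C₂) :
    ∫ θ, zq Y₁ (Y₂ θ) ∂sig n = ∫ θ, zq Y₂ (Y₁ θ) ∂sig n := by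
  unfold zq
  have hm : Measurable fun p : Sph n × Sph n => |⟪Y₁ p.2, Y₂ p.1⟫| :=
    ((h₁.comp measurable_snd).inner (h₂.comp measurable_fst)).abs
  have hi : Integrable (Function.uncurry fun (θ θ' : Sph n) => |⟪Y₁ θ', Y₂ θ⟫|)
      ((sig n).prod (sig n)) := by
    refine Integrable.of_bound hm.aestronglyMeasurable (C₁ * C₂) (ae_of_all _ fun p => ?_)
    simp only [Function.uncurry, Real.norm_eq_abs, abs_abs]
    exact (abs_real_inner_le_norm _ _).trans
      (mul_le_mul (b₁ _) (b₂ _) (norm_nonneg _) ((norm_nonneg _).trans (b₁ p.2)))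
  rw [integral_integral_swap hi]
  simp only [real_inner_comm]

theorem coe_ne_zero (θ : Sph n) : (θ : E n) ≠ 0 := by
  intro h
  have := norm_coe θ
  rw [h, norm_zero] at this
  exact zero_ne_one this

theorem integral_XF_dual_le {q : E n → ℝ} (hq : IsNorm q) (d : ℕ) :
    ∫ θ, q (XF d (dual q) (θ : E n)) ∂sig n ≤ ∫ θ, dual q (θ : E n) ^ (d - 1) ∂sig n := by
  have hN := hq.dual.toIsGauge
  refine integral_mono_of_nonneg (ae_of_all _ fun θ => hq.toIsGauge.nonneg _)
    (integrable_sig ((hN.continuous.comp continuous_subtype_val).pow _)) (ae_of_all _ fun θ => ?_)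
  have h0 : 0 ≤ dual q (θ : E n) ^ (d - 1) := pow_nonneg (hN.nonneg _) _
  show q (XF d (dual q) (θ : E n)) ≤ dual q (θ : E n) ^ (d - 1)
  unfold XF
  rw [hq.smul _ _ h0]
  exact mul_le_of_le_one_right h0 (hq.grad_dual_le _)

theorem integral_pow_pos (hn : 0 < n) {N : E n → ℝ} (hN : IsGauge N) (k : ℕ) :
    0 < ∫ θ, N (θ : E n) ^ k ∂sig n := by
  have := sig_prob hn
  obtain ⟨c, L, hc, -, h1, -, -⟩ := hN.bounds
  have : ∫ _θ : Sph n, c ^ k ∂sig n ≤ ∫ θ, N (θ : E n) ^ k ∂sig n := by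
    refine integral_mono (integrable_const _)
      (integrable_sig ((hN.continuous.comp continuous_subtype_val).pow _)) fun θ => ?_
    have := h1 θ
    rw [norm_coe, mul_one] at this
    exact pow_le_pow_left₀ hc.le this _
  simp only [integral_const, probReal_univ, smul_eq_mul, one_mul] at this
  exact (pow_pos hc k).trans_le this

theorem vol_pos_of_body {K : Set (E n)} (hK : IsConvexBody K) : 0 < vol K :=
  ENNReal.toReal_pos (Measure.measure_pos_of_nonempty_interior volume hK.2.2).ne'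
    hK.1.measure_lt_top.ne

theorem vol_closedBall (c : E n) {r : ℝ} (hr : 0 ≤ r) :
    vol (closedBall c r) = r ^ n * kappa n := by
  unfold vol kappa
  rw [Measure.addHaar_closedBall' volume c hr, ENNReal.toReal_mul,
    ENNReal.toReal_ofReal (pow_nonneg hr _)]
  simp

theorem cP_eq (hn : 2 ≤ n) {V : ℝ} (hV : 0 < V) :
    cP n * V ^ (n - 1) = kappa n *
      (c0 n * (n / 2) * V ^ (((n : ℝ) - 1) / n) * kappa n ^ (1 / (n : ℝ))) ^ n := by
  have hn0 : (n : ℝ) ≠ 0 := by positivity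
  have hκ := kappa_pos n
  have h1 : (V ^ (((n : ℝ) - 1) / n)) ^ n = V ^ (n - 1) := by
    rw [← Real.rpow_natCast, ← Real.rpow_mul hV.le, div_mul_cancel₀ _ hn0, ← Real.rpow_natCast,
      Nat.cast_sub (by omega), Nat.cast_one]
  have h2 : (kappa n ^ (1 / (n : ℝ))) ^ n = kappa n := by
    rw [← Real.rpow_natCast, ← Real.rpow_mul hκ.le, one_div_mul_cancel hn0, Real.rpow_one]
  have h3 : c0 n * (n / 2) = kappa (n - 1) / kappa n := by
    rw [c0_eq hn]; field_simp
  rw [mul_pow, mul_pow, h1, h2, h3, cP, div_pow, zpow_sub₀ hκ.ne', zpow_natCast]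
  field_simp

theorem gradient_const_mul_norm (c : ℝ) {x : E n} (hx : ‖x‖ = 1) :
    gradient (fun y : E n => c * ‖y‖) x = c • x := by
  have h1 : HasFDerivAt (fun y : E n => ‖y‖ ^ 2) (2 • innerSL ℝ x) x :=
    (hasStrictFDerivAt_norm_sq x).hasFDerivAt
  have h2 := h1.sqrt (by rw [hx]; norm_num)
  simp only [Real.sqrt_sq (norm_nonneg _), hx] at h2
  have h3 := h2.const_mul c
  refine HasGradientAt.gradient ?_
  rw [hasGradientAt_iff_hasFDerivAt]
  refine h3.congr_fderiv ?_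
  ext y
  simp

/-- The inequality and its equality case in the good position. -/
theorem main_iso (hn : 2 ≤ n) {d : ℕ} (hd : 1 ≤ d) (hO : OneNorm n d) {K : Set (E n)}
    (hK : IsConvexBody K) {Y : Sph n → E n} (hY : Surf K Y)
    (hiso : Iso fun x => dual (zq Y) x ^ d) :
    cP n * vol K ^ (n - 1) ≤ vol (Zb (zq Y)) ∧
      (vol (Zb (zq Y)) ≤ cP n * vol K ^ (n - 1) → ∃ (c : E n) (r : ℝ), 0 < r ∧
        K = closedBall c r) := by
  have hn0 : 0 < n := by omega
  have := sig_prob hn0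
  have hnR : (0 : ℝ) < n := by exact_mod_cast hn0
  have hκ := kappa_pos n
  have hc0 := c0_pos hn0
  have hV := vol_pos_of_body hK
  obtain ⟨CY, hCY⟩ := hY.bdd
  set q := zq Y with hqdef
  have hq : IsNorm q := hY.norm
  set N' := dual q with hN'def
  have hN' : IsNorm N' := hq.dual
  set q' := zq fun θ : Sph n => XF d N' (θ : E n) with hq'def
  have hq' : IsNorm q' := hN'.toIsGauge.isNorm_zq hn0 (ω := fun θ => N' (θ : E n) ^ (d - 1))
    ((hN'.toIsGauge.continuous.comp continuous_subtype_val).pow _)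
    fun θ => pow_pos (hN'.pos _ (coe_ne_zero θ)) _
  set N := dual q' with hNdef
  have hN : IsNorm N := hq'.dual
  set I' := ∫ θ, (N' (θ : E n))⁻¹ ^ n ∂sig n with hI'
  set I := ∫ θ, (N (θ : E n))⁻¹ ^ n ∂sig n with hI
  have hI'p : 0 < I' := hN'.toIsGauge.int_inv_pos hn0
  have hIp : 0 < I := hN.toIsGauge.int_inv_pos hn0
  have hZ' : vol (Zb q) = kappa n * I' := by
    rw [← hq.dual_ball]; exact hN'.toIsGauge.vol_eq hn0
  have hZ : vol (Zb q') = kappa n * I := by
    rw [← hq'.dual_ball]; exact hN.toIsGauge.vol_eq hn0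
  set m' := ∫ θ, N' (θ : E n) ^ (d - 1) ∂sig n with hmdef'
  set m := ∫ θ, N (θ : E n) ^ (d - 1) ∂sig n with hmdef
  have hm'p : 0 < m' := integral_pow_pos hn0 hN'.toIsGauge _
  have hmp : 0 < m := integral_pow_pos hn0 hN.toIsGauge _
  obtain ⟨C', hC'⟩ := hN'.toIsGauge.XF_bdd d
  have hX' : Measurable fun θ : Sph n => XF d N' (θ : E n) :=
    (hN'.toIsGauge.measurable_XF d).comp measurable_subtype_coe
  have s2 : ∫ θ, q' (Y θ) ∂sig n ≤ m' := by
    rw [hq'def, zq_swap hX' hY.meas hC' hCY]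
    exact integral_XF_dual_le hq d
  have s3 := hY.minkowski hn0 hK.1 hV hq'
  have s4 : Lam d N N' ≤ m := by
    refine le_trans (le_of_eq ?_) (integral_XF_dual_le hq' d)
    unfold Lam
    simp only [hq'def, zq, real_inner_comm]
    rfl
  obtain ⟨s5, s6⟩ := lam_bound hn hd hO hN hN' hiso
  set a := I ^ (1 / (n : ℝ)) with ha
  set a' := I' ^ (1 / (n : ℝ)) with ha'
  have hap : 0 < a := Real.rpow_pos_of_pos hIp _
  have hap' : 0 < a' := Real.rpow_pos_of_pos hI'p _
  have ht : tau d N = m / a := by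
    unfold tau hm; rw [Real.rpow_neg hIp.le, div_eq_mul_inv m]
  have ht' : tau d N' = m' / a' := by
    unfold tau hm; rw [Real.rpow_neg hI'p.le, div_eq_mul_inv m']
  set W := vol K ^ (((n : ℝ) - 1) / n) * kappa n ^ (1 / (n : ℝ)) with hW
  have hWp : 0 < W := mul_pos (Real.rpow_pos_of_pos hV _) (Real.rpow_pos_of_pos hκ _)
  have s7 : n * W * a ≤ 2 * m' := by
    rw [hZ, Real.mul_rpow hκ.le hIp.le] at s3
    have : n * W * a = n * vol K ^ (((n : ℝ) - 1) / n) * (kappa n ^ (1 / (n : ℝ)) * a) := by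
      rw [hW]; ring
    linarith
  set A := c0 n * (n / 2) * vol K ^ (((n : ℝ) - 1) / n) * kappa n ^ (1 / (n : ℝ)) with hA
  have hAW : A = c0 n * (n / 2) * W := by rw [hA, hW]; ring
  have hAp : 0 < A := by rw [hAW]; positivity
  have key : A * (m / a') ≤ c0 n * (tau d N * tau d N') := by
    rw [ht, ht', hAW]
    have h1 : c0 n * (n / 2) * W * (m / a') = c0 n * (m / a') * (n * W * a) / (2 * a) := by
      field_simp
    have h2 : c0 n * (m / a * (m' / a')) = c0 n * (m / a') * (2 * m') / (2 * a) := by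
      field_simp
    rw [h1, h2]
    exact div_le_div_of_nonneg_right (mul_le_mul_of_nonneg_left s7 (by positivity)) (by positivity)
  have hAa : A ≤ a' := by
    have h1 : A * (m / a') ≤ m := key.trans (s5.trans s4)
    rw [← mul_div_assoc, div_le_iff₀ hap', mul_comm] at h1
    exact le_of_mul_le_mul_left h1 hmp
  have ha'n : a' ^ n = I' := by
    rw [ha', ← Real.rpow_natCast, ← Real.rpow_mul hI'p.le, one_div_mul_cancel hnR.ne',
      Real.rpow_one]
  rw [cP_eq hn hV, hZ', ← hA, ← ha'n]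
  refine ⟨mul_le_mul_of_nonneg_left (pow_le_pow_left₀ hAp.le hAa n) hκ.le, fun h => ?_⟩
  have haA : a' ≤ A :=
    le_of_pow_le_pow_left₀ hn0.ne' hAp.le (le_of_mul_le_mul_left h hκ)
  have hconst : ∀ x y : Sph n, N' x = N' y := by
    by_contra hc
    push Not at hc
    have h1 : A * (m / a') < m := key.trans_lt ((s6 hc).trans_le s4)
    rw [← mul_div_assoc, div_lt_iff₀ hap', mul_comm] at h1
    exact absurd (lt_of_mul_lt_mul_left h1 hmp.le) (not_lt.2 haA)
  let e : Sph n := ⟨e0 n, by simp [norm_e0 hn0]⟩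
  set c := N' e with hc
  have hcp : 0 < c := hN'.pos _ (coe_ne_zero e)
  have hN'eq : N' = fun y => c * ‖y‖ := by
    funext y
    by_cases hy : y = 0
    · rw [hy, hN'.toIsGauge.zero]; simp
    · have hy' : 0 < ‖y‖ := norm_pos_iff.2 hy
      let u : Sph n := ⟨‖y‖⁻¹ • y, by simp [norm_smul, hy'.ne']⟩
      have h1 : y = ‖y‖ • (u : E n) := by
        simp [u, smul_smul, hy'.ne']
      have h2 : N' y = ‖y‖ * N' u := by
        conv_lhs => rw [h1]
        exact hN'.smul _ _ hy'.le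
      rw [h2, hconst u e, mul_comm]
  have hqle : ∀ θ : Sph n, q θ ≤ c⁻¹ := by
    intro θ
    have h1 := hq.grad_dual_le (θ : E n)
    rw [← hN'def, hN'eq, gradient_const_mul_norm c (norm_coe θ), hq.smul _ _ hcp.le] at h1
    rw [inv_eq_one_div, le_div_iff₀ hcp]
    linarith
  have hI'eq : I' = c⁻¹ ^ n := by
    rw [hI']
    simp only [hconst _ e, ← hc, integral_const, probReal_univ, smul_eq_mul, one_mul]
  have ha'eq : a' = c⁻¹ := by
    rw [← ha'n] at hI'eq
    exact (pow_left_inj₀ hap'.le (inv_pos.2 hcp).le hn0.ne').1 hI'eq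
  have s8 : c0 n * ∫ θ, ‖Y θ‖ ∂sig n ≤ A := by
    have h1 := zq_swap (Y₁ := Y) (Y₂ := fun θ : Sph n => (θ : E n)) hY.meas
      measurable_subtype_coe hCY (fun θ => (norm_coe θ).le)
    have h2 : ∀ θ, zq (fun θ : Sph n => (θ : E n)) (Y θ) = c0 n * ‖Y θ‖ := by
      intro θ
      rw [← integral_abs_inner hn0]
      unfold zq
      simp only [real_inner_comm]
    simp only [h2, integral_const_mul] at h1
    rw [← h1]
    refine le_trans ?_ (ha'eq ▸ haA)
    have h3 : ∫ θ, q (θ : E n) ∂sig n ≤ ∫ _θ : Sph n, c⁻¹ ∂sig n :=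
      integral_mono (integrable_sig (hq.toIsGauge.continuous.comp continuous_subtype_val))
        (integrable_const _) hqle
    simpa using h3
  set r := (vol K / kappa n) ^ (1 / (n : ℝ)) with hr
  have hrp : 0 < r := Real.rpow_pos_of_pos (div_pos hV hκ) _
  have hrn : r ^ n = vol K / kappa n := by
    rw [hr, ← Real.rpow_natCast, ← Real.rpow_mul (div_pos hV hκ).le, one_div_mul_cancel hnR.ne',
      Real.rpow_one]
  have hrW : r * W = vol K := by
    rw [hr, hW, Real.div_rpow hV.le hκ.le]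
    have h1 : vol K ^ (1 / (n : ℝ)) * vol K ^ (((n : ℝ) - 1) / n) = vol K := by
      rw [← Real.rpow_add hV]
      have : 1 / (n : ℝ) + ((n : ℝ) - 1) / n = 1 := by field_simp; ring
      rw [this, Real.rpow_one]
    have h2 : kappa n ^ (1 / (n : ℝ)) ≠ 0 := (Real.rpow_pos_of_pos hκ _).ne'
    field_simp
    linarith
  have s9 := hY.mink _ (isNorm_norm.const_mul hrp)
  rw [Zb_norm hrp.le] at s9
  have s10 : (2 * (∫ θ, r * ‖Y θ‖ ∂sig n) / vol K - n) / 2 ≤ 0 := by
    rw [integral_const_mul]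
    have h1 : ∫ θ, ‖Y θ‖ ∂sig n ≤ n / 2 * W := by
      rw [hAW, mul_assoc] at s8
      exact le_of_mul_le_mul_left s8 hc0
    have h2 : 2 * (r * ∫ θ, ‖Y θ‖ ∂sig n) / vol K ≤ n := by
      rw [div_le_iff₀ hV, ← hrW]
      nlinarith
    linarith
  obtain ⟨z, hz⟩ := eq_ball_of_bm hn0 hK.1 hK.2.1 hK.2.2 hrp
    (by rw [vol_closedBall _ hrp.le, hrn]; field_simp)
    (s9.trans (mul_le_of_le_one_right hV.le (Real.exp_le_one_iff.2 s10)))
  exact ⟨z, r, hrp, hz⟩

theorem vol_image (T : E n ≃L[ℝ] E n) (A : Set (E n)) :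
    vol (T '' A) = |LinearMap.det (T : E n →ₗ[ℝ] E n)| * vol A := by
  unfold vol
  have := Measure.addHaar_image_linearMap (volume : Measure (E n)) (T : E n →ₗ[ℝ] E n) A
  have h2 : ((T : E n →ₗ[ℝ] E n) : E n → E n) = T := rfl
  rw [h2] at this
  rw [this, ENNReal.toReal_mul, ENNReal.toReal_ofReal (abs_nonneg _)]

theorem vol_smul {c : ℝ} (hc : 0 ≤ c) (A : Set (E n)) : vol (c • A) = c ^ n * vol A := by
  unfold vol
  rw [Measure.addHaar_smul_of_nonneg _ hc, ENNReal.toReal_mul,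
    ENNReal.toReal_ofReal (pow_nonneg hc _)]
  simp

theorem det_ne_zero (T : E n ≃L[ℝ] E n) : LinearMap.det (T : E n →ₗ[ℝ] E n) ≠ 0 :=
  (LinearEquiv.isUnit_det' T.toLinearEquiv).ne_zero

theorem IsConvexBody.image {K : Set (E n)} (hK : IsConvexBody K) (T : E n ≃L[ℝ] E n) :
    IsConvexBody (T '' K) := by
  refine ⟨hK.1.image T.continuous, hK.2.1.is_linear_image (T : E n →ₗ[ℝ] E n).isLinear, ?_⟩
  have := T.toHomeomorph.image_interior K
  have h2 : (T.toHomeomorph : E n → E n) = T := rfl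
  rw [h2] at this
  rw [← this]
  exact hK.2.2.image _

theorem Iso.const_mul {f : E n → ℝ} (h : Iso f) (c : ℝ) : Iso fun x => c * f x := by
  intro a ha
  have := h a ha
  unfold av at this ⊢
  simp only [mul_assoc, integral_const_mul, this]
  ring

theorem main_surf (hn : 2 ≤ n) {d : ℕ} (hd : 1 ≤ d) (hO : OneNorm n d) {K : Set (E n)}
    (hK : IsConvexBody K) {Y : Sph n → E n} (hY : Surf K Y) :
    cP n * vol K ^ (n - 1) ≤ vol (Zb (zq Y)) ∧
      (vol (Zb (zq Y)) ≤ cP n * vol K ^ (n - 1) → IsEllipsoid K) := by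
  have hn0 : 0 < n := by omega
  have hN0 := hY.norm.dual
  obtain ⟨R, hR⟩ := exists_iso hn0 hN0 hd
  obtain ⟨T, hT, hdet⟩ := exists_adjoint R
  set c := |LinearMap.det (T : E n →ₗ[ℝ] E n)| with hc
  have hcp : 0 < c := abs_pos.2 (det_ne_zero T)
  have hY' := hY.map T R.symm hT
  have hZ := Zb_zq_map Y T R.symm hT hcp
  have hd' : dual (zq fun θ => c • R.symm (Y θ)) = fun x => c⁻¹ * dual (zq Y) (R x) := by
    refine hY'.norm.dual.toIsGauge.ext ((hN0.comp R).const_mul (inv_pos.2 hcp)).toIsGauge ?_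
    rw [hY'.norm.dual_ball, hZ, ← hY.norm.dual_ball]
    ext x
    rw [mem_smul_set_iff_inv_smul_mem₀ hcp.ne', ContinuousLinearEquiv.image_eq_preimage_symm]
    simp only [ContinuousLinearEquiv.symm_symm, mem_preimage, mem_ofPred_eq, map_smul]
    rw [hN0.smul _ _ (inv_pos.2 hcp).le]
  have hiso : Iso fun x => dual (zq fun θ => c • R.symm (Y θ)) x ^ d := by
    rw [hd']
    simp only [mul_pow]
    exact hR.const_mul _
  obtain ⟨h1, h2⟩ := main_iso hn hd hO (hK.image T) hY' hiso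
  have hdet' : |LinearMap.det (R.symm : E n →ₗ[ℝ] E n)| = c⁻¹ := by
    have : LinearMap.det (R.symm : E n →ₗ[ℝ] E n) = (LinearMap.det (R : E n →ₗ[ℝ] E n))⁻¹ :=
      LinearEquiv.det_coe_symm R.toLinearEquiv
    rw [this, abs_inv, hc, hdet]
  have hv1 : vol (Zb (zq fun θ => c • R.symm (Y θ))) = c ^ (n - 1) * vol (Zb (zq Y)) := by
    rw [hZ, vol_smul hcp.le, vol_image, hdet']
    obtain ⟨k, rfl⟩ : ∃ k, n = k + 1 := ⟨n - 1, by omega⟩
    simp only [Nat.add_sub_cancel, pow_succ]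
    field_simp
  have hv2 : cP n * vol (T '' K) ^ (n - 1) = c ^ (n - 1) * (cP n * vol K ^ (n - 1)) := by
    rw [vol_image, ← hc, mul_pow]; ring
  rw [hv1, hv2] at h1 h2
  have hcn : 0 < c ^ (n - 1) := pow_pos hcp _
  refine ⟨le_of_mul_le_mul_left h1 hcn, fun h => ?_⟩
  obtain ⟨z, r, hr, hz⟩ := h2 (mul_le_mul_of_nonneg_left h hcn.le)
  refine ⟨T.symm z, (LinearEquiv.smulOfNeZero ℝ (E n) r hr.ne').trans T.symm.toLinearEquiv, ?_⟩
  ext x
  have hx : x ∈ K ↔ T x ∈ closedBall z r := by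
    rw [← hz]; exact (T.injective.mem_set_image).symm
  rw [hx]
  constructor
  · intro h
    refine ⟨r⁻¹ • (T x - z), ?_, ?_⟩
    · rw [mem_closedBall_iff_norm] at h
      rw [mem_closedBall_zero_iff, norm_smul, norm_inv, Real.norm_eq_abs, abs_of_pos hr,
        inv_mul_le_iff₀ hr, mul_one]
      exact h
    · simp [smul_smul, hr.ne']
  · rintro ⟨y, hy, rfl⟩
    rw [mem_closedBall_zero_iff] at hy
    rw [mem_closedBall_iff_norm]
    simp only [LinearEquiv.trans_apply, LinearEquiv.smulOfNeZero_apply, map_add,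
      ContinuousLinearEquiv.coe_toLinearEquiv, ContinuousLinearEquiv.apply_symm_apply,
      add_sub_cancel_left, norm_smul, Real.norm_eq_abs, abs_of_pos hr]
    exact mul_le_of_le_one_right hr.le hy

theorem zq_smul (Y : Sph n → E n) {r : ℝ} (hr : 0 ≤ r) (u : E n) : zq Y (r • u) = r * zq Y u := by
  unfold zq
  simp only [inner_smul_right, abs_mul, abs_of_nonneg hr, integral_const_mul]

theorem petty_of_oneNorm (hn : 2 ≤ n) {d : ℕ} (hd : 1 ≤ d) (hO : OneNorm n d) {K : Set (E n)}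
    (hK : IsConvexBody K) :
    cP n * vol K ^ (n - 1) ≤ vol (projBody K) ∧
      (vol (projBody K) = cP n * vol K ^ (n - 1) ↔ IsEllipsoid K) := by
  have hn0 : 0 < n := by omega
  obtain ⟨a, ha⟩ := hK.2.2
  set K₀ := (fun x => -a + x) '' K with hK₀
  have hi : interior K₀ = (fun x => -a + x) '' interior K :=
    ((Homeomorph.addLeft (-a)).image_interior K).symm
  have h0 : (0 : E n) ∈ interior K₀ := by
    rw [hi]; exact ⟨a, ha, by simp⟩
  have hK0 : IsConvexBody K₀ :=
    ⟨hK.1.image (continuous_const.add continuous_id), hK.2.1.translate _, ⟨0, h0⟩⟩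
  obtain ⟨g, hg, hgK⟩ := exists_gauge hK0.1 hK0.2.1 h0
  have hS : Surf K₀ (YF g) := hgK ▸ surf_gauge hn0 hg
  obtain ⟨h1, h2⟩ := main_surf hn hd hO hK0 hS
  have hv : vol K₀ = vol K := by
    unfold vol
    rw [hK₀, image_add_left, measure_preimage_add]
  have hsub : Zb (zq (YF g)) ⊆ projBody K := by
    rw [← projBody_vadd (-a) K, ← hK₀, hgK]
    intro x hx u hu
    exact (hx u).trans (zq_YF_le hn hg hu)
  have hle : vol (Zb (zq (YF g))) ≤ vol (projBody K) :=
    ENNReal.toReal_mono (isCompact_projBody hK.1).measure_lt_top.ne (measure_mono hsub)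
  rw [hv] at h1 h2
  refine ⟨h1.trans hle, fun h => ?_, vol_projBody_ellipsoid hn⟩
  obtain ⟨b, T, hb⟩ := h2 (hle.trans h.le)
  refine ⟨a + b, T, ?_⟩
  have : K = (fun x => a + x) '' K₀ := by
    rw [hK₀, image_image]; simp
  rw [this, hb, image_image]
  simp only [add_assoc]

end Vale.Agent.P237
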