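import Vale.Agent.P237.IBP

open MeasureTheory Metric Set
open scoped RealInnerProductSpace Pointwise ENNReal NNReal

namespace Vale.Agent.P237

variable {n : ℕ}

theorem mom_int {φ : ℝ → ℝ} (hφ : Continuous φ) (a : E n) :
    Integrable (fun θ : Sph n => φ ⟪a, (θ : E n)⟫) (sig n) :=
  integrable_sig (by fun_prop)

theorem mom_abs_le {a : E n} (ha : ‖a‖ = 1) (θ : Sph n) : |⟪a, (θ : E n)⟫| ≤ 1 :=
  (abs_real_inner_le_norm _ _).trans_eq (by rw [ha, norm_coe, mul_one])

theorem zon_add {φ ψ : ℝ → ℝ} (hφ : Continuous φ) (hψ : Continuous ψ) :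
    zon n (fun t => φ t + ψ t) = zon n φ + zon n ψ := by
  exact integral_add (mom_int hφ _) (mom_int hψ _)

theorem zon_sub {φ ψ : ℝ → ℝ} (hφ : Continuous φ) (hψ : Continuous ψ) :
    zon n (fun t => φ t - ψ t) = zon n φ - zon n ψ := by
  exact integral_sub (mom_int hφ _) (mom_int hψ _)

theorem zon_const_mul (c : ℝ) (φ : ℝ → ℝ) : zon n (fun t => c * φ t) = c * zon n φ := by
  exact integral_const_mul _ _

theorem zon_sum {ι : Type*} (s : Finset ι) {φ : ι → ℝ → ℝ} (hφ : ∀ i ∈ s, Continuous (φ i)) :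
    zon n (fun t => ∑ i ∈ s, φ i t) = ∑ i ∈ s, zon n (φ i) := by
  exact integral_finsetSum _ fun i hi => mom_int (hφ i hi) _

theorem zon_const (hn : 0 < n) (c : ℝ) : zon n (fun _ => c) = c := by
  have := sig_prob hn
  simp [zon]

theorem zon_mono (hn : 0 < n) {φ ψ : ℝ → ℝ} (hφ : Continuous φ) (hψ : Continuous ψ)
    (h : ∀ t, |t| ≤ 1 → φ t ≤ ψ t) : zon n φ ≤ zon n ψ := by
  exact integral_mono (mom_int hφ _) (mom_int hψ _) fun θ => h _ (mom_abs_le (norm_e0 hn) θ)

theorem zon_congr (hn : 0 < n) {φ ψ : ℝ → ℝ} (h : ∀ t, |t| ≤ 1 → φ t = ψ t) :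
    zon n φ = zon n ψ := by
  exact integral_congr_ae (ae_of_all _ fun θ => h _ (mom_abs_le (norm_e0 hn) θ))

theorem continuous_Qp (m : ℕ) : Continuous (Qp n m) := by
  unfold Qp
  fun_prop

theorem Qp_one (m : ℕ) : Qp n m 1 = 1 := by
  rw [Qp, Finset.sum_range_succ']
  simp

theorem Qp_neg (m : ℕ) (t : ℝ) : Qp n m (-t) = Qp n m t := by
  simp [Qp]

theorem Qp_zero_left (t : ℝ) : Qp n 0 t = 1 := by
  simp [Qp]

theorem Qp_one_left (hn : 2 ≤ n) (t : ℝ) :
    Qp n 1 t = ((n : ℝ) * t ^ 2 - 1) / ((n : ℝ) - 1) := by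
  have h : (n : ℝ) - 1 ≠ 0 := sub_ne_zero.2 (by exact_mod_cast (by omega : n ≠ 1))
  simp [Qp, Finset.sum_range_succ]
  field_simp
  ring

theorem mom_shift (m : ℕ) (x c : ℝ) (hc : 0 < c) :
    (∏ l ∈ Finset.range m, (x + 2 * l) / (c + 2 + 2 * l)) / c =
      (∏ l ∈ Finset.range m, (x + 2 * l) / (c + 2 * l)) / (c + 2 * m) := by
  induction m with
  | zero => simp
  | succ m ih =>
    rw [Finset.prod_range_succ, Finset.prod_range_succ, mul_div_right_comm, ih]
    push_cast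
    field_simp
    ring

/-- The Chu-Vandermonde identity. -/
theorem chu_vandermonde (m : ℕ) (b c : ℝ) (hc : 0 < c) :
    ∑ i ∈ Finset.range (m + 1), (-1) ^ i * (m.choose i : ℝ) *
      ∏ l ∈ Finset.range i, (b + 2 * l) / (c + 2 * l) =
      ∏ l ∈ Finset.range m, (c - b + 2 * l) / (c + 2 * l) := by
  induction m generalizing b c with
  | zero => simp
  | succ m ih =>
    have h := Finset.sum_choose_succ_mul (R := ℝ)
      (fun i _ => (-1) ^ i * ∏ l ∈ Finset.range i, (b + 2 * l) / (c + 2 * l)) m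
    have h1 := ih b c hc
    have h2 := ih (b + 2) (c + 2) (by linarith)
    have h3 := mom_shift m (c - b) c hc
    simp only [← mul_assoc] at h
    simp only [mul_comm ((-1 : ℝ) ^ _) (Nat.cast _)] at h1 h2 ⊢
    rw [h, h1, Finset.prod_range_succ]
    have h4 : ∑ i ∈ Finset.range (m + 1), (m.choose i : ℝ) * (-1) ^ (i + 1) *
        ∏ l ∈ Finset.range (i + 1), (b + 2 * l) / (c + 2 * l) = -b * ((∏ l ∈ Finset.range m,
          (c - b + 2 * l) / (c + 2 + 2 * l)) / c) := by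
      rw [add_sub_add_right_eq_sub] at h2
      rw [← h2, Finset.sum_div, Finset.mul_sum]
      refine Finset.sum_congr rfl fun i _ => ?_
      rw [Finset.prod_range_succ', Finset.prod_congr rfl
        (g := fun l : ℕ => (b + 2 + 2 * l) / (c + 2 + 2 * l)) fun l _ => by push_cast; ring_nf]
      push_cast
      ring
    rw [h4, h3]
    field_simp
    ring

theorem mom_deriv (p : ℕ) (t : ℝ) :
    HasDerivAt (fun t : ℝ => t * |t| ^ p) ((p + 1) * |t| ^ p) t := by
  rcases eq_or_ne t 0 with rfl | ht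
  · rw [hasDerivAt_iff_tendsto_slope_zero]
    have h : Filter.Tendsto (fun t : ℝ => |t| ^ p) (nhds 0) (nhds ((p + 1) * |(0 : ℝ)| ^ p)) :=
      Continuous.tendsto' (by fun_prop) _ _ (by cases p <;> simp)
    refine (h.mono_left nhdsWithin_le_nhds).congr' (eventually_nhdsWithin_of_forall fun t ht => ?_)
    have ht' : t ≠ 0 := ht
    simp [ht']
  · refine ((hasDerivAt_id t).fun_mul ((hasDerivAt_abs ht).fun_pow p)).congr_deriv ?_
    cases p with
    | zero => simp
    | succ p =>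
      rw [pow_succ |t| p, ← self_mul_sign t]
      simp only [id, Nat.add_sub_cancel]
      push_cast
      ring

theorem mom_rec (hn : 2 ≤ n) (p i : ℕ) :
    ((p : ℝ) + n + 2 * i) * zon n (fun t => |t| ^ p * (1 - t ^ 2) ^ (i + 1)) =
      ((n : ℝ) - 1 + 2 * i) * zon n (fun t => |t| ^ p * (1 - t ^ 2) ^ i) := by
  have h := stein (n := n) (by omega) (fun t => (mom_deriv p t).fun_mul
    (((hasDerivAt_pow 2 t).const_sub 1).fun_pow i)) (by fun_prop)
  rw [zon_congr (by omega) (ψ := fun t => (p + 1 + 2 * i) * (|t| ^ p * (1 - t ^ 2) ^ (i + 1)) -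
      2 * i * (|t| ^ p * (1 - t ^ 2) ^ i)) fun t _ => by
        cases i with
        | zero => simp; ring
        | succ i => simp only [Nat.add_sub_cancel]; push_cast; ring,
    zon_congr (φ := fun t => t * _) (by omega) (ψ := fun t => |t| ^ p * (1 - t ^ 2) ^ i -
      |t| ^ p * (1 - t ^ 2) ^ (i + 1)) fun t _ => by ring,
    zon_sub (by fun_prop) (by fun_prop), zon_sub (by fun_prop) (by fun_prop), zon_const_mul,
    zon_const_mul] at h
  linarith

theorem zon_abs_pow_mul (hn : 2 ≤ n) (p i : ℕ) :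
    zon n (fun t => |t| ^ p * (1 - t ^ 2) ^ i) = zon n (fun t => |t| ^ p) *
      ∏ l ∈ Finset.range i, ((n : ℝ) - 1 + 2 * l) / ((p : ℝ) + n + 2 * l) := by
  induction i with
  | zero => simp
  | succ i ih =>
    have h : (0 : ℝ) < (p : ℝ) + n + 2 * i := by positivity
    rw [Finset.prod_range_succ, ← mul_assoc, ← ih, mul_div_assoc', eq_div_iff h.ne', mul_comm,
      mom_rec hn, mul_comm]

theorem zon_abs_pow_succ (hn : 2 ≤ n) (p : ℕ) :
    zon n (fun t => |t| ^ (p + 2)) =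
      ((p : ℝ) + 1) / ((p : ℝ) + n) * zon n (fun t => |t| ^ p) := by
  have h : (0 : ℝ) < (p : ℝ) + n := by positivity
  rw [zon_congr (by omega) (ψ := fun t => |t| ^ p - |t| ^ p * (1 - t ^ 2) ^ 1) fun t _ => by
    rw [pow_add, sq_abs]; ring, zon_sub (by fun_prop) (by fun_prop), zon_abs_pow_mul hn]
  simp
  field_simp
  ring

theorem zon_abs_pow_pos (hn : 2 ≤ n) (p : ℕ) : 0 < zon n (fun t => |t| ^ p) := by
  induction p using Nat.twoStepInduction with
  | zero => simp [zon_const (by omega : 0 < n)]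
  | one => simpa [c0] using c0_pos (by omega : 0 < n)
  | more p h _ =>
    rw [zon_abs_pow_succ hn]
    positivity

theorem zon_pow_pos (hn : 2 ≤ n) (j : ℕ) : 0 < zon n (fun t => t ^ (2 * j)) := by
  simpa only [pow_mul, sq_abs] using zon_abs_pow_pos hn (2 * j)

theorem mom_reflect (m : ℕ) (x y c : ℝ) (h : y = x - 2 * m + 2) :
    ∏ l ∈ Finset.range m, (y + 2 * l) / (c + 2 * l) =
      ∏ l ∈ Finset.range m, (x - 2 * l) / (c + 2 * l) := by
  rw [Finset.prod_div_distrib, Finset.prod_div_distrib, ← Finset.prod_range_reflect]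
  congr 1
  refine Finset.prod_congr rfl fun l hl => ?_
  rw [Nat.sub_sub, Nat.cast_sub (by have := Finset.mem_range.1 hl; omega), h]
  push_cast
  ring

theorem zon_abs_pow_Qp (hn : 2 ≤ n) (p m : ℕ) :
    zon n (fun t => |t| ^ p * Qp n m t) = zon n (fun t => |t| ^ p) *
      ∏ l ∈ Finset.range m, ((p : ℝ) - 2 * l) / ((p : ℝ) + n + 2 * l) := by
  have h2 : (2 : ℝ) ≤ n := by exact_mod_cast hn
  rw [← mom_reflect m p (p + n - (2 * m + n - 2)) _ (by ring),
    ← chu_vandermonde _ _ _ (by positivity), Finset.mul_sum]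
  simp only [Qp, Finset.mul_sum, mul_left_comm (|_| ^ p)]
  rw [zon_sum _ fun _ _ => by fun_prop]
  refine Finset.sum_congr rfl fun i _ => ?_
  rw [zon_const_mul, zon_abs_pow_mul hn, mul_left_comm, mul_assoc, ← Finset.prod_mul_distrib]
  congr 2
  refine Finset.prod_congr rfl fun l _ => ?_
  rw [div_mul_div_cancel₀]
  linarith [Nat.cast_nonneg (α := ℝ) l]

theorem zon_pow_Qp (hn : 2 ≤ n) (j m : ℕ) :
    zon n (fun t => t ^ (2 * j) * Qp n m t) = zon n (fun t => t ^ (2 * j)) * rho n j m := by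
  simpa only [pow_mul, sq_abs, rho, Nat.cast_mul, Nat.cast_ofNat] using zon_abs_pow_Qp hn (2 * j) m

theorem Qp_at_zero (hn : 2 ≤ n) (m : ℕ) :
    Qp n m 0 = ∏ l ∈ Finset.range m, (-1 - 2 * (l : ℝ)) / ((n : ℝ) - 1 + 2 * l) := by
  have h2 : (2 : ℝ) ≤ n := by exact_mod_cast hn
  rw [← mom_reflect m (-1) (n - 1 - (2 * m + n - 2)) _ (by ring),
    ← chu_vandermonde _ _ _ (by linarith)]
  simp [Qp]

theorem mom_rho_zero {j m : ℕ} (h : j < m) : rho n j m = 0 :=
  Finset.prod_eq_zero (Finset.mem_range.2 h) (by simp)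

/-- Linear combinations of the first functions of a sequence. -/
def momSp (q : ℕ → ℝ → ℝ) (m : ℕ) : Submodule ℝ (ℝ → ℝ) where
  carrier := {f | ∃ lam : ℕ → ℝ, ∀ t, f t = ∑ l ∈ Finset.range (m + 1), lam l * q l t}
  add_mem' := by
    rintro f g ⟨a, ha⟩ ⟨b, hb⟩
    exact ⟨a + b, fun t => by simp [ha, hb, add_mul, Finset.sum_add_distrib]⟩
  zero_mem' := ⟨0, by simp⟩
  smul_mem' := by
    rintro c f ⟨a, ha⟩
    exact ⟨c • a, fun t => by simp [ha, mul_assoc, Finset.mul_sum]⟩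

theorem momSp_self (q : ℕ → ℝ → ℝ) {l m : ℕ} (h : l ≤ m) : q l ∈ momSp q m :=
  ⟨Pi.single l 1, fun t => by simp [Pi.single_apply, Nat.lt_succ_of_le h]⟩

theorem momSp_sum {ι : Type*} (S : Submodule ℝ (ℝ → ℝ)) (s : Finset ι) (c : ι → ℝ)
    (g : ι → ℝ → ℝ) (hg : ∀ i ∈ s, g i ∈ S) {f : ℝ → ℝ} (h : ∀ t, f t = ∑ i ∈ s, c i * g i t) :
    f ∈ S := by
  have h1 : f = ∑ i ∈ s, c i • g i := funext fun t => by simp [h]
  exact h1 ▸ S.sum_mem fun i hi => S.smul_mem _ (hg i hi)

theorem mom_Qp_mem (l : ℕ) : Qp n l ∈ momSp (fun k t => t ^ (2 * k)) l := by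
  refine momSp_sum _ _ _ (fun i t => (1 - t ^ 2) ^ i) (fun i hi => ?_) fun t => rfl
  refine momSp_sum _ (Finset.range (i + 1)) (fun k => (-1) ^ k * (i.choose k : ℝ)) _
    (fun k hk => momSp_self _ (l := k) (by simp at hi hk; omega)) fun t => ?_
  rw [sub_eq_neg_add, add_pow]
  refine Finset.sum_congr rfl fun k _ => ?_
  rw [neg_pow, pow_mul]
  ring

theorem mom_u_mem (hn : 2 ≤ n) {m i : ℕ} (hi : i ≤ m) :
    (fun t => (1 - t ^ 2) ^ i) ∈ momSp (Qp n) m := by
  have h2 : (2 : ℝ) ≤ n := by exact_mod_cast hn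
  induction i using Nat.strong_induction_on with
  | _ i ih =>
    have hc : (-1) ^ i * (i.choose i : ℝ) * ∏ l ∈ Finset.range i,
        (2 * (i : ℝ) + n - 2 + 2 * l) / ((n : ℝ) - 1 + 2 * l) ≠ 0 := by
      refine mul_ne_zero (by simp) (Finset.prod_ne_zero_iff.2 fun l hl => ne_of_gt ?_)
      have h3 : (l : ℝ) < i := by exact_mod_cast Finset.mem_range.1 hl
      have h4 := Nat.cast_nonneg (α := ℝ) l
      exact div_pos (by linarith) (by linarith)
    rw [← Submodule.smul_mem_iff _ hc, ← Submodule.add_mem_iff_right _ (momSp_sum _ (Finset.range i)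
      (fun k => (-1) ^ k * (i.choose k : ℝ) * ∏ l ∈ Finset.range k,
        (2 * (i : ℝ) + n - 2 + 2 * l) / ((n : ℝ) - 1 + 2 * l)) _
      (fun k hk => ih k (Finset.mem_range.1 hk) ((Finset.mem_range.1 hk).le.trans hi))
      fun _ => rfl)]
    refine (congrArg (· ∈ momSp (Qp n) m) (funext fun t => ?_)).mp (momSp_self _ hi)
    exact Finset.sum_range_succ _ _

theorem mom_mem (hn : 2 ≤ n) {m k i : ℕ} (h : k + i ≤ m) :
    (fun t => t ^ (2 * k) * (1 - t ^ 2) ^ i) ∈ momSp (Qp n) m := by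
  refine momSp_sum _ (Finset.range (k + 1)) (fun j => (-1) ^ j * (k.choose j : ℝ)) _
    (fun j hj => mom_u_mem hn (i := j + i) (by simp at hj; omega)) fun t => ?_
  rw [pow_mul, show t ^ 2 = -(1 - t ^ 2) + 1 by ring, add_pow, Finset.sum_mul]
  refine Finset.sum_congr rfl fun j _ => ?_
  rw [neg_pow]
  ring

theorem mom_orth (hn : 2 ≤ n) {m l : ℕ} (h : l < m) :
    zon n (fun t => Qp n l t * Qp n m t) = 0 := by
  obtain ⟨c, hc⟩ := mom_Qp_mem (n := n) l
  have := continuous_Qp (n := n) m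
  simp only [hc, Finset.sum_mul, mul_assoc]
  rw [zon_sum _ fun _ _ => by fun_prop]
  refine Finset.sum_eq_zero fun k hk => ?_
  rw [zon_const_mul, zon_pow_Qp hn, mom_rho_zero (by simp at hk; omega), mul_zero, mul_zero]

theorem mom_coef (hn : 2 ≤ n) {D m : ℕ} (hm : m ≤ D) {f : ℝ → ℝ} {lam : ℕ → ℝ}
    (h : ∀ t, f t = ∑ l ∈ Finset.range (D + 1), lam l * Qp n l t) :
    zon n (fun t => f t * Qp n m t) = lam m * zon n (fun t => Qp n m t ^ 2) := by
  have := continuous_Qp (n := n)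
  simp only [h, Finset.sum_mul, mul_assoc, sq]
  rw [zon_sum _ fun _ _ => by fun_prop,
    Finset.sum_eq_single_of_mem m (Finset.mem_range.2 (by omega)) fun l _ hl => ?_, zon_const_mul]
  rw [zon_const_mul]
  rcases lt_or_gt_of_ne hl with h1 | h1
  · rw [mom_orth hn h1, mul_zero]
  · simp only [mul_comm (Qp n l _), mom_orth hn h1, mul_zero]

theorem zon_Qp_sq_pos (hn : 2 ≤ n) (m : ℕ) : 0 < zon n (fun t => Qp n m t ^ 2) := by
  obtain ⟨lam, h⟩ := mom_mem hn (m := m) (k := m) (i := 0) le_rfl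
  have h1 := mom_coef hn le_rfl h
  simp only [pow_zero, mul_one, zon_pow_Qp hn] at h1
  refine lt_of_le_of_ne (integral_nonneg fun _ => sq_nonneg _) fun h2 => ?_
  rw [← h2, mul_zero] at h1
  refine (mul_pos (zon_pow_pos hn m) (Finset.prod_pos fun l hl => ?_)).ne' h1
  have h3 : (l : ℝ) < m := by exact_mod_cast Finset.mem_range.1 hl
  exact div_pos (by linarith) (by positivity)

theorem zon_Qp_mul (hn : 2 ≤ n) {m l : ℕ} (h : m ≠ l) :
    zon n (fun t => Qp n m t * Qp n l t) = 0 := by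
  rcases lt_or_gt_of_ne h with h1 | h1
  · exact mom_orth hn h1
  · simp only [mul_comm (Qp n m _), mom_orth hn h1]

/-- Expansion of an even polynomial in the polynomials `Qp`. -/
theorem expand_Qp (hn : 2 ≤ n) (m : ℕ) (c : ℕ → ℕ → ℝ) :
    ∃ lam : ℕ → ℝ, ∀ t : ℝ,
      ∑ i ∈ Finset.range (m + 1), ∑ k ∈ Finset.range (m + 1 - i), c i k * t ^ (2 * k) * (1 - t ^ 2) ^ i =
        ∑ l ∈ Finset.range (m + 1), lam l * Qp n l t := by
  refine momSp_sum (momSp (Qp n) m) (Finset.range (m + 1)) (fun _ => 1) _ (fun i hi =>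
    momSp_sum _ (Finset.range (m + 1 - i)) (c i) _ (fun k hk => mom_mem hn (k := k) (i := i)
      (by simp at hi hk; omega)) fun _ => rfl) fun t => ?_
  simp only [one_mul, mul_assoc]

theorem pow_expand (hn : 2 ≤ n) {j D : ℕ} (hj : j ≤ D) (t : ℝ) :
    t ^ (2 * j) = ∑ m ∈ Finset.range (D + 1),
      zon n (fun s => s ^ (2 * j) * Qp n m s) * (zon n fun s => Qp n m s ^ 2)⁻¹ * Qp n m t := by
  obtain ⟨lam, h⟩ := mom_mem hn (m := D) (k := j) (i := 0) hj
  simp only [pow_zero, mul_one] at h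
  refine (h t).trans (Finset.sum_congr rfl fun m hm => ?_)
  rw [mom_coef hn (Nat.lt_succ_iff.1 (Finset.mem_range.1 hm)) h,
    mul_inv_cancel_right₀ (zon_Qp_sq_pos hn m).ne']

/-- Lower bound for the ratio of consecutive absolute moments. -/
theorem tau_one_le (hn : 2 ≤ n) (j : ℕ) {τ : ℝ}
    (h : τ ^ 2 * (2 * (j : ℝ) + n - 1) ≤ 2 * j) :
    τ * zon n (fun t => t ^ (2 * j)) ≤ zon n (fun t => |t| ^ (2 * j + 1)) := by
  have h2 : (2 : ℝ) ≤ n := by exact_mod_cast hn
  cases j with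
  | zero =>
    obtain rfl : τ = 0 := by
      simp at h
      nlinarith [sq_nonneg τ]
    simpa using (zon_abs_pow_pos hn 1).le
  | succ j =>
    have h1 := zon_abs_pow_succ hn (2 * j + 1)
    have h3 := zon_abs_pow_pos hn (2 * j + 1)
    have h4 := zon_abs_pow_pos hn (2 * j + 1 + 2)
    have h5 := discrim_le_zero (a := zon n fun t => |t| ^ (2 * j + 1))
      (b := 2 * zon n fun t => t ^ (2 * (j + 1))) (c := zon n fun t => |t| ^ (2 * j + 1 + 2))
      fun s => by
        rw [mul_comm _ (s * s), mul_right_comm 2, ← zon_const_mul, ← zon_const_mul,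
          ← zon_add (by fun_prop) (by fun_prop), ← zon_add (by fun_prop) (by fun_prop)]
        refine integral_nonneg fun θ => ?_
        generalize ⟪e0 n, (θ : E n)⟫ = t
        simp only [Pi.zero_apply, ← (even_two_mul (j + 1)).pow_abs t]
        have h5 : 0 ≤ |t| ^ (2 * j + 1) * (s + |t|) ^ 2 := by positivity
        exact h5.trans_eq (by ring)
    rw [discrim] at h5
    rw [div_mul_eq_mul_div, eq_div_iff (by positivity)] at h1
    push_cast at h h1
    refine (abs_le_of_sq_le_sq' ?_ h4.le).2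
    refine le_of_mul_le_mul_right ?_ (by positivity : (0 : ℝ) < 2 * j + 1 + n)
    have h6 := mul_le_mul_of_nonneg_left h (sq_nonneg (zon n fun t => t ^ (2 * (j + 1))))
    have h7 := mul_le_mul_of_nonneg_left h5 (by positivity : (0 : ℝ) ≤ 2 * (j + 1))
    have h8 := congrArg (· * zon n fun t => |t| ^ (2 * j + 1 + 2)) h1
    nlinarith

theorem abs_gamS_le (hn : 2 ≤ n) {d : ℕ} (hd : 1 ≤ d) (m : ℕ) : |gamS n d m| ≤ gam n d m := by
  have h2 : (2 : ℝ) ≤ n := by exact_mod_cast hn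
  have h3 : (1 : ℝ) ≤ d := by exact_mod_cast hd
  rw [gamS, gam, abs_div, abs_of_nonneg (sq_nonneg (d : ℝ))]
  refine div_le_div_of_nonneg_right ((abs_sub _ _).trans_eq ?_) (sq_nonneg _)
  rw [abs_mul, abs_mul _ (Finset.prod _ _), abs_of_nonneg (sq_nonneg _),
    abs_of_nonneg (a := ((n : ℝ) + 2 * d - 1) * _) (mul_nonneg (by linarith) (by linarith)),
    Finset.abs_prod, Finset.abs_prod]
  congr 2 <;> refine Finset.prod_congr rfl fun l _ => ?_
  · rw [abs_div, abs_of_pos (a := (n : ℝ) + 1 + 2 * l) (by positivity)]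
  · have h4 := Nat.cast_nonneg (α := ℝ) l
    rw [abs_div, abs_of_nonpos (by linarith), abs_of_pos (by linarith)]
    ring

theorem gamS_zero {d : ℕ} (hd : 1 ≤ d) : gamS n d 0 = 1 := by
  have h : (d : ℝ) ≠ 0 := by positivity
  simp only [gamS, Finset.range_zero, Finset.prod_empty]
  field_simp
  ring

theorem gam_nonneg (hn : 2 ≤ n) {d : ℕ} (hd : 1 ≤ d) (m : ℕ) : 0 ≤ gam n d m := by
  exact (abs_nonneg _).trans (abs_gamS_le hn hd m)

theorem gam_anti (hn : 2 ≤ n) {d : ℕ} (hd : 1 ≤ d) : Antitone (gam n d) := by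
  have h2 : (2 : ℝ) ≤ n := by exact_mod_cast hn
  have h3 : (1 : ℝ) ≤ d := by exact_mod_cast hd
  refine antitone_nat_of_succ_le fun m => div_le_div_of_nonneg_right (add_le_add
    (mul_le_mul_of_nonneg_left ?_ (sq_nonneg _))
    (mul_le_mul_of_nonneg_left ?_ (mul_nonneg (by linarith) (by linarith)))) (sq_nonneg _)
  all_goals
    have h4 := Nat.cast_nonneg (α := ℝ) m
    rw [Finset.prod_range_succ]
  · refine mul_le_of_le_one_right (by positivity) ((div_le_one (by positivity)).2 ?_)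
    rw [abs_le]
    constructor <;> linarith
  · refine mul_le_of_le_one_right (Finset.prod_nonneg fun l _ => ?_)
      ((div_le_one (by linarith)).2 (by linarith))
    exact div_nonneg (by positivity) (by linarith [Nat.cast_nonneg (α := ℝ) l])

theorem rho_nonneg (hn : 2 ≤ n) (j m : ℕ) : 0 ≤ rho n j m := by
  have _ := hn
  rcases lt_or_ge j m with h | h
  · exact (mom_rho_zero h).ge
  · refine Finset.prod_nonneg fun l hl => div_nonneg ?_ (by positivity)
    have h3 : (l : ℝ) ≤ j := by exact_mod_cast (Finset.mem_range.1 hl).le.trans h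
    linarith

theorem rho_anti (hn : 2 ≤ n) (j : ℕ) : Antitone (rho n j) := by
  refine antitone_nat_of_succ_le fun m => ?_
  rw [rho, Finset.prod_range_succ]
  refine mul_le_of_le_one_right (rho_nonneg hn j m) ((div_le_one (by positivity)).2 ?_)
  linarith [Nat.cast_nonneg (α := ℝ) m, Nat.cast_nonneg (α := ℝ) n]

theorem rho_eq_zero {j m : ℕ} (h : j < m) : rho n j m = 0 := by
  exact mom_rho_zero h

end Vale.Agent.P237
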