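import Vale.Agent.P237.OneNormA

open MeasureTheory Metric Set Filter Topology
open scoped RealInnerProductSpace Pointwise ENNReal NNReal

namespace Vale.Agent.P237

variable {n : ℕ}

theorem on_bet_mono (hn : 2 ≤ n) (j : ℕ) {τ : ℝ} (hτ : τ < 1) {m l : ℕ} (h : m ≤ l) :
    bet n j τ m ≤ bet n j τ l :=
  div_le_div_of_nonneg_right (by linarith [rho_anti hn j h]) (by linarith)

theorem on_bet_le (hn : 2 ≤ n) (j : ℕ) {τ : ℝ} (hτ : τ < 1) (m : ℕ) :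
    bet n j τ m ≤ τ / (1 - τ) :=
  div_le_div_of_nonneg_right (by linarith [rho_nonneg hn j m]) (by linarith)

theorem on_yf_cont {f : E n → ℝ} (hf : Continuous f) (j : ℕ) (τ : ℝ) : Continuous (yf j τ f) := by
  have := continuous_Aop hf j
  unfold yf
  fun_prop

theorem on_yf_le {f : E n → ℝ} {j : ℕ} {τ : ℝ} (hτ : τ < 1) {a : E n}
    (h : τ * f a ≤ Aop j f a) : yf j τ f a ≤ 1 := by
  unfold yf
  rw [div_le_one (by linarith)]
  linarith

theorem on_Wsum_le (hn : 2 ≤ n) {d : ℕ} (hd : 1 ≤ d) {f : E n → ℝ} {a : ℕ → ℝ} {D D' : ℕ}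
    (hD : D ≤ D') (ha : ∀ m, 0 ≤ a m) (h : ∀ m, m ≤ D' → a m = ip (comp m f) (comp m f)) :
    Wsum d D f ≤ ∑ m ∈ Finset.Icc 2 (D' + 1), gam n d m * a m := by
  have e : Wsum d D f = ∑ m ∈ Finset.Icc 2 D, gam n d m * a m :=
    Finset.sum_congr rfl fun m hm => by rw [h m ((Finset.mem_Icc.1 hm).2.trans hD)]
  rw [e]
  exact Finset.sum_le_sum_of_subset_of_nonneg (Finset.Icc_subset_Icc le_rfl (by omega))
    fun m _ _ => mul_nonneg (gam_nonneg hn hd m) (ha m)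

theorem on_var_pos (hn : 2 ≤ n) {f : E n → ℝ} (hf : Continuous f) (h1 : av f = 1) :
    0 ≤ ip f f - 1 ∧ ((∃ a b : Sph n, f a ≠ f b) → 0 < ip f f - 1) := by
  obtain ⟨a, ha, -, hV, -⟩ := spectral_data hn hf h1 0
  have h0 : 0 ≤ ip f f - 1 := hV ▸ Finset.sum_nonneg fun m _ => ha m
  refine ⟨h0, fun ⟨x, y, hxy⟩ => h0.lt_of_ne fun h => hxy ?_⟩
  exact const_of_var hf (by omega) (by rw [h1]; linarith) x y

/-- A numerical certificate for `d = 1`. -/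
structure Cert1 (n j j' : ℕ) (τ τ' s c Q η m0 : ℝ) : Prop where
  hτ : τ ^ 2 * (2 * (j : ℝ) + n - 1) ≤ 2 * j
  hτ' : τ' ^ 2 * (2 * (j' : ℝ) + n - 1) ≤ 2 * j'
  hτ1 : τ < 1
  hτ1' : τ' < 1
  hs0 : 0 < s
  hs1 : s ≤ 1
  hc : 1 / ((n : ℝ) + 1) / 2 ≤ c
  hs : (1 - (n : ℝ) / (n + 1) * s - (n : ℝ) / (n + 1) * c * s ^ 2) ^ (n + 1) ≤ (1 - s) ^ n
  hm0 : 0 < m0
  hη : 0 ≤ η
  hQ0 : 0 ≤ Q
  hQ2 : Q ≤ 2
  hQη : 1 / 4 + η * Q + η ^ 2 * Q ^ 2 ≤ 2 * η
  hR : Q / 2 + η * Q ^ 2 < 1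
  hβ' : 0 ≤ bet n j' τ' 1
  hQ : gam n 1 2 ≤ Q * bet n j' τ' 2
  h1 : m0 ≤ s * bet n j τ 1 - c * (s * bet n j τ 1) ^ 2
  h2 : ∀ m ∈ ({2, 3, 4} : Finset ℕ),
    m0 + gam n 1 m / 2 ≤ s * bet n j τ m - c * (s * bet n j τ m) ^ 2
  h3 : ∀ m ∈ ({2, 3, 4} : Finset ℕ), m0 + gam n 1 m * (1 / 2 + Q * η) ≤
    s * bet n j τ m - c * (1 - Q / 2) * (s * bet n j τ m) ^ 2
  h2' : m0 + gam n 1 4 / 2 ≤ s * (τ / (1 - τ)) - c * (s * (τ / (1 - τ))) ^ 2
  h3' : m0 + gam n 1 4 * (1 / 2 + Q * η) ≤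
    s * (τ / (1 - τ)) - c * (1 - Q / 2) * (s * (τ / (1 - τ))) ^ 2

theorem oneNorm_of_cert1 (hn : 2 ≤ n) {j j' : ℕ} {τ τ' s c Q η m0 : ℝ}
    (h : Cert1 n j j' τ τ' s c Q η m0) : OneNorm n 1 := by
  refine oneNorm_of_normalised hn le_rfl fun N hN h1 => ?_
  have hn0 : 0 < n := by omega
  have hnr : (0 : ℝ) < n := by exact_mod_cast hn0
  have hc := hN.toIsGauge.continuous
  simp only [pow_one] at h1 ⊢
  have h1' : av N = 1 := h1
  have hprob := sig_prob hn0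
  obtain ⟨hV0, hV1⟩ := on_var_pos hn hc h1'
  refine ⟨(m0 * (ip N N - 1)) ^ 2, sq_nonneg _, fun hab => ?_, fun D => ?_⟩
  · have := hV1 hab
    have := h.hm0
    positivity
  obtain ⟨a, ha, haD, hV, hsp⟩ := spectral_data hn hc h1' (max D (max j j'))
  obtain ⟨y0, y1, y2, -⟩ := hsp j τ (by omega) h.hτ1
  obtain ⟨-, z1, -, -⟩ := hsp j' τ' (by omega) h.hτ1'
  have hc0 : 0 ≤ c := le_trans (by positivity) h.hc
  have hs : 1 - (n : ℝ) / (n + 1) * s - (n : ℝ) / (n + 1) * c * s ^ 2 ≤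
      (1 - s) ^ ((n : ℝ) / (n + 1)) := by
    have h1s : 0 ≤ 1 - s := by linarith [h.hs1]
    refine le_of_pow_le_pow_left₀ (n := n + 1) (by omega) (Real.rpow_nonneg h1s _) ?_
    rw [← Real.rpow_natCast ((1 - s) ^ _), ← Real.rpow_mul h1s]
    push_cast
    rw [div_mul_cancel₀ _ (by positivity), Real.rpow_natCast]
    exact h.hs
  obtain ⟨r1, r2, -⟩ := rev_holder hn0 hc (on_yf_cont hc j τ) (on_pos hN)
    (fun θ => on_yf_le h.hτ1 (jensen_one hn hN j h.hτ (norm_coe θ))) y0 h1' hnr h.hs0 h.hs1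
    h.hc hs
  have hv : (∫ θ : Sph n, N (θ : E n) ^ (-(n : ℝ)) ∂sig n) ^ (-(1 / (n : ℝ))) = tau 1 N := by
    unfold tau hm
    simp only [Nat.sub_self, pow_zero, integral_const, probReal_univ, smul_eq_mul, one_mul]
    congr 2
    funext θ
    rw [Real.rpow_neg (on_pos hN θ).le, Real.rpow_natCast, inv_pow]
  have hv0 : 0 ≤ tau 1 N := by
    rw [← hv]
    exact Real.rpow_nonneg (integral_nonneg fun θ => Real.rpow_nonneg (on_pos hN θ).le _) _
  rw [hv, y1, y2] at r1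
  rw [y1] at r2
  have hap : ip (yf j' τ' N) N ≤ 1 := by
    rw [← h1']
    have := on_yf_cont hc j' τ'
    refine integral_mono (integrable_sig (by fun_prop)) (integrable_sig (by fun_prop)) fun θ => ?_
    have := mul_le_mul_of_nonneg_right
      (on_yf_le h.hτ1' (jensen_one hn hN j' h.hτ' (norm_coe θ))) (on_pos hN θ).le
    simpa using this
  rw [z1] at hap
  have e1 : ∀ M, s * ∑ m ∈ Finset.Icc 1 M, bet n j τ m * a m =
      ∑ m ∈ Finset.Icc 1 M, s * bet n j τ m * a m := fun M => by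
    rw [Finset.mul_sum]
    exact Finset.sum_congr rfl fun m _ => by ring
  have e2 : ∀ M, s ^ 2 * ∑ m ∈ Finset.Icc 1 M, bet n j τ m ^ 2 * a m =
      ∑ m ∈ Finset.Icc 1 M, (s * bet n j τ m) ^ 2 * a m := fun M => by
    rw [Finset.mul_sum]
    exact Finset.sum_congr rfl fun m _ => by ring
  rw [e1, e2] at r1
  rw [e1] at r2
  have hQη : 0 ≤ 1 / 2 + Q * η := by
    have := mul_nonneg h.hQ0 h.hη
    linarith
  have hhigh : ∀ {c' t : ℝ} {m : ℕ}, 0 ≤ c' → 4 ≤ m →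
      t ≤ s * bet n j τ 4 - c' * (s * bet n j τ 4) ^ 2 →
      t ≤ s * (τ / (1 - τ)) - c' * (s * (τ / (1 - τ))) ^ 2 →
      t ≤ s * bet n j τ m - c' * (s * bet n j τ m) ^ 2 := by
    intro c' t m hc' hm k1 k2
    have := quad_between (p := 1) (q := c') (t := t) (lo := s * bet n j τ 4)
      (hi := s * (τ / (1 - τ))) (b := s * bet n j τ m) hc' (by linarith) (by linarith)
      (mul_le_mul_of_nonneg_left (on_bet_mono hn j h.hτ1 hm) h.hs0.le)
      (mul_le_mul_of_nonneg_left (on_bet_le hn j h.hτ1 m) h.hs0.le)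
    linarith
  have key := scalar_one (γ := gam n 1) ha (gam_nonneg hn le_rfl) hc0 h.hm0 h.hη h.hQ0 h.hQη
    h.hR hv0 r1 r2 hap h.hβ'
    (fun m hm => (gam_anti hn le_rfl hm).trans (h.hQ.trans
      (mul_le_mul_of_nonneg_left (on_bet_mono hn j' h.hτ1' hm) h.hQ0)))
    h.h1
    (fun m hm => by
      by_cases h4 : m ≤ 4
      · exact h.h2 m (by simp only [Finset.mem_insert, Finset.mem_singleton]; omega)
      · have := gam_anti hn (d := 1) le_rfl (show 4 ≤ m by omega)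
        have := hhigh hc0 (show 4 ≤ m by omega) (h.h2 4 (by simp)) h.h2'
        linarith)
    (fun m hm => by
      by_cases h4 : m ≤ 4
      · exact h.h3 m (by simp only [Finset.mem_insert, Finset.mem_singleton]; omega)
      · have := mul_le_mul_of_nonneg_right
          (gam_anti hn (d := 1) le_rfl (show 4 ≤ m by omega)) hQη
        have := hhigh (mul_nonneg hc0 (show 0 ≤ 1 - Q / 2 by linarith [h.hQ2]))
          (show 4 ≤ m by omega) (h.h3 4 (by simp)) h.h3'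
        linarith)
  rw [hV] at key
  have := on_Wsum_le hn (d := 1) le_rfl (le_max_left D (max j j')) ha haD
  linarith

/-- The Jensen constant for `d = 2`. -/
noncomputable def t2 (n j : ℕ) : ℝ := (2 * (j : ℝ) + 1) / (2 * (j : ℝ) + n)

theorem on_t2_lt (hn : 2 ≤ n) (j : ℕ) : t2 n j < 1 := by
  have : (2 : ℝ) ≤ n := by exact_mod_cast hn
  unfold t2
  rw [div_lt_one (by positivity)]
  linarith

theorem on_t2_div (hn : 2 ≤ n) (j : ℕ) :
    t2 n j / (1 - t2 n j) = (2 * (j : ℝ) + 1) / ((n : ℝ) - 1) := by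
  have h2 : (2 : ℝ) ≤ n := by exact_mod_cast hn
  have h3 : (n : ℝ) - 1 ≠ 0 := by linarith
  have h4 : 1 - t2 n j = ((n : ℝ) - 1) / (2 * (j : ℝ) + n) := by
    unfold t2
    field_simp
    ring
  rw [h4]
  unfold t2
  field_simp

theorem on_bet_t2 (hn : 2 ≤ n) (j : ℕ) {m : ℕ} (hm : 1 ≤ m) : 0 ≤ bet n j (t2 n j) m := by
  refine le_trans ?_ (on_bet_mono hn j (on_t2_lt hn j) hm)
  have h2 : (2 : ℝ) ≤ n := by exact_mod_cast hn
  refine div_nonneg ?_ (by linarith [on_t2_lt hn j])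
  unfold t2 rho
  simp only [Finset.prod_range_one, Nat.cast_zero, mul_zero, sub_zero, add_zero]
  rw [← sub_div]
  exact div_nonneg (by linarith) (by positivity)

/-- A numerical certificate for `d = 2`. -/
structure Cert2 (n j j' j'' : ℕ) (τ' Q m0 : ℝ) : Prop where
  hτ' : τ' ^ 2 * (2 * (j' : ℝ) + n - 1) ≤ 2 * j'
  hτ1' : τ' < 1
  hm0 : 0 < m0
  hQ0 : 0 ≤ Q
  hQ1 : Q ≤ 1
  hβ' : 0 ≤ bet n j' ((4 * τ' - 1) / 3) 1
  hQ : gam n 2 2 ≤ Q * bet n j' ((4 * τ' - 1) / 3) 2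
  hj'' : 2 * (j'' : ℝ) + 1 ≤ 3 * ((n : ℝ) - 1)
  h1 : m0 ≤ bet n j (t2 n j) 1 - 2 / (n : ℝ) * bet n j (t2 n j) 1 ^ 2
  h2 : m0 + gam n 2 2 ≤ bet n j (t2 n j) 2 - 2 / (n : ℝ) * bet n j (t2 n j) 2 ^ 2 +
    (1 - Q) * (bet n j'' (t2 n j'') 2 / 4 - bet n j'' (t2 n j'') 2 ^ 2 / 12)
  h3 : m0 + gam n 2 3 ≤ bet n j (t2 n j) 3 - 2 / (n : ℝ) * bet n j (t2 n j) 3 ^ 2
  h4 : m0 + gam n 2 3 ≤ (2 * (j : ℝ) + 1) / ((n : ℝ) - 1) -
    2 / (n : ℝ) * ((2 * (j : ℝ) + 1) / ((n : ℝ) - 1)) ^ 2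

theorem oneNorm_of_cert2 (hn : 2 ≤ n) {j j' j'' : ℕ} {τ' Q m0 : ℝ}
    (h : Cert2 n j j' j'' τ' Q m0) : OneNorm n 2 := by
  refine oneNorm_of_normalised hn (by norm_num) fun N hN h1 => ?_
  have hn0 : 0 < n := by omega
  have hnr : (0 : ℝ) < n := by exact_mod_cast hn0
  have hc := hN.toIsGauge.continuous
  have hf : Continuous fun x => N x ^ 2 := by fun_prop
  have hprob := sig_prob hn0
  obtain ⟨hV0, hV1⟩ := on_var_pos hn hf h1
  refine ⟨if 1 - hm N ^ 2 ≤ Q then m0 * (ip (fun x => N x ^ 2) (fun x => N x ^ 2) - 1)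
    else 1 - hm N ^ 2 - Q, ?_, fun hab => ?_, fun D => ?_⟩
  · split_ifs with hU
    · exact mul_nonneg h.hm0.le hV0
    · linarith
  · split_ifs with hU
    · obtain ⟨x, y, hxy⟩ := hab
      exact mul_pos h.hm0 (hV1 ⟨x, y, fun k => hxy
        ((pow_left_inj₀ (on_pos hN x).le (on_pos hN y).le two_ne_zero).1 k)⟩)
    · linarith
  have hτ2 : (4 * τ' - 1) / 3 < 1 := by linarith [h.hτ1']
  obtain ⟨a, ha, haD, hV, hsp⟩ := spectral_data hn hf h1 (max D (max j (max j' j'')))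
  obtain ⟨y0, y1, y2, -⟩ := hsp j _ (by omega) (on_t2_lt hn j)
  obtain ⟨-, z1, -, z2⟩ := hsp j' _ (by omega) hτ2
  obtain ⟨w0, w1, w2, -⟩ := hsp j'' _ (by omega) (on_t2_lt hn j'')
  have hs : 1 - (n : ℝ) / 2 / (n / 2 + 1) * 1 - (n : ℝ) / 2 / (n / 2 + 1) * (2 / n) * 1 ^ 2 ≤
      (1 - 1) ^ ((n : ℝ) / 2 / (n / 2 + 1)) := by
    refine le_trans (le_of_eq ?_) (Real.rpow_nonneg (by norm_num) _)
    field_simp
    ring
  have hcc : 1 / ((n : ℝ) / 2 + 1) / 2 ≤ 2 / n := by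
    rw [div_div, div_le_div_iff₀ (by positivity) hnr]
    linarith
  obtain ⟨r1, -, r3⟩ := rev_holder hn0 hf (on_yf_cont hf j (t2 n j))
    (fun θ => pow_pos (on_pos hN θ) 2)
    (fun θ => on_yf_le (on_t2_lt hn j) (jensen_two hn hN j (norm_coe θ))) y0 h1
    (q := (n : ℝ) / 2) (by positivity) one_pos le_rfl hcc hs
  have hv : (∫ θ : Sph n, (N (θ : E n) ^ 2) ^ (-((n : ℝ) / 2)) ∂sig n) ^ (-(1 / ((n : ℝ) / 2))) =
      hm N ^ 2 := by
    unfold hm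
    rw [← Real.rpow_natCast _ 2, ← Real.rpow_mul (hN.toIsGauge.int_inv_pos hn0).le]
    congr 1
    · congr 1
      funext θ
      rw [← Real.rpow_natCast _ 2, ← Real.rpow_mul (on_pos hN θ).le, inv_pow,
        ← Real.rpow_natCast, ← Real.rpow_neg (on_pos hN θ).le]
      congr 1
      push_cast
      ring
    · push_cast
      field_simp
  rw [hv] at r1 r3
  rw [y1, y2, one_pow, one_mul, one_mul] at r1
  obtain ⟨q1, q2⟩ := mean_sq_le hn0 hc (on_yf_cont hf j'' (t2 n j''))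
    (fun θ => on_yf_le (on_t2_lt hn j'') (jensen_two hn hN j'' (norm_coe θ))) w0 h1
    (s := 1 / 4) (by norm_num) (by norm_num)
  rw [w1, w2] at q1
  have hap : ∑ m ∈ Finset.Icc 1 (max D (max j (max j' j'')) + 1),
      bet n j' ((4 * τ' - 1) / 3) m * a m ≤ 1 := by
    rw [← z1, z2, div_le_one (by linarith)]
    linarith [apriori_two hn hN j' h.hτ']
  have hb : ∀ m, 1 ≤ m → 0 ≤ bet n j'' (t2 n j'') m ∧ bet n j'' (t2 n j'') m ≤ 3 := by
    intro m hm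
    refine ⟨on_bet_t2 hn j'' hm, (on_bet_le hn j'' (on_t2_lt hn j'') m).trans ?_⟩
    have h2 : (2 : ℝ) ≤ n := by exact_mod_cast hn
    rw [on_t2_div hn, div_le_iff₀ (by linarith)]
    exact h.hj''
  have key := scalar_two (γ := gam n 2) ha (show 0 ≤ 2 / (n : ℝ) by positivity) (by norm_num)
    (by norm_num) h.hQ0 h.hQ1 (sq_nonneg _) r3 q2 r1 q1 hap h.hβ'
    (fun m hm => (gam_anti hn (by norm_num) hm).trans (h.hQ.trans
      (mul_le_mul_of_nonneg_left (on_bet_mono hn j' hτ2 hm) h.hQ0)))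
    (gam_nonneg hn (by norm_num))
    (fun m hm => ⟨(hb m hm).1, by linarith [(hb m hm).2]⟩) h.h1
    (fun m hm => by
      have e : ∀ b : ℝ, 1 / 4 * b - (1 / 4) ^ 2 / (1 - 1 / 4) * b ^ 2 = b / 4 - b ^ 2 / 12 :=
        fun b => by ring
      rw [e]
      rcases hm.eq_or_lt with rfl | h3
      · exact h.h2
      · have k1 := gam_anti hn (d := 2) (by norm_num) (show 3 ≤ m from h3)
        have k2 := quad_between (p := 1) (q := 2 / (n : ℝ)) (t := m0 + gam n 2 3)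
          (lo := bet n j (t2 n j) 3) (hi := (2 * (j : ℝ) + 1) / ((n : ℝ) - 1))
          (b := bet n j (t2 n j) m) (by positivity) (by linarith [h.h3]) (by linarith [h.h4])
          (on_bet_mono hn j (on_t2_lt hn j) h3)
          (on_t2_div hn j ▸ on_bet_le hn j (on_t2_lt hn j) m)
        obtain ⟨k3, k4⟩ := hb m (by omega)
        have k5 : 0 ≤ bet n j'' (t2 n j'') m / 4 - bet n j'' (t2 n j'') m ^ 2 / 12 := by
          nlinarith
        have k6 := mul_nonneg (sub_nonneg.2 h.hQ1) k5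
        linarith)
  rw [hV] at key
  have k7 := on_Wsum_le hn (d := 2) (by norm_num) (le_max_left D (max j (max j' j''))) ha haD
  have k8 : tau 2 N ^ 2 = av N ^ 2 * hm N ^ 2 := by
    unfold tau av
    simp only [Nat.add_one_sub_one, pow_one, mul_pow]
  linarith

end Vale.Agent.P237
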