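import Mathlib

open Finset

namespace Vale.Agent.P237

/-- Convexity of a negative power between `1` and `w`. -/
theorem rpow_neg_convex {b l w : ℝ} (hb : 0 ≤ b) (hl0 : 0 ≤ l) (hl1 : l ≤ 1) (hw : 0 < w) :
    (1 + l * (w - 1)) ^ (-b) ≤ 1 + l * (w ^ (-b) - 1) := by
  have h1 : w ^ l ≤ 1 + l * (w - 1) := by
    have := rpow_one_add_le_one_add_mul_self (s := w - 1) (by linarith) hl0 hl1
    simpa using this
  have h2 : (w ^ (-b)) ^ l ≤ 1 + l * (w ^ (-b) - 1) := by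
    have h0 : 0 ≤ w ^ (-b) := Real.rpow_nonneg hw.le _
    have := rpow_one_add_le_one_add_mul_self (s := w ^ (-b) - 1) (by linarith) hl0 hl1
    simpa using this
  have h3 : (1 + l * (w - 1)) ^ (-b) ≤ (w ^ l) ^ (-b) :=
    Real.rpow_le_rpow_of_nonpos (Real.rpow_pos_of_pos hw _) h1 (by linarith)
  have h4 : (w ^ l) ^ (-b) = (w ^ (-b)) ^ l := by
    rw [← Real.rpow_mul hw.le, ← Real.rpow_mul hw.le, mul_comm]
  linarith

theorem sum_Icc_two (f : ℕ → ℝ) (M : ℕ) :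
    ∑ m ∈ Icc 2 M, f m = ∑ m ∈ Icc 1 M, if 2 ≤ m then f m else 0 := by
  rw [← Finset.sum_filter]
  congr 1
  ext m
  simp only [mem_Icc, mem_filter]
  omega

theorem sum_gam_le {M : ℕ} {a β' γ : ℕ → ℝ} {Q : ℝ} (ha : ∀ m, 0 ≤ a m) (hQ : 0 ≤ Q)
    (hap : ∑ m ∈ Icc 1 M, β' m * a m ≤ 1) (hβ' : 0 ≤ β' 1)
    (hQ' : ∀ m, 2 ≤ m → γ m ≤ Q * β' m) : ∑ m ∈ Icc 2 M, γ m * a m ≤ Q := by
  have h : ∑ m ∈ Icc 2 M, γ m * a m ≤ Q * ∑ m ∈ Icc 1 M, β' m * a m := by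
    rw [sum_Icc_two, Finset.mul_sum]
    refine Finset.sum_le_sum fun m hm => ?_
    have hm1 := (mem_Icc.1 hm).1
    split_ifs with h2
    · have := mul_le_mul_of_nonneg_right (hQ' m h2) (ha m)
      linarith
    · have : m = 1 := by omega
      subst this
      exact mul_nonneg hQ (mul_nonneg hβ' (ha 1))
  have := mul_le_mul_of_nonneg_left hap hQ
  linarith

/-- A pointwise lower bound for `(1 - x)^α` by a quadratic. -/
theorem rpow_quad_le {α s c : ℝ} (hα0 : 0 < α) (hα1 : α < 1) (hs0 : 0 < s) (hs1 : s ≤ 1)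
    (hc : α * (1 - α) / 2 ≤ c) (hs : 1 - α * s - c * s ^ 2 ≤ (1 - s) ^ α) {x : ℝ} (hx : x ≤ s) :
    1 - α * x - c * x ^ 2 ≤ (1 - x) ^ α := by
  have hder : ∀ z : ℝ, z < 1 → HasDerivAt (fun z : ℝ => (1 - z) ^ α - (1 - α * z - c * z ^ 2))
      (α + 2 * c * z - α * (1 - z) ^ (-(1 - α))) z := by
    intro z hz
    have h1 : HasDerivAt (fun z : ℝ => 1 - z) (-1) z := by
      simpa using (hasDerivAt_id z).const_sub 1
    have h2 := h1.rpow_const (p := α) (Or.inl (by linarith))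
    have h3 : HasDerivAt (fun z : ℝ => 1 - α * z - c * z ^ 2) (-α - c * (2 * z)) z := by
      have h4 := ((hasDerivAt_id z).const_mul α).const_sub 1
      have h5 := (hasDerivAt_pow 2 z).const_mul c
      exact (h4.fun_sub h5).congr_deriv (by simp)
    have e : -(1 - α) = α - 1 := by ring
    rw [e]
    exact (h2.fun_sub h3).congr_deriv (by ring)
  have hcont : Continuous (fun z : ℝ => (1 - z) ^ α - (1 - α * z - c * z ^ 2)) := by
    have : Continuous fun z : ℝ => (1 - z) ^ α :=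
      (continuous_const.sub continuous_id).rpow_const fun _ => Or.inr hα0.le
    fun_prop
  by_contra hcon
  push Not at hcon
  rcases lt_trichotomy x 0 with h0 | h0 | h0
  · obtain ⟨z, hz, hz'⟩ := exists_hasDerivAt_eq_slope _ _ h0 hcont.continuousOn
      (fun z hz => hder z (by linarith [hz.2]))
    have hz0 : z < 0 := hz.2
    have h1 : (1 - z) ^ (1 - α) ≤ 1 + (1 - α) * (-z) := by
      have := rpow_one_add_le_one_add_mul_self (s := -z) (p := 1 - α) (by linarith)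
        (by linarith) (by linarith)
      simpa [sub_eq_add_neg] using this
    have hp : 0 < (1 - z) ^ (1 - α) := Real.rpow_pos_of_pos (by linarith) _
    have h2 : 1 - (1 - α) * (-z) ≤ (1 - z) ^ (-(1 - α)) := by
      rw [Real.rpow_neg (by linarith), ← one_div, le_div_iff₀ hp]
      by_cases h3 : 1 - (1 - α) * (-z) ≤ 0
      · nlinarith
      · push Not at h3
        have := mul_le_mul_of_nonneg_left h1 h3.le
        nlinarith [sq_nonneg ((1 - α) * (-z))]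
    have h3 : α + 2 * c * z - α * (1 - z) ^ (-(1 - α)) ≤ 0 := by
      have := mul_le_mul_of_nonneg_left h2 hα0.le
      nlinarith
    rw [hz', div_nonpos_iff] at h3
    simp only [sub_zero, Real.one_rpow, mul_zero] at h3
    rcases h3 with h3 | h3
    · linarith [h3.2]
    · nlinarith [h3.1]
  · subst h0
    simp at hcon
  · have hxs : x < s := by
      rcases hx.lt_or_eq with h | h
      · exact h
      · subst h
        linarith
    obtain ⟨z, hz, hz'⟩ := exists_hasDerivAt_eq_slope _ _ h0 hcont.continuousOn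
      (fun z hz => hder z (by linarith [hz.2]))
    obtain ⟨w, hw, hw'⟩ := exists_hasDerivAt_eq_slope _ _ hxs hcont.continuousOn
      (fun z hz => hder z (by linarith [hz.2]))
    have hz1 : α + 2 * c * z - α * (1 - z) ^ (-(1 - α)) < 0 := by
      rw [hz']
      apply div_neg_of_neg_of_pos _ (by linarith)
      simp only [sub_zero, Real.one_rpow, mul_zero]
      nlinarith
    have hw1 : 0 < α + 2 * c * w - α * (1 - w) ^ (-(1 - α)) := by
      rw [hw']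
      apply div_pos _ (by linarith)
      linarith
    have hw0 : 0 < w := by linarith [hw.1]
    have hzw : z < w := by linarith [hw.1, hz.2]
    have hl : 0 < z / w := div_pos hz.1 hw0
    have h1 := rpow_neg_convex (b := 1 - α) (l := z / w) (w := 1 - w) (by linarith) hl.le
      ((div_le_one hw0).2 hzw.le) (by linarith [hw.2])
    have e : z / w * w = z := div_mul_cancel₀ _ hw0.ne'
    have e2 : 1 + z / w * (1 - w - 1) = 1 - z := by linarith
    rw [e2] at h1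
    have h2 := mul_pos hl hw1
    have h3 := mul_le_mul_of_nonneg_left h1 hα0.le
    have e3 : z / w * (α + 2 * c * w - α * (1 - w) ^ (-(1 - α))) =
        z / w * α + 2 * c * (z / w * w) - α * (z / w) * (1 - w) ^ (-(1 - α)) := by ring
    rw [e3, e] at h2
    nlinarith

/-- A concave quadratic is bounded below on an interval by its values at the ends. -/
theorem quad_between {p q t lo hi b : ℝ} (hq : 0 ≤ q) (h1 : t ≤ p * lo - q * lo ^ 2)
    (h2 : t ≤ p * hi - q * hi ^ 2) (hl : lo ≤ b) (hh : b ≤ hi) : t ≤ p * b - q * b ^ 2 := by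
  rcases eq_or_lt_of_le (hl.trans hh) with h | h
  · have : b = lo := le_antisymm (h ▸ hh) hl
    rw [this]
    exact h1
  · have h3 : 0 ≤ (hi - lo) * (p * b - q * b ^ 2 - t) := by
      have e : (hi - lo) * (p * b - q * b ^ 2 - t) =
          (hi - b) * (p * lo - q * lo ^ 2 - t) + (b - lo) * (p * hi - q * hi ^ 2 - t) +
            q * ((hi - b) * (b - lo) * (hi - lo)) := by ring
      rw [e]
      have := mul_nonneg (sub_nonneg.2 hh) (sub_nonneg.2 h1)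
      have := mul_nonneg (sub_nonneg.2 hl) (sub_nonneg.2 h2)
      have := mul_nonneg hq (mul_nonneg (mul_nonneg (sub_nonneg.2 hh) (sub_nonneg.2 hl))
        (sub_nonneg.2 h.le))
      linarith
    have := (mul_nonneg_iff_of_pos_left (sub_pos.2 h)).1 h3
    linarith

/-- The scalar inequality for `d = 1`. -/
theorem scalar_one {M : ℕ} {a β β' γ : ℕ → ℝ} {s c Q η m0 v : ℝ}
    (ha : ∀ m, 0 ≤ a m) (hγ : ∀ m, 0 ≤ γ m) (hc : 0 ≤ c) (hm0 : 0 < m0)
    (hη : 0 ≤ η) (hQ : 0 ≤ Q) (hQη : 1 / 4 + η * Q + η ^ 2 * Q ^ 2 ≤ 2 * η)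
    (hR : Q / 2 + η * Q ^ 2 < 1)
    (hv0 : 0 ≤ v)
    (hv : v * (1 - c * ∑ m ∈ Icc 1 M, (s * β m) ^ 2 * a m) ≤ 1 - ∑ m ∈ Icc 1 M, s * β m * a m)
    (hw : 0 ≤ 1 - ∑ m ∈ Icc 1 M, s * β m * a m)
    (hap : ∑ m ∈ Icc 1 M, β' m * a m ≤ 1) (hβ' : 0 ≤ β' 1)
    (hQ' : ∀ m, 2 ≤ m → γ m ≤ Q * β' m)
    (h1 : m0 ≤ s * β 1 - c * (s * β 1) ^ 2)
    (h2 : ∀ m, 2 ≤ m → m0 + γ m / 2 ≤ s * β m - c * (s * β m) ^ 2)
    (h3 : ∀ m, 2 ≤ m → m0 + γ m * (1 / 2 + Q * η) ≤ s * β m - c * (1 - Q / 2) * (s * β m) ^ 2) :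
    v ^ 2 + (m0 * ∑ m ∈ Icc 1 M, a m) ^ 2 + ∑ m ∈ Icc 2 M, γ m * a m ≤ 1 := by
  have hG := sum_gam_le ha hQ hap hβ' hQ'
  have hG0 : 0 ≤ ∑ m ∈ Icc 2 M, γ m * a m := sum_nonneg fun m _ => mul_nonneg (hγ m) (ha m)
  have hV0 : 0 ≤ ∑ m ∈ Icc 1 M, a m := sum_nonneg fun m _ => ha m
  have hS0 : 0 ≤ ∑ m ∈ Icc 1 M, (s * β m) ^ 2 * a m :=
    sum_nonneg fun m _ => mul_nonneg (sq_nonneg _) (ha m)
  have hVS : ∑ m ∈ Icc 1 M, a m = 0 → ∑ m ∈ Icc 1 M, (s * β m) ^ 2 * a m = 0 := by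
    intro h
    rw [sum_eq_zero_iff_of_nonneg fun m _ => ha m] at h
    exact sum_eq_zero fun m hm => by rw [h m hm, mul_zero]
  obtain ⟨P, hP⟩ : ∃ P, P = ∑ m ∈ Icc 1 M,
    max 0 (η * (if 2 ≤ m then γ m else 0) - c * (s * β m) ^ 2 / 2) * a m := ⟨_, rfl⟩
  have hP0 : 0 ≤ P := hP ▸ sum_nonneg fun m _ => mul_nonneg (le_max_left _ _) (ha m)
  have hP1 : η * ∑ m ∈ Icc 2 M, γ m * a m - c * (∑ m ∈ Icc 1 M, (s * β m) ^ 2 * a m) / 2 ≤ P := by
    rw [hP, sum_Icc_two, mul_sum, mul_sum, sum_div, ← sum_sub_distrib]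
    refine sum_le_sum fun m _ => ?_
    have := mul_le_mul_of_nonneg_right
      (le_max_right 0 (η * (if 2 ≤ m then γ m else 0) - c * (s * β m) ^ 2 / 2)) (ha m)
    refine le_trans (le_of_eq ?_) this
    split_ifs <;> ring
  have hP2 : m0 * ∑ m ∈ Icc 1 M, a m + (∑ m ∈ Icc 2 M, γ m * a m) / 2 + Q * P ≤
      ∑ m ∈ Icc 1 M, s * β m * a m - c * ∑ m ∈ Icc 1 M, (s * β m) ^ 2 * a m := by
    rw [hP, sum_Icc_two, mul_sum, mul_sum, mul_sum, sum_div, ← sum_sub_distrib,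
      ← sum_add_distrib, ← sum_add_distrib]
    refine sum_le_sum fun m hm => ?_
    have hm1 := (mem_Icc.1 hm).1
    have key : m0 + (if 2 ≤ m then γ m else 0) / 2 +
        Q * max 0 (η * (if 2 ≤ m then γ m else 0) - c * (s * β m) ^ 2 / 2) ≤
        s * β m - c * (s * β m) ^ 2 := by
      split_ifs with h
      · have k2 := h2 m h
        have k3 := h3 m h
        rcases le_total 0 (η * γ m - c * (s * β m) ^ 2 / 2) with h' | h'
        · rw [max_eq_right h']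
          linarith
        · rw [max_eq_left h']
          linarith
      · have : m = 1 := by omega
        subst this
        have : 0 ≤ c * (s * β 1) ^ 2 := mul_nonneg hc (sq_nonneg _)
        rw [max_eq_left (by linarith)]
        linarith
    have := mul_le_mul_of_nonneg_right key (ha m)
    refine le_trans (le_of_eq ?_) (this.trans (le_of_eq (by ring)))
    split_ifs <;> ring
  generalize ∑ m ∈ Icc 2 M, γ m * a m = G at *
  generalize ∑ m ∈ Icc 1 M, a m = V at *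
  generalize ∑ m ∈ Icc 1 M, (s * β m) ^ 2 * a m = S at *
  generalize ∑ m ∈ Icc 1 M, s * β m * a m = A at *
  obtain ⟨C, hC⟩ : ∃ C, C = c * S := ⟨_, rfl⟩
  have hC0 : 0 ≤ C := hC ▸ mul_nonneg hc hS0
  have hVC : V = 0 → C = 0 := fun h => by rw [hC, hVS h, mul_zero]
  rw [← hC] at hv hP1 hP2
  have hGG : η * G ^ 2 ≤ η * Q ^ 2 :=
    mul_le_mul_of_nonneg_left (pow_le_pow_left₀ hG0 hG 2) hη
  obtain ⟨R, hRd⟩ : ∃ R, R = 1 - G / 2 - η * G ^ 2 := ⟨_, rfl⟩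
  have hR0 : 0 < R := by linarith
  have hR2 : R ^ 2 ≤ 1 - G := by
    have k1 : η * G ≤ η * Q := mul_le_mul_of_nonneg_left hG hη
    have k2 : η ^ 2 * G ^ 2 ≤ η ^ 2 * Q ^ 2 :=
      mul_le_mul_of_nonneg_left (pow_le_pow_left₀ hG0 hG 2) (sq_nonneg _)
    have k3 : 0 ≤ G ^ 2 * (2 * η - 1 / 4 - η * G - η ^ 2 * G ^ 2) :=
      mul_nonneg (sq_nonneg _) (by linarith)
    have e : R ^ 2 = 1 - G - G ^ 2 * (2 * η - 1 / 4 - η * G - η ^ 2 * G ^ 2) := by
      rw [hRd]; ring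
    linarith
  have hmV : 0 ≤ m0 * V := mul_nonneg hm0.le hV0
  have hmain : 1 - A ≤ (1 - C) * R - m0 * V := by
    have k1 : G * (η * G - C / 2) ≤ G * P := mul_le_mul_of_nonneg_left hP1 hG0
    have k2 : G * P ≤ Q * P := mul_le_mul_of_nonneg_right hG hP0
    have k3 : 0 ≤ C * (η * G ^ 2) := mul_nonneg hC0 (mul_nonneg hη (sq_nonneg _))
    have e : (1 - C) * R = 1 - G / 2 - C - G * (η * G - C / 2) + C * (η * G ^ 2) := by
      rw [hRd]; ring
    linarith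
  have hC1 : C < 1 := by
    by_contra hh
    push Not at hh
    have k1 : (1 - C) * R ≤ 0 := mul_nonpos_of_nonpos_of_nonneg (by linarith) hR0.le
    have k2 : m0 * V = 0 := by linarith
    have k3 := hVC ((mul_eq_zero.1 k2).resolve_left hm0.ne')
    linarith
  have hRv : 0 ≤ R - v := by
    by_contra hh
    push Not at hh
    have := mul_pos_of_neg_of_neg hh (show C - 1 < 0 by linarith)
    nlinarith
  have hfin : v + m0 * V ≤ R := by
    have := mul_nonneg hRv hC0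
    nlinarith
  have k1 : (v + m0 * V) ^ 2 ≤ R ^ 2 := pow_le_pow_left₀ (by linarith) hfin 2
  have k2 := mul_nonneg hv0 hmV
  nlinarith

/-- The scalar inequality for `d = 2`. -/
theorem scalar_two {M : ℕ} {a β β' β'' γ : ℕ → ℝ} {c s' Q m0 v e : ℝ}
    (ha : ∀ m, 0 ≤ a m) (hc : 0 ≤ c) (hs0 : 0 ≤ s') (hs1 : s' < 1)
    (hQ0 : 0 ≤ Q) (hQ1 : Q ≤ 1) (hv0 : 0 ≤ v) (hv1 : v ≤ 1) (he1 : e ≤ 1)
    (hv : v * (1 - c * ∑ m ∈ Icc 1 M, β m ^ 2 * a m) ≤ 1 - ∑ m ∈ Icc 1 M, β m * a m)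
    (he : e ≤ (1 - s' * ∑ m ∈ Icc 1 M, β'' m * a m) *
      (1 + s' ^ 2 / (1 - s') * ∑ m ∈ Icc 1 M, β'' m ^ 2 * a m))
    (hap : ∑ m ∈ Icc 1 M, β' m * a m ≤ 1) (hβ' : 0 ≤ β' 1)
    (hQ' : ∀ m, 2 ≤ m → γ m ≤ Q * β' m) (hγ : ∀ m, 0 ≤ γ m)
    (hβ'' : ∀ m, 1 ≤ m → 0 ≤ β'' m ∧ s' * β'' m ≤ 1 - s')
    (h1 : m0 ≤ β 1 - c * β 1 ^ 2)
    (h2 : ∀ m, 2 ≤ m → m0 + γ m ≤
      β m - c * β m ^ 2 + (1 - Q) * (s' * β'' m - s' ^ 2 / (1 - s') * β'' m ^ 2)) :
    e * v + (if 1 - v ≤ Q then m0 * ∑ m ∈ Icc 1 M, a m else 1 - v - Q) +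
      ∑ m ∈ Icc 2 M, γ m * a m ≤ 1 := by
  have hG := sum_gam_le ha hQ0 hap hβ' hQ'
  have h1s : 0 < 1 - s' := by linarith
  have hterm : ∀ m, 1 ≤ m → 0 ≤ s' * β'' m - s' ^ 2 / (1 - s') * β'' m ^ 2 := by
    intro m hm
    obtain ⟨k1, k2⟩ := hβ'' m hm
    have e : s' * β'' m - s' ^ 2 / (1 - s') * β'' m ^ 2 =
        s' * β'' m * ((1 - s' - s' * β'' m) / (1 - s')) := by
      field_simp
    rw [e]
    exact mul_nonneg (mul_nonneg hs0 k1) (div_nonneg (by linarith) h1s.le)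
  have hB0 : 0 ≤ ∑ m ∈ Icc 1 M, β'' m * a m :=
    sum_nonneg fun m hm => mul_nonneg (hβ'' m (mem_Icc.1 hm).1).1 (ha m)
  have hB2 : 0 ≤ ∑ m ∈ Icc 1 M, β'' m ^ 2 * a m :=
    sum_nonneg fun m _ => mul_nonneg (sq_nonneg _) (ha m)
  have hS0 : 0 ≤ ∑ m ∈ Icc 1 M, β m ^ 2 * a m :=
    sum_nonneg fun m _ => mul_nonneg (sq_nonneg _) (ha m)
  have hD0 : 0 ≤ s' * ∑ m ∈ Icc 1 M, β'' m * a m -
      s' ^ 2 / (1 - s') * ∑ m ∈ Icc 1 M, β'' m ^ 2 * a m := by
    rw [mul_sum, mul_sum, ← sum_sub_distrib]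
    refine sum_nonneg fun m hm => ?_
    have := mul_nonneg (hterm m (mem_Icc.1 hm).1) (ha m)
    linarith
  have hP : m0 * ∑ m ∈ Icc 1 M, a m + ∑ m ∈ Icc 2 M, γ m * a m ≤
      ∑ m ∈ Icc 1 M, β m * a m - c * ∑ m ∈ Icc 1 M, β m ^ 2 * a m +
        (1 - Q) * (s' * ∑ m ∈ Icc 1 M, β'' m * a m -
          s' ^ 2 / (1 - s') * ∑ m ∈ Icc 1 M, β'' m ^ 2 * a m) := by
    rw [sum_Icc_two, mul_sum, mul_sum, mul_sum, mul_sum, ← sum_sub_distrib, ← sum_sub_distrib,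
      mul_sum, ← sum_add_distrib, ← sum_add_distrib]
    refine sum_le_sum fun m hm => ?_
    have hm1 := (mem_Icc.1 hm).1
    have key : m0 + (if 2 ≤ m then γ m else 0) ≤ β m - c * β m ^ 2 +
        (1 - Q) * (s' * β'' m - s' ^ 2 / (1 - s') * β'' m ^ 2) := by
      split_ifs with h
      · exact h2 m h
      · have : m = 1 := by omega
        subst this
        have := mul_nonneg (sub_nonneg.2 hQ1) (hterm 1 le_rfl)
        linarith
    have := mul_le_mul_of_nonneg_right key (ha m)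
    refine le_trans (le_of_eq ?_) (this.trans (le_of_eq (by ring)))
    split_ifs <;> ring
  have hk : 0 ≤ s' ^ 2 / (1 - s') := div_nonneg (sq_nonneg _) h1s.le
  generalize s' ^ 2 / (1 - s') = k at *
  generalize ∑ m ∈ Icc 2 M, γ m * a m = G at *
  generalize ∑ m ∈ Icc 1 M, a m = V at *
  generalize ∑ m ∈ Icc 1 M, β m ^ 2 * a m = S at *
  generalize ∑ m ∈ Icc 1 M, β m * a m = A at *
  generalize ∑ m ∈ Icc 1 M, β'' m ^ 2 * a m = B2 at *
  generalize ∑ m ∈ Icc 1 M, β'' m * a m = B at *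
  split_ifs with hU
  · have k1 : e ≤ 1 - (s' * B - k * B2) := by
      have := mul_nonneg (mul_nonneg hs0 hB0) (mul_nonneg hk hB2)
      nlinarith
    have k2 := mul_le_mul_of_nonneg_right k1 hv0
    have k3 : (s' * B - k * B2) * (1 - Q) ≤ (s' * B - k * B2) * v :=
      mul_le_mul_of_nonneg_left (by linarith) hD0
    have k4 := mul_nonneg (sub_nonneg.2 hv1) (mul_nonneg hc hS0)
    nlinarith
  · have := mul_le_mul_of_nonneg_right he1 hv0
    linarith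

end Vale.Agent.P237
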