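import Vale.Agent.P237.Funk
import Vale.Agent.P237.Scalar

open MeasureTheory Metric Set Filter Topology
open scoped RealInnerProductSpace Pointwise ENNReal NNReal

namespace Vale.Agent.P237

variable {n : ℕ}

theorem on_smul {N : E n → ℝ} (hN : IsNorm N) (t : ℝ) (x : E n) : N (t • x) = |t| * N x := by
  rcases le_total 0 t with h | h
  · rw [hN.smul t x h, abs_of_nonneg h]
  · have : t • x = -((-t) • x) := by simp
    rw [this, hN.neg, hN.smul _ x (by linarith), abs_of_nonpos h]

theorem on_abs_pow (j : ℕ) (t : ℝ) : |t| ^ (2 * j) = t ^ (2 * j) := by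
  rw [pow_mul, sq_abs, pow_mul]

/-- Symmetrisation by the reflection in the axis `a`. -/
theorem on_reflect {N : E n → ℝ} (hN : IsNorm N) (j p : ℕ) {a : E n} (ha : ‖a‖ = 1)
    (hp : ∀ x y z : ℝ, 0 ≤ x → 0 ≤ y → 0 ≤ z → 2 * z ≤ x + y → 2 * z ^ p ≤ x ^ p + y ^ p) :
    zon n (fun t => |t| ^ (2 * j + p)) * N a ^ p ≤
      Tk (fun t => t ^ (2 * j)) (fun x => N x ^ p) a := by
  have hc := hN.toIsGauge.continuous
  have hR : ∀ x : E n, (ℝ ∙ a).reflection x = (2 * ⟪a, x⟫) • a - x := by
    intro x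
    rw [Submodule.reflection_singleton_apply, ha]
    simp [two_smul, two_mul, add_smul]
  have hin : ∀ x : E n, ⟪a, (ℝ ∙ a).reflection x⟫ = ⟪a, x⟫ := by
    intro x
    rw [hR, inner_sub_right, inner_smul_right, real_inner_self_eq_norm_sq, ha]
    ring
  have h1 := integral_isom (ℝ ∙ a).reflection (fun x => ⟪a, x⟫ ^ (2 * j) * N x ^ p)
  simp only [hin] at h1
  have hi1 : Integrable (fun θ : Sph n => ⟪a, (θ : E n)⟫ ^ (2 * j) * N θ ^ p) (sig n) :=
    integrable_sig (by fun_prop)
  have hi2 : Integrable (fun θ : Sph n => ⟪a, (θ : E n)⟫ ^ (2 * j) *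
      N ((ℝ ∙ a).reflection (θ : E n)) ^ p) (sig n) :=
    integrable_sig (by fun_prop)
  have h2 : ∫ θ : Sph n, |⟪a, (θ : E n)⟫| ^ (2 * j + p) * (2 * N a ^ p) ∂sig n ≤
      ∫ θ : Sph n, (⟪a, (θ : E n)⟫ ^ (2 * j) * N θ ^ p + ⟪a, (θ : E n)⟫ ^ (2 * j) *
        N ((ℝ ∙ a).reflection (θ : E n)) ^ p) ∂sig n := by
    refine integral_mono (integrable_sig (by fun_prop)) (hi1.add hi2) fun θ => ?_
    have k1 := hN.add_le θ ((ℝ ∙ a).reflection (θ : E n))
    have k2 : (θ : E n) + (ℝ ∙ a).reflection (θ : E n) = (2 * ⟪a, (θ : E n)⟫) • a := by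
      rw [hR]; abel
    rw [k2, on_smul hN, abs_mul, abs_two, mul_assoc] at k1
    have k3 := hp _ _ _ (hN.toIsGauge.nonneg _) (hN.toIsGauge.nonneg _)
      (mul_nonneg (abs_nonneg _) (hN.toIsGauge.nonneg a)) k1
    have k4 : 0 ≤ ⟪a, (θ : E n)⟫ ^ (2 * j) := by rw [← on_abs_pow]; positivity
    have k5 := mul_le_mul_of_nonneg_left k3 k4
    simp only
    rw [pow_add, on_abs_pow]
    rw [mul_pow] at k5
    linarith
  rw [integral_add hi1 hi2, h1, integral_mul_const, zon_eq ha (fun t => |t| ^ (2 * j + p))] at h2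
  unfold Tk
  linarith

theorem on_int_pos (hn : 0 < n) {F : Sph n → ℝ} (hF : Continuous F) (hp : ∀ θ, 0 < F θ) :
    0 < ∫ θ, F θ ∂sig n := by
  have := sig_prob hn
  rw [integral_pos_iff_support_of_nonneg (fun θ => (hp θ).le) (integrable_sig hF)]
  have : Function.support F = univ := eq_univ_of_forall fun θ => (hp θ).ne'
  rw [this]
  simp

theorem on_pos {N : E n → ℝ} (hN : IsNorm N) (θ : Sph n) : 0 < N θ :=
  hN.pos _ fun h => by simpa [h] using norm_coe θ

/-- Convexity in integrated form, `d = 1`. -/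
theorem jensen_one (hn : 2 ≤ n) {N : E n → ℝ} (hN : IsNorm N) (j : ℕ) {τ : ℝ}
    (h : τ ^ 2 * (2 * (j : ℝ) + n - 1) ≤ 2 * j) {a : E n} (ha : ‖a‖ = 1) :
    τ * N a ≤ Aop j N a := by
  have h1 := on_reflect hN j 1 ha (fun x y z _ _ _ h => by simpa using h)
  have h2 := tau_one_le hn j h
  have h3 := zon_pow_pos hn j
  simp only [pow_one] at h1
  unfold Aop
  rw [inv_mul_eq_div, le_div_iff₀ h3]
  have := mul_le_mul_of_nonneg_right h2 (hN.toIsGauge.nonneg a)
  linarith

/-- Convexity in integrated form, `d = 2`. -/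
theorem jensen_two (hn : 2 ≤ n) {N : E n → ℝ} (hN : IsNorm N) (j : ℕ) {a : E n} (ha : ‖a‖ = 1) :
    (2 * (j : ℝ) + 1) / (2 * (j : ℝ) + n) * N a ^ 2 ≤ Aop j (fun x => N x ^ 2) a := by
  have h1 := on_reflect hN j 2 ha (fun x y z _ _ hz h => by
    have := pow_le_pow_left₀ (by linarith) h 2
    nlinarith [sq_nonneg (x - y)])
  have h2 := zon_abs_pow_succ hn (2 * j)
  have h3 := zon_pow_pos hn j
  simp only [on_abs_pow] at h2
  push_cast at h2
  rw [h2] at h1
  unfold Aop
  rw [inv_mul_eq_div, le_div_iff₀ h3]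
  linarith

/-- The a priori bound for the square of a norm. -/
theorem apriori_two (hn : 2 ≤ n) {N : E n → ℝ} (hN : IsNorm N) (j : ℕ) {τ : ℝ}
    (h : τ ^ 2 * (2 * (j : ℝ) + n - 1) ≤ 2 * j) :
    (4 * τ - 1) / 3 * ip (fun x => N x ^ 2) (fun x => N x ^ 2) ≤
      ip (fun x => N x ^ 2) (Aop j fun x => N x ^ 2) := by
  have hc := hN.toIsGauge.continuous
  have hμ := zon_pow_pos hn j
  have hκ : Continuous fun t : ℝ => t ^ (2 * j) := by fun_prop
  set κ : ℝ → ℝ := fun t : ℝ => t ^ (2 * j) with hκd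
  have hT : ∀ p : ℕ, Continuous (Tk κ fun x => N x ^ p) := fun p =>
    continuous_Tk hκ (by fun_prop)
  have hT0 : ∀ θ : Sph n, Tk κ (fun x => N x ^ 0) θ = zon n κ := by
    intro θ
    rw [← zon_eq (norm_coe θ)]
    simp [Tk]
  have hI : ∀ p q : ℕ, Integrable
      (fun θ : Sph n => N θ ^ p * Tk κ (fun x => N x ^ q) θ) (sig n) := fun p q =>
    integrable_sig (by have := hT q; fun_prop)
  have hsym : ∀ p q : ℕ, ∫ θ : Sph n, N θ ^ p * Tk κ (fun x => N x ^ q) θ ∂sig n =
      ∫ θ : Sph n, N θ ^ q * Tk κ (fun x => N x ^ p) θ ∂sig n := by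
    intro p q
    have := ip_Tk hκ (f := fun x => N x ^ p) (g := fun x => N x ^ q) (by fun_prop) (by fun_prop)
    simpa only [ip, mul_comm] using this
  have hpt : ∀ a : Sph n, 4 * (N a ^ 3 * Tk κ (fun x => N x ^ 1) a) +
      4 * (N a ^ 1 * Tk κ (fun x => N x ^ 3) a) ≤
      N a ^ 4 * Tk κ (fun x => N x ^ 0) a + N a ^ 0 * Tk κ (fun x => N x ^ 4) a +
        6 * (N a ^ 2 * Tk κ (fun x => N x ^ 2) a) := by
    intro a
    have hJ : ∀ (c : ℝ) (q : ℕ), Integrable
        (fun θ : Sph n => c * (κ ⟪(a : E n), (θ : E n)⟫ * N θ ^ q)) (sig n) := fun c q =>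
      integrable_sig (by fun_prop)
    unfold Tk
    simp only [← mul_assoc (4 : ℝ), ← mul_assoc (6 : ℝ), ← integral_const_mul]
    rw [← integral_add (hJ _ _) (hJ _ _), ← integral_add (hJ _ _) (hJ _ _),
      ← integral_add ((hJ _ _).fun_add (hJ _ _)) (hJ _ _)]
    refine integral_mono ((hJ _ _).add (hJ _ _)) (((hJ _ _).add (hJ _ _)).add (hJ _ _))
      fun θ => ?_
    have k4 : 0 ≤ κ ⟪(a : E n), (θ : E n)⟫ := by
      simp only [hκd]
      rw [← on_abs_pow]; positivity
    have k5 := mul_nonneg k4 (show 0 ≤ (N a - N θ) ^ 4 by positivity)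
    simp only
    nlinarith
  have hint := integral_mono (((hI 3 1).const_mul 4).add ((hI 1 3).const_mul 4))
    (((hI 4 0).add (hI 0 4)).add ((hI 2 2).const_mul 6)) hpt
  simp only [Pi.add_apply] at hint
  rw [integral_add ((hI 3 1).const_mul 4) ((hI 1 3).const_mul 4),
    integral_add ((hI 4 0).fun_add (hI 0 4)) ((hI 2 2).const_mul 6), integral_add (hI 4 0) (hI 0 4),
    integral_const_mul, integral_const_mul, integral_const_mul, hsym 1 3, hsym 0 4] at hint
  simp only [hT0] at hint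
  rw [integral_mul_const] at hint
  have hj : ∫ θ : Sph n, N θ ^ 4 * (τ * zon n κ) ∂sig n ≤
      ∫ θ : Sph n, N θ ^ 3 * Tk κ (fun x => N x ^ 1) θ ∂sig n := by
    refine integral_mono (integrable_sig (by fun_prop)) (hI 3 1) fun θ => ?_
    have k1 := jensen_one hn hN j h (norm_coe θ)
    unfold Aop at k1
    rw [inv_mul_eq_div, le_div_iff₀ hμ] at k1
    have k2 := mul_le_mul_of_nonneg_left k1 (pow_nonneg (hN.toIsGauge.nonneg θ) 3)
    simp only [pow_one]
    linarith
  rw [integral_mul_const] at hj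
  have e1 : ip (fun x => N x ^ 2) (fun x => N x ^ 2) = ∫ θ : Sph n, N θ ^ 4 ∂sig n := by
    unfold ip
    congr 1
    funext θ
    ring
  have e2 : ip (fun x => N x ^ 2) (Aop j fun x => N x ^ 2) =
      (zon n κ)⁻¹ * ∫ θ : Sph n, N θ ^ 2 * Tk κ (fun x => N x ^ 2) θ ∂sig n := by
    unfold ip Aop
    rw [← integral_const_mul]
    congr 1
    funext θ
    ring
  rw [e1, e2, inv_mul_eq_div, le_div_iff₀ hμ]
  linarith

/-- Reverse Hoelder inequality with a weight `1 - s y`. -/
theorem rev_holder (hn : 0 < n) {f y : E n → ℝ} (hf : Continuous f) (hy : Continuous y)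
    (hp : ∀ θ : Sph n, 0 < f θ) (hy1 : ∀ θ : Sph n, y θ ≤ 1) (hy0 : av y = 0) (h1 : av f = 1)
    {q s c : ℝ} (hq : 0 < q) (hs0 : 0 < s) (hs1 : s ≤ 1)
    (hc : 1 / (q + 1) / 2 ≤ c)
    (hs : 1 - q / (q + 1) * s - q / (q + 1) * c * s ^ 2 ≤ (1 - s) ^ (q / (q + 1))) :
    (∫ θ, f (θ : E n) ^ (-q) ∂sig n) ^ (-(1 / q)) * (1 - c * (s ^ 2 * ip y y)) ≤ 1 - s * ip y f ∧
      0 ≤ 1 - s * ip y f ∧ (∫ θ, f (θ : E n) ^ (-q) ∂sig n) ^ (-(1 / q)) ≤ 1 := by
  have := sig_prob hn
  have hq1 : 0 < q + 1 := by linarith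
  have hα0 : 0 < q / (q + 1) := div_pos hq hq1
  have hα1 : q / (q + 1) < 1 := (div_lt_one hq1).2 (by linarith)
  have hα2 : 1 - q / (q + 1) = 1 / (q + 1) := by field_simp; ring
  have hcf : Continuous fun θ : Sph n => f θ ^ (-q) :=
    (hf.comp continuous_subtype_val).rpow_const fun θ => Or.inl (hp θ).ne'
  have hI := on_int_pos hn hcf fun θ => Real.rpow_pos_of_pos (hp θ) _
  set I := ∫ θ : Sph n, f (θ : E n) ^ (-q) ∂sig n with hId
  set v := I ^ (-(1 / q)) with hvd
  have hv : 0 < v := Real.rpow_pos_of_pos hI _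
  have hvq : v ^ q * I = 1 := by
    rw [hvd, ← Real.rpow_mul hI.le, show -(1 / q) * q = -1 by field_simp, Real.rpow_neg_one,
      inv_mul_cancel₀ hI.ne']
  set α := q / (q + 1) with hαd
  have young : ∀ (w : ℝ) (θ : Sph n), 0 ≤ w →
      w ^ α ≤ α / v * (w * f θ) + (1 - α) * v ^ q * f θ ^ (-q) := by
    intro w θ hw
    have hfp := hp θ
    have k1 := Real.geom_mean_le_arith_mean2_weighted (w₁ := α) (w₂ := 1 - α)
      (p₁ := w * (f θ / v)) (p₂ := (f θ / v) ^ (-q)) hα0.le (by linarith) (by positivity)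
      (by positivity) (by ring)
    have k2 : (w * (f θ / v)) ^ α * ((f θ / v) ^ (-q)) ^ (1 - α) = w ^ α := by
      rw [Real.mul_rpow hw (by positivity), ← Real.rpow_mul (by positivity), mul_assoc,
        ← Real.rpow_add (by positivity), hα2, show α + -q * (1 / (q + 1)) = 0 by
          rw [hαd]; ring, Real.rpow_zero, mul_one]
    have k3 : (f θ / v) ^ (-q) = v ^ q * f θ ^ (-q) := by
      rw [Real.div_rpow hfp.le hv.le, Real.rpow_neg hv.le, div_inv_eq_mul, mul_comm]
    rw [k2, k3] at k1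
    refine k1.trans (le_of_eq ?_)
    ring
  have hif : Integrable (fun θ : Sph n => f θ) (sig n) := integrable_sig (by fun_prop)
  have hiy : Integrable (fun θ : Sph n => y θ) (sig n) := integrable_sig (by fun_prop)
  have hiyy : Integrable (fun θ : Sph n => y θ * y θ) (sig n) := integrable_sig (by fun_prop)
  have hiyf : Integrable (fun θ : Sph n => y θ * f θ) (sig n) := integrable_sig (by fun_prop)
  have hiq := integrable_sig hcf
  have hw : ∀ θ : Sph n, 0 ≤ 1 - s * y θ := fun θ => by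
    have := mul_le_mul_of_nonneg_left (hy1 θ) hs0.le
    linarith
  unfold av at h1 hy0
  have hW : ∫ θ : Sph n, (f θ - s * (y θ * f θ)) ∂sig n = 1 - s * ip y f := by
    rw [integral_sub hif (hiyf.const_mul s), integral_const_mul, h1]
    rfl
  have hl : α * v⁻¹ * v = α := by field_simp
  refine ⟨?_, ?_, ?_⟩
  · have k1 : ∫ θ : Sph n, (1 - α * s * y θ - α * c * s ^ 2 * (y θ * y θ)) ∂sig n ≤
        ∫ θ : Sph n, (α / v * (f θ - s * (y θ * f θ)) + (1 - α) * v ^ q * f θ ^ (-q)) ∂sig n := by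
      refine integral_mono (integrable_sig (by fun_prop))
        (((hif.sub (hiyf.const_mul s)).const_mul _).add (hiq.const_mul _)) fun θ => ?_
      have k2 := young _ θ (hw θ)
      have k3 := rpow_quad_le (c := α * c) hα0 hα1 hs0 hs1 (by
        rw [hα2, mul_div_assoc]
        exact mul_le_mul_of_nonneg_left hc hα0.le) hs (x := s * y θ) (by
          have := mul_le_mul_of_nonneg_left (hy1 θ) hs0.le
          linarith)
      simp only
      nlinarith
    rw [integral_add ((hif.sub' (hiyf.const_mul s)).const_mul _) (hiq.const_mul _),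
      integral_const_mul, integral_const_mul, hW,
      integral_sub ((integrable_const _).sub' (hiy.const_mul _)) (hiyy.const_mul _),
      integral_sub (integrable_const _) (hiy.const_mul _), integral_const_mul, integral_const_mul,
      hy0, ← hId, mul_assoc (1 - α), hvq] at k1
    simp only [integral_const, probReal_univ, smul_eq_mul, mul_one] at k1
    change _ - _ - _ * ip y y ≤ _ at k1
    have k4 : α * (1 - c * (s ^ 2 * ip y y)) ≤ α * ((1 - s * ip y f) / v) := by
      have : α * ((1 - s * ip y f) / v) = α / v * (1 - s * ip y f) := by ring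
      linarith
    have k5 := le_of_mul_le_mul_left k4 hα0
    rw [le_div_iff₀ hv] at k5
    linarith
  · rw [← hW]
    refine integral_nonneg fun θ => ?_
    have := mul_nonneg (hw θ) (hp θ).le
    simp only [Pi.zero_apply]
    linarith
  · have k1 : ∫ _θ : Sph n, (1 : ℝ) ∂sig n ≤
        ∫ θ : Sph n, (α / v * f θ + (1 - α) * v ^ q * f θ ^ (-q)) ∂sig n := by
      refine integral_mono (integrable_const _) ((hif.const_mul _).add (hiq.const_mul _))
        fun θ => ?_
      simpa using young 1 θ zero_le_one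
    rw [integral_add (hif.const_mul _) (hiq.const_mul _), integral_const_mul, integral_const_mul,
      h1, ← hId, mul_assoc (1 - α), hvq] at k1
    simp only [integral_const, probReal_univ, smul_eq_mul, mul_one] at k1
    have k2 : α ≤ α / v := by linarith
    rw [le_div_iff₀ hv] at k2
    exact le_of_mul_le_mul_left (by linarith) hα0

/-- Weighted Cauchy-Schwarz inequality for the mean of `N`. -/
theorem mean_sq_le (hn : 0 < n) {N y : E n → ℝ} (hN : Continuous N) (hy : Continuous y)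
    (hy1 : ∀ θ : Sph n, y θ ≤ 1) (hy0 : av y = 0) (h1 : av (fun x => N x ^ 2) = 1)
    {s : ℝ} (hs0 : 0 ≤ s) (hs1 : s < 1) :
    av N ^ 2 ≤ (1 - s * ip y (fun x => N x ^ 2)) * (1 + s ^ 2 / (1 - s) * ip y y) ∧
      av N ^ 2 ≤ 1 := by
  have := sig_prob hn
  have h1s : 0 < 1 - s := by linarith
  have hk : 0 ≤ s ^ 2 / (1 - s) := div_nonneg (sq_nonneg _) h1s.le
  have hiN : Integrable (fun θ : Sph n => N θ) (sig n) := integrable_sig (by fun_prop)
  have hif : Integrable (fun θ : Sph n => N θ ^ 2) (sig n) := integrable_sig (by fun_prop)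
  have hiy : Integrable (fun θ : Sph n => y θ) (sig n) := integrable_sig (by fun_prop)
  have hiyy : Integrable (fun θ : Sph n => y θ * y θ) (sig n) := integrable_sig (by fun_prop)
  have hiyf : Integrable (fun θ : Sph n => y θ * N θ ^ 2) (sig n) := integrable_sig (by fun_prop)
  unfold av at h1 hy0
  constructor
  · have key : ∀ t : ℝ, 2 * t * av N ≤ (1 - s * ip y (fun x => N x ^ 2)) +
        t ^ 2 * (1 + s ^ 2 / (1 - s) * ip y y) := by
      intro t
      have k1 : ∫ θ : Sph n, 2 * t * N θ ∂sig n ≤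
          ∫ θ : Sph n, ((N θ ^ 2 - s * (y θ * N θ ^ 2)) +
            t ^ 2 * (1 + s * y θ + s ^ 2 / (1 - s) * (y θ * y θ))) ∂sig n := by
        refine integral_mono (hiN.const_mul _) (integrable_sig (by fun_prop)) fun θ => ?_
        have k2 : s * y θ ≤ s := by
          have := mul_le_mul_of_nonneg_left (hy1 θ) hs0
          linarith
        have k3 : 0 < 1 - s * y θ := by linarith
        have k4 : (s * y θ) ^ 2 / (1 - s * y θ) ≤ (s * y θ) ^ 2 / (1 - s) :=
          div_le_div_of_nonneg_left (sq_nonneg _) h1s (by linarith)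
        have k5 : 1 / (1 - s * y θ) = 1 + s * y θ + (s * y θ) ^ 2 / (1 - s * y θ) := by
          field_simp
          ring
        have k6 : (s * y θ) ^ 2 / (1 - s) = s ^ 2 / (1 - s) * (y θ * y θ) := by ring
        have k7 : 0 ≤ ((1 - s * y θ) * N θ - t) ^ 2 / (1 - s * y θ) := by positivity
        have k8 : ((1 - s * y θ) * N θ - t) ^ 2 / (1 - s * y θ) =
            (1 - s * y θ) * N θ ^ 2 - 2 * t * N θ + t ^ 2 * (1 / (1 - s * y θ)) := by
          field_simp
          ring
        have k9 := mul_le_mul_of_nonneg_left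
          (show 1 / (1 - s * y θ) ≤ 1 + s * y θ + s ^ 2 / (1 - s) * (y θ * y θ) by linarith)
          (sq_nonneg t)
        simp only
        linarith
      rw [integral_add (hif.sub' (hiyf.const_mul s))
          ((((integrable_const _).fun_add (hiy.const_mul s)).fun_add
            (hiyy.const_mul _)).const_mul _),
        integral_sub hif (hiyf.const_mul s), integral_const_mul, integral_const_mul,
        integral_const_mul,
        integral_add ((integrable_const _).fun_add (hiy.const_mul s)) (hiyy.const_mul _),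
        integral_add (integrable_const _) (hiy.const_mul s), integral_const_mul,
        integral_const_mul, hy0, h1] at k1
      simpa [av, ip] using k1
    have hG : 0 < 1 + s ^ 2 / (1 - s) * ip y y := by
      have := mul_nonneg hk (ip_self_nonneg y)
      linarith
    generalize 1 + s ^ 2 / (1 - s) * ip y y = G at *
    have k := key (av N / G)
    have e : 2 * (av N / G) * av N - (av N / G) ^ 2 * G = av N ^ 2 / G := by
      field_simp
      ring
    rw [← div_le_iff₀ hG]
    linarith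
  · have k1 : ∫ θ : Sph n, 2 * av N * N θ ∂sig n ≤ ∫ θ : Sph n, (N θ ^ 2 + av N ^ 2) ∂sig n := by
      refine integral_mono (hiN.const_mul _) (hif.add (integrable_const _)) fun θ => ?_
      simp only
      nlinarith [sq_nonneg (N θ - av N)]
    rw [integral_add hif (integrable_const _), integral_const_mul, h1] at k1
    simp only [integral_const, probReal_univ, smul_eq_mul, one_mul] at k1
    change 2 * av N * av N ≤ _ at k1
    linarith

/-- It suffices to prove the one-norm inequality for normalised norms. -/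
theorem oneNorm_of_normalised (hn : 2 ≤ n) {d : ℕ} (hd : 1 ≤ d)
    (h : ∀ N : E n → ℝ, IsNorm N → av (fun x => N x ^ d) = 1 →
      ∃ ε : ℝ, 0 ≤ ε ∧ ((∃ a b : Sph n, N a ≠ N b) → 0 < ε) ∧
        ∀ D : ℕ, tau d N ^ 2 + ε + Wsum d D (fun x => N x ^ d) ≤ 1) : OneNorm n d := by
  intro N hN
  have hn0 : 0 < n := by omega
  have hnr : (0 : ℝ) < n := by exact_mod_cast hn0
  have hc := hN.toIsGauge.continuous
  have hm : 0 < av fun x => N x ^ d :=
    on_int_pos hn0 (by fun_prop) fun θ => pow_pos (on_pos hN θ) _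
  set m := av fun x => N x ^ d with hmd
  obtain ⟨c, hc0, hcd⟩ : ∃ c : ℝ, 0 < c ∧ c ^ d = m⁻¹ :=
    ⟨m⁻¹ ^ ((d : ℝ)⁻¹), Real.rpow_pos_of_pos (inv_pos.2 hm) _,
      Real.rpow_inv_natCast_pow (inv_pos.2 hm).le (by omega)⟩
  have hav : av (fun x => (c * N x) ^ d) = 1 := by
    unfold av
    simp only [mul_pow]
    rw [integral_const_mul, hcd]
    exact inv_mul_cancel₀ hm.ne'
  obtain ⟨ε, hε0, hε1, hε⟩ := h _ (hN.const_mul hc0) hav
  refine ⟨ε * m ^ 2, by positivity, ?_, fun D => ?_⟩
  · rintro ⟨a, b, hab⟩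
    have := hε1 ⟨a, b, fun h => hab (mul_left_cancel₀ hc0.ne' h)⟩
    positivity
  · have k1 := hε D
    have e0 : Vale.Agent.P237.hm (fun x => c * N x) = c * Vale.Agent.P237.hm N := by
      unfold Vale.Agent.P237.hm
      simp only [mul_inv, mul_pow]
      rw [integral_const_mul, Real.mul_rpow (by positivity) (hN.toIsGauge.int_inv_pos hn0).le,
        inv_pow, ← Real.rpow_natCast, ← Real.rpow_neg hc0.le, ← Real.rpow_mul hc0.le,
        show -(n : ℝ) * -(1 / (n : ℝ)) = 1 by field_simp, Real.rpow_one]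
    have e1 : tau d (fun x => c * N x) = m⁻¹ * tau d N := by
      unfold tau
      simp only [mul_pow]
      rw [integral_const_mul, e0, ← hcd]
      obtain ⟨k, rfl⟩ : ∃ k, d = k + 1 := ⟨d - 1, by omega⟩
      simp only [Nat.add_sub_cancel]
      ring
    have e2 : ∀ (l : ℕ) (a : E n), comp l (fun x => (c * N x) ^ d) a =
        m⁻¹ * comp l (fun x => N x ^ d) a := by
      intro l a
      unfold comp Tk
      simp only [mul_pow, hcd, mul_left_comm _ m⁻¹]
      rw [integral_const_mul]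
      ring
    have e3 : Wsum d D (fun x => (c * N x) ^ d) = m⁻¹ ^ 2 * Wsum d D (fun x => N x ^ d) := by
      unfold Wsum ip
      rw [Finset.mul_sum]
      refine Finset.sum_congr rfl fun l _ => ?_
      simp only [e2]
      rw [mul_left_comm, ← integral_const_mul (m⁻¹ ^ 2)]
      congr 2
      funext θ
      ring
    rw [e1, e3] at k1
    have k2 := mul_le_mul_of_nonneg_right k1 (sq_nonneg m)
    have e4 : ((m⁻¹ * tau d N) ^ 2 + ε + m⁻¹ ^ 2 * Wsum d D fun x => N x ^ d) * m ^ 2 =
        tau d N ^ 2 + ε * m ^ 2 + Wsum d D fun x => N x ^ d := by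
      field_simp
    linarith

end Vale.Agent.P237
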