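import Vale.Agent.P237.Basic

open MeasureTheory Metric Set
open scoped RealInnerProductSpace Pointwise ENNReal

namespace Vale.Agent.P237

variable {n : ℕ}

theorem kappa_pos (m : ℕ) : 0 < kappa m := by
  exact ENNReal.toReal_pos (measure_closedBall_pos _ _ one_pos).ne' measure_closedBall_lt_top.ne

theorem norm_coe (θ : Sph n) : ‖(θ : E n)‖ = 1 := by
  exact norm_eq_of_mem_sphere θ

theorem norm_e0 (hn : 0 < n) : ‖e0 n‖ = 1 := by
  have : e0 n = EuclideanSpace.single ⟨0, hn⟩ 1 := by
    ext i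
    simp [e0, Pi.single_apply, Fin.ext_iff]
  rw [this]; simp

theorem Sphere_univ : (volume : Measure (E n)).toSphere univ = ENNReal.ofReal (n * kappa n) := by
  rw [Measure.toSphere_apply_univ, kappa, ENNReal.ofReal_mul (Nat.cast_nonneg _),
    ENNReal.ofReal_toReal measure_closedBall_lt_top.ne, ENNReal.ofReal_natCast,
    Measure.addHaar_unitClosedBall_eq_addHaar_unitBall]
  simp

theorem Sphere_ne (hn : 0 < n) : (volume : Measure (E n)).toSphere univ ≠ 0 := by
  have := kappa_pos n
  rw [Sphere_univ, Ne, ENNReal.ofReal_eq_zero, not_le]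
  positivity

theorem Sphere_eq (hn : 0 < n) :
    (volume : Measure (E n)).toSphere = ENNReal.ofReal (n * kappa n) • sig n := by
  rw [sig, smul_smul, ← Sphere_univ, ENNReal.mul_inv_cancel (Sphere_ne hn) (measure_ne_top _ _),
    one_smul]

theorem sig_prob (hn : 0 < n) : IsProbabilityMeasure (sig n) := by
  constructor
  rw [sig, Measure.smul_apply, smul_eq_mul,
    ENNReal.inv_mul_cancel (Sphere_ne hn) (measure_ne_top _ _)]

instance sig_finite : IsFiniteMeasure (sig n) := by
  constructor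
  rw [sig, Measure.smul_apply, smul_eq_mul]
  exact (ENNReal.inv_mul_le_one _).trans_lt ENNReal.one_lt_top

/-- Continuous functions are integrable on the sphere. -/
theorem integrable_sig {f : Sph n → ℝ} (hf : Continuous f) : Integrable f (sig n) := by
  exact hf.integrable_of_hasCompactSupport (HasCompactSupport.of_compactSpace f)

/-- Bounded measurable functions are integrable on the sphere. -/
theorem integrable_sig_bdd {f : Sph n → ℝ} (hf : Measurable f) {C : ℝ} (hC : ∀ θ, |f θ| ≤ C) :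
    Integrable f (sig n) := by
  exact Integrable.of_bound hf.aestronglyMeasurable C (Filter.Eventually.of_forall hC)

/-- The homeomorphism of the sphere induced by a linear isometry. -/
noncomputable def Sphere_iso (e : E n ≃ₗᵢ[ℝ] E n) : Sph n ≃ₜ Sph n where
  toFun θ := ⟨e θ, by simp⟩
  invFun θ := ⟨e.symm θ, by simp⟩
  left_inv θ := by simp
  right_inv θ := by simp
  continuous_toFun := by fun_prop
  continuous_invFun := by fun_prop

theorem Sphere_iso_coe (e : E n ≃ₗᵢ[ℝ] E n) (θ : Sph n) : (Sphere_iso e θ : E n) = e θ := rfl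

theorem Sphere_iso_preserving (e : E n ≃ₗᵢ[ℝ] E n) :
    MeasurePreserving (Sphere_iso e) (sig n) (sig n) := by
  refine MeasurePreserving.smul_measure ⟨(Sphere_iso e).measurable, ?_⟩ _
  ext s hs
  rw [Measure.map_apply (Sphere_iso e).measurable hs,
    Measure.toSphere_apply' _ ((Sphere_iso e).measurable hs), Measure.toSphere_apply' _ hs]
  congr 1
  rw [← e.measurePreserving.measure_preimage_emb e.toHomeomorph.measurableEmbedding
    (Set.Ioo (0 : ℝ) 1 • (Subtype.val '' s : Set (E n)))]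
  congr 1
  ext x
  simp only [Set.mem_smul, Set.mem_image, Set.mem_preimage]
  constructor
  · rintro ⟨r, hr, _, ⟨θ, hθ, rfl⟩, rfl⟩
    exact ⟨r, hr, _, ⟨_, hθ, rfl⟩, by simp [Sphere_iso_coe]⟩
  · rintro ⟨r, hr, _, ⟨θ, hθ, rfl⟩, hx⟩
    refine ⟨r, hr, _, ⟨(Sphere_iso e).symm θ, by simpa using hθ, rfl⟩, ?_⟩
    apply e.injective
    rw [← hx, map_smul, ← Sphere_iso_coe]
    simp

/-- Invariance under linear isometries. -/
theorem integral_isom (R : E n ≃ₗᵢ[ℝ] E n) (h : E n → ℝ) :
    ∫ θ, h (R (θ : E n)) ∂sig n = ∫ θ, h (θ : E n) ∂sig n := by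
  exact (Sphere_iso_preserving R).integral_comp (Sphere_iso R).measurableEmbedding
    (fun θ : Sph n => h (θ : E n))

theorem Sphere_pos {a : E n} (ha : ‖a‖ = 1) : 0 < n := by
  rcases Nat.eq_zero_or_pos n with rfl | h
  · rw [Subsingleton.elim a 0] at ha; simp at ha
  · exact h

theorem zon_eq {a : E n} (ha : ‖a‖ = 1) (φ : ℝ → ℝ) :
    ∫ θ, φ ⟪a, (θ : E n)⟫ ∂sig n = zon n φ := by
  have h := Submodule.reflection_sub (ha.trans (norm_e0 (Sphere_pos ha)).symm)
  rw [zon, ← integral_isom (ℝ ∙ (a - e0 n))ᗮ.reflection fun x => φ ⟪e0 n, x⟫]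
  refine integral_congr_ae (Filter.Eventually.of_forall fun θ => ?_)
  have h2 := (ℝ ∙ (a - e0 n))ᗮ.reflection.inner_map_map a θ
  rw [h] at h2
  exact congrArg φ h2.symm

/-- Two orthonormal pairs have the same joint law. -/
theorem pair_eq {a e a' e' : E n} (ha : ‖a‖ = 1) (he : ‖e‖ = 1) (hae : ⟪a, e⟫ = 0)
    (ha' : ‖a'‖ = 1) (he' : ‖e'‖ = 1) (hae' : ⟪a', e'⟫ = 0) (F : ℝ → ℝ → ℝ) :
    ∫ θ, F ⟪a, (θ : E n)⟫ ⟪e, (θ : E n)⟫ ∂sig n =
      ∫ θ, F ⟪a', (θ : E n)⟫ ⟪e', (θ : E n)⟫ ∂sig n := by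
  set R := (ℝ ∙ (a - a'))ᗮ.reflection with hR
  have h1 : R a = a' := Submodule.reflection_sub (ha.trans ha'.symm)
  set S := (ℝ ∙ (R e - e'))ᗮ.reflection with hS
  have h2 : S (R e) = e' := Submodule.reflection_sub (by rw [R.norm_map, he, he'])
  have h3 : S a' = a' := by
    refine Submodule.reflection_mem_subspace_eq_self
      (Submodule.mem_orthogonal_singleton_iff_inner_left.2 ?_)
    rw [inner_sub_right, hae', ← h1, R.inner_map_map, hae, sub_zero]
  rw [← integral_isom (R.trans S) fun x => F ⟪a', x⟫ ⟪e', x⟫]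
  have h4 : (R.trans S) a = a' := by rw [LinearIsometryEquiv.trans_apply, h1, h3]
  have h5 : (R.trans S) e = e' := h2
  conv_rhs => simp only [← h4, ← h5, LinearIsometryEquiv.inner_map_map]

theorem Sphere_nontrivial (hn : 0 < n) : Nontrivial (E n) :=
  Module.nontrivial_of_finrank_pos (R := ℝ) (by simpa using hn)

theorem Sphere_mp : MeasurePreserving (homeomorphUnitSphereProd (E n))
    ((volume : Measure (E n)).comap (↑))
    ((volume : Measure (E n)).toSphere.prod (Measure.volumeIoiPow (n - 1))) := by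
  simpa using (volume : Measure (E n)).measurePreserving_homeomorphUnitSphereProd

theorem Sphere_pol (x : ({0}ᶜ : Set (E n))) : ((homeomorphUnitSphereProd (E n) x).2.1 : ℝ) •
    ((homeomorphUnitSphereProd (E n) x).1 : E n) = x.1 := by
  have := congrArg Subtype.val ((homeomorphUnitSphereProd (E n)).symm_apply_apply x)
  rwa [homeomorphUnitSphereProd_symm_apply_coe] at this

/-- Polar coordinates for the lower integral. -/
theorem lintegral_polar (hn : 0 < n) {F : E n → ℝ≥0∞} (hF : Measurable F) :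
    ∫⁻ x, F x = ENNReal.ofReal (n * kappa n) *
      ∫⁻ θ, (∫⁻ r in Ioi (0 : ℝ), ENNReal.ofReal (r ^ (n - 1)) * F (r • (θ : E n))) ∂sig n := by
  have := Sphere_nontrivial hn
  have m1 : Measurable fun w : Sph n × Ioi (0 : ℝ) => F (w.2.1 • (w.1 : E n)) :=
    hF.comp (by fun_prop : Continuous _).measurable
  have h1 := Sphere_mp.lintegral_comp m1
  simp only [Sphere_pol] at h1
  rw [lintegral_subtype_comap (measurableSet_singleton _).compl, restrict_compl_singleton] at h1
  rw [h1, lintegral_prod _ m1.aemeasurable, Sphere_eq hn, lintegral_smul_measure, smul_eq_mul]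
  congr 1
  refine lintegral_congr fun θ => ?_
  have m3 : Measurable fun r : Ioi (0 : ℝ) => F (r.1 • (θ : E n)) :=
    hF.comp (continuous_subtype_val.smul continuous_const).measurable
  rw [Measure.volumeIoiPow, lintegral_withDensity_eq_lintegral_mul _
    (measurable_subtype_coe.pow_const _).ennreal_ofReal m3]
  exact lintegral_subtype_comap (μ := volume) (measurableSet_Ioi (a := (0 : ℝ)))
    (fun r : ℝ => ENNReal.ofReal (r ^ (n - 1)) * F (r • (θ : E n)))

/-- Polar coordinates for the Bochner integral. -/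
theorem integral_polar (hn : 0 < n) {F : E n → ℝ} (hF : Integrable F) :
    ∫ x, F x = n * kappa n *
      ∫ θ, (∫ r in Ioi (0 : ℝ), r ^ (n - 1) * F (r • (θ : E n))) ∂sig n := by
  have := Sphere_nontrivial hn
  have hk := kappa_pos n
  have h1 := Sphere_mp.integral_comp (Homeomorph.measurableEmbedding _)
    fun w : Sph n × Ioi (0 : ℝ) => F (w.2.1 • (w.1 : E n))
  have h2 := Sphere_mp.integrable_comp_emb (Homeomorph.measurableEmbedding _)
    (g := fun w : Sph n × Ioi (0 : ℝ) => F (w.2.1 • (w.1 : E n)))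
  simp only [Sphere_pol, Function.comp_def] at h1 h2
  rw [integral_subtype_comap (measurableSet_singleton _).compl, restrict_compl_singleton] at h1
  have h3 := h2.1 ((integrableOn_iff_comap_subtypeVal (measurableSet_singleton _).compl).1
    hF.integrableOn)
  rw [h1, integral_prod _ h3, Sphere_eq hn, integral_smul_measure,
    ENNReal.toReal_ofReal (by positivity), smul_eq_mul]
  congr 1
  refine integral_congr_ae (Filter.Eventually.of_forall fun θ => ?_)
  simp only [Measure.volumeIoiPow, ENNReal.ofReal]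
  rw [integral_withDensity_eq_integral_smul (measurable_subtype_coe.pow_const _).real_toNNReal,
    integral_subtype_comap measurableSet_Ioi
      fun r : ℝ => Real.toNNReal (r ^ (n - 1)) • F (r • (θ : E n))]
  refine setIntegral_congr_fun measurableSet_Ioi fun x hx => ?_
  rw [NNReal.smul_def, Real.coe_toNNReal _ (pow_nonneg hx.out.le _), smul_eq_mul]

theorem Sphere_rad (hn : 0 < n) {ρ : ℝ} (hρ : 0 ≤ ρ) :
    ∫ r in Ioc (0 : ℝ) ρ, r ^ (n - 1) = ρ ^ n / n := by
  rw [← intervalIntegral.integral_of_le hρ, integral_pow, Nat.sub_add_cancel hn, Nat.cast_pred hn,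
    sub_add_cancel, zero_pow hn.ne', sub_zero]

theorem Sphere_lrad (hn : 0 < n) {ρ : ℝ} (hρ : 0 ≤ ρ) :
    ∫⁻ r in Ioc (0 : ℝ) ρ, ENNReal.ofReal (r ^ (n - 1)) = ENNReal.ofReal (ρ ^ n / n) := by
  rw [← Sphere_rad hn hρ,
    ofReal_integral_eq_lintegral_ofReal (intervalIntegral.intervalIntegrable_pow _).1]
  filter_upwards [ae_restrict_mem measurableSet_Ioc] with y hy
  exact pow_nonneg hy.1.le _

/-- A dilation invariant property that holds almost everywhere holds almost everywhere on the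
sphere. -/
theorem ae_sig_of_ae {P : E n → Prop} (hP : ∀ᵐ x : E n, P x)
    (hs : ∀ (r : ℝ) (x : E n), 0 < r → P (r • x) → P x) : ∀ᵐ θ : Sph n ∂sig n, P (θ : E n) := by
  rcases Nat.eq_zero_or_pos n with rfl | hn
  · exact Filter.Eventually.of_forall fun θ => absurd (Sphere_pos (norm_coe θ)) (lt_irrefl _)
  obtain ⟨A, hA1, hA2, hA3⟩ := exists_measurable_superset_of_null (ae_iff.1 hP)
  have h1 := lintegral_polar hn (F := A.indicator 1) (measurable_one.indicator hA2)
  have hk := kappa_pos n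
  rw [lintegral_indicator_one hA2, hA3, eq_comm, mul_eq_zero, ENNReal.ofReal_eq_zero,
    or_iff_right (not_le.2 (by positivity)), lintegral_eq_zero_iff] at h1
  · filter_upwards [h1] with θ hθ
    by_contra hc
    have h2 : ∫⁻ r in Ioc (0 : ℝ) 1, ENNReal.ofReal (r ^ (n - 1)) ≤ ∫⁻ r in Ioi (0 : ℝ),
        ENNReal.ofReal (r ^ (n - 1)) * A.indicator 1 (r • (θ : E n)) := by
      refine le_trans (lintegral_mono_set Ioc_subset_Ioi_self) (le_of_eq ?_)
      refine setLIntegral_congr_fun measurableSet_Ioi fun r hr => ?_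
      rw [indicator_of_mem (hA1 fun h => hc (hs r _ hr h)), Pi.one_apply, mul_one]
    rw [Sphere_lrad hn zero_le_one, hθ, Pi.zero_apply, nonpos_iff_eq_zero, ENNReal.ofReal_eq_zero,
      ← not_lt] at h2
    exact h2 (by positivity)
  · refine Measurable.lintegral_prod_right (f := fun (θ : Sph n) (r : ℝ) =>
      ENNReal.ofReal (r ^ (n - 1)) * A.indicator 1 (r • (θ : E n))) ?_
    exact (measurable_snd.pow_const _).ennreal_ofReal.mul ((measurable_one.indicator hA2).comp
      (by fun_prop : Continuous fun w : Sph n × ℝ => w.2 • (w.1 : E n)).measurable)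

/-- Upper bound for the volume of a set by a radial function. -/
theorem volume_le_radial (hn : 0 < n) {A : Set (E n)} (hA : MeasurableSet A) {ρ : Sph n → ℝ}
    (hρ : Measurable ρ) (h0 : ∀ θ, 0 ≤ ρ θ) {C : ℝ} (hC : ∀ θ, ρ θ ≤ C)
    (h : ∀ᵐ θ : Sph n ∂sig n, ∀ r : ℝ, 0 < r → r • (θ : E n) ∈ A → r ≤ ρ θ) :
    volume A ≤ ENNReal.ofReal (kappa n * ∫ θ, ρ θ ^ n ∂sig n) := by
  have hk := kappa_pos n
  have hn' : (0 : ℝ) < n := by exact_mod_cast hn
  have hi : Integrable (fun θ => ρ θ ^ n / n) (sig n) :=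
    (integrable_sig_bdd (hρ.pow_const n) (C := C ^ n) fun θ => by
      rw [abs_of_nonneg (pow_nonneg (h0 θ) _)]
      exact pow_le_pow_left₀ (h0 θ) (hC θ) _).div_const _
  rw [← lintegral_indicator_one hA, lintegral_polar hn (measurable_one.indicator hA),
    show kappa n * ∫ θ, ρ θ ^ n ∂sig n = n * kappa n * ∫ θ, ρ θ ^ n / n ∂sig n by
      rw [integral_div]; field_simp,
    ENNReal.ofReal_mul (p := n * kappa n) (by positivity),
    ofReal_integral_eq_lintegral_ofReal hi
      (Filter.Eventually.of_forall fun θ => div_nonneg (pow_nonneg (h0 θ) _) hn'.le)]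
  refine mul_le_mul_right (lintegral_mono_ae ?_) _
  filter_upwards [h] with θ hθ
  rw [← Sphere_lrad hn (h0 θ), ← Ioi_inter_Iic, inter_comm,
    ← Measure.restrict_restrict measurableSet_Iic, ← lintegral_indicator measurableSet_Iic]
  refine setLIntegral_mono' measurableSet_Ioi fun r hr => ?_
  by_cases hr' : r • (θ : E n) ∈ A
  · rw [indicator_of_mem hr', indicator_of_mem (mem_Iic.2 (hθ r hr hr')), Pi.one_apply, mul_one]
  · rw [indicator_of_notMem hr', mul_zero]; exact zero_le

/-- Integral of a dilation invariant function over a star body. -/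
theorem setIntegral_star (hn : 0 < n) {A : Set (E n)} (hA : MeasurableSet A) {ρ : Sph n → ℝ}
    (hρ : Measurable ρ) (h0 : ∀ θ, 0 ≤ ρ θ) {C : ℝ} (hC : ∀ θ, ρ θ ≤ C)
    (h : ∀ (θ : Sph n) (r : ℝ), 0 < r → (r • (θ : E n) ∈ A ↔ r ≤ ρ θ))
    {F : E n → ℝ} (hF : Measurable F) {B : ℝ} (hB : ∀ x, |F x| ≤ B)
    (hh : ∀ (r : ℝ) (x : E n), 0 < r → F (r • x) = F x) :
    ∫ x in A, F x = kappa n * ∫ θ, F θ * ρ θ ^ n ∂sig n := by
  have hn' : (0 : ℝ) < n := by exact_mod_cast hn
  have hv := volume_le_radial hn hA hρ h0 hC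
    (Filter.Eventually.of_forall fun θ r hr => (h θ r hr).1)
  have hi : IntegrableOn F A := Measure.integrableOn_of_bounded (M := B)
    (hv.trans_lt ENNReal.ofReal_lt_top).ne hF.aestronglyMeasurable
    (Filter.Eventually.of_forall hB)
  rw [← integral_indicator hA, integral_polar hn ((integrable_indicator_iff hA).2 hi)]
  have e : ∀ θ : Sph n, ∫ r in Ioi (0 : ℝ), r ^ (n - 1) * A.indicator F (r • (θ : E n)) =
      F θ * ρ θ ^ n / n := fun θ => by
    rw [mul_div_assoc, ← Sphere_rad hn (h0 θ), ← integral_const_mul, ← Ioi_inter_Iic,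
      ← setIntegral_indicator measurableSet_Iic]
    refine setIntegral_congr_fun measurableSet_Ioi fun r hr => ?_
    by_cases hr' : r • (θ : E n) ∈ A
    · rw [indicator_of_mem hr', indicator_of_mem (mem_Iic.2 ((h θ r hr).1 hr')), hh r _ hr,
        mul_comm]
    · rw [indicator_of_notMem hr',
        indicator_of_notMem (s := Iic (ρ θ)) fun h' => hr' ((h θ r hr).2 h'), mul_zero]
  simp only [e, integral_div]
  field_simp

theorem Sphere_unit (hn : 0 < n) (a : E n) : ∃ u : E n, ‖u‖ = 1 ∧ a = ‖a‖ • u := by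
  by_cases h : a = 0
  · exact ⟨e0 n, norm_e0 hn, by simp [h]⟩
  · have := norm_ne_zero_iff.2 h
    exact ⟨‖a‖⁻¹ • a, by simp [norm_smul, this], by simp [smul_smul, this]⟩

theorem Sphere_zon_sq (hn : 0 < n) : zon n (fun t => t ^ 2) = 1 / n := by
  have := sig_prob hn
  have hn' : (0 : ℝ) < n := by exact_mod_cast hn
  set b := EuclideanSpace.basisFun (Fin n) ℝ
  have h1 : ∫ θ, ∑ i, ⟪b i, (θ : E n)⟫ ^ 2 ∂sig n = 1 := by
    simp only [b.sum_sq_inner_right, norm_coe]
    simp
  rw [integral_finsetSum _ fun i _ => integrable_sig (by fun_prop)] at h1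
  simp only [fun i => zon_eq (b.orthonormal.1 i) fun t => t ^ 2] at h1
  rw [eq_div_iff hn'.ne', mul_comm]
  simpa using h1

/-- Second moment of a linear form. -/
theorem integral_inner_sq (hn : 0 < n) (a : E n) :
    ∫ θ, ⟪a, (θ : E n)⟫ ^ 2 ∂sig n = ‖a‖ ^ 2 / n := by
  obtain ⟨u, hu, h⟩ := Sphere_unit hn a
  have e : ∀ θ : Sph n, ⟪a, (θ : E n)⟫ ^ 2 = ‖a‖ ^ 2 * ⟪u, (θ : E n)⟫ ^ 2 := fun θ => by
    conv_lhs => rw [h, real_inner_smul_left, mul_pow]
  simp only [e]
  rw [integral_const_mul, zon_eq hu fun t => t ^ 2, Sphere_zon_sq hn, mul_one_div]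

theorem integral_abs_inner (hn : 0 < n) (a : E n) :
    ∫ θ, |⟪a, (θ : E n)⟫| ∂sig n = c0 n * ‖a‖ := by
  obtain ⟨u, hu, h⟩ := Sphere_unit hn a
  have e : ∀ θ : Sph n, |⟪a, (θ : E n)⟫| = ‖a‖ * |⟪u, (θ : E n)⟫| := fun θ => by
    conv_lhs => rw [h, real_inner_smul_left, abs_mul, abs_norm]
  simp only [e]
  rw [integral_const_mul, zon_eq hu fun t => |t|, c0, mul_comm]

theorem c0_pos (hn : 0 < n) : 0 < c0 n := by
  have h : zon n (fun t => t ^ 2) ≤ c0 n := by
    refine integral_mono (integrable_sig (by fun_prop)) (integrable_sig (by fun_prop)) fun θ => ?_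
    have h1 := abs_real_inner_le_norm (e0 n) (θ : E n)
    rw [norm_e0 hn, norm_coe, mul_one] at h1
    simp only
    rw [← sq_abs]
    nlinarith [abs_nonneg ⟪e0 n, (θ : E n)⟫]
  rw [Sphere_zon_sq hn] at h
  exact lt_of_lt_of_le (by positivity) h

theorem Sphere_openPos : (sig n).IsOpenPosMeasure :=
  Measure.isOpenPosMeasure_smul _ (ENNReal.inv_ne_zero.2 (measure_ne_top _ _))

/-- A continuous function with zero variance is constant on the sphere. -/
theorem const_of_var {f : E n → ℝ} (hf : Continuous f) (hn : 0 < n)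
    (h : ip f f = av f ^ 2) (a b : Sph n) : f a = f b := by
  have := sig_prob hn
  have := Sphere_openPos (n := n)
  have hc : Continuous fun θ : Sph n => (f θ - av f) ^ 2 := by fun_prop
  have h1 : ∫ θ, (f (θ : E n) - av f) ^ 2 ∂sig n = 0 := by
    have e : ∀ θ : Sph n, (f θ - av f) ^ 2 = f θ * f θ - 2 * av f * f θ + av f ^ 2 := fun θ => by
      ring
    simp only [e]
    rw [integral_add (integrable_sig (by fun_prop)) (integrable_const _),
      integral_sub (integrable_sig (by fun_prop)) (integrable_sig (by fun_prop)),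
      integral_const_mul, integral_const]
    change ip f f - 2 * av f * av f + _ = 0
    rw [h]; simp; ring
  rw [integral_eq_zero_iff_of_nonneg (fun θ => sq_nonneg _) (integrable_sig hc),
    hc.ae_eq_iff_eq _ continuous_zero] at h1
  have h2 : ∀ θ : Sph n, f θ = av f := fun θ =>
    sub_eq_zero.1 (pow_eq_zero_iff two_ne_zero |>.1 (congrFun h1 θ))
  rw [h2, h2]

/-- Continuity of zonal integral operators. -/
theorem continuous_Tk {κ : ℝ → ℝ} (hκ : Continuous κ) {f : E n → ℝ} (hf : Continuous f) :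
    Continuous (Tk κ f) := by
  have h := continuous_parametric_integral_of_continuous (μ := sig n)
    (f := fun (a : E n) (θ : Sph n) => κ ⟪a, (θ : E n)⟫ * f θ) (by fun_prop) isCompact_univ
  simp only [Measure.restrict_univ] at h
  exact h

end Vale.Agent.P237
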