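import Mathlib

open MeasureTheory Metric
open scoped RealInnerProductSpace

namespace Vale.Agent.P237.Stmt

section General

variable {V : Type} [NormedAddCommGroup V] [InnerProductSpace ℝ V] [FiniteDimensional ℝ V]
  [MeasurableSpace V] [BorelSpace V]

/-- The Euclidean volume of a subset of a finite dimensional inner product space. -/
noncomputable def euVol (A : Set V) : ℝ := (volume A).toReal

omit [MeasurableSpace V] [BorelSpace V] in
/-- The orthogonal projection of `K` onto the subspace `W`, as a subset of `W`. -/
noncomputable def projOnto (W : Submodule ℝ V) (K : Set V) : Set W :=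
  W.orthogonalProjectionOnto '' K

/-- The volume, inside the subspace `W`, of the orthogonal projection of `K` onto `W`. -/
noncomputable def shadow (W : Submodule ℝ V) (K : Set V) : ℝ := euVol (projOnto W K)

/-- The projection body: the convex body whose support function at each unit vector `u` is the
volume of the projection of `K` onto the hyperplane orthogonal to `u`, written as the
intersection of its supporting half-spaces. -/
def projectionBody (K : Set V) : Set V :=
  {x | ∀ u : V, ‖u‖ = 1 → ⟪x, u⟫ ≤ shadow (ℝ ∙ u)ᗮ K}

end General

/-- Euclidean space of dimension `n`. -/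
abbrev Euc (n : ℕ) : Type := EuclideanSpace ℝ (Fin n)

/-- Volume in dimension `n`. -/
noncomputable def volE {n : ℕ} (A : Set (Euc n)) : ℝ := euVol A

/-- The projection body in dimension `n`. -/
def projE {n : ℕ} (K : Set (Euc n)) : Set (Euc n) := projectionBody K

/-- The volume of the Euclidean unit ball of dimension `m`. -/
noncomputable def ballVol (m : ℕ) : ℝ := volE (closedBall (0 : Euc m) 1)

/-- A convex body: a compact convex set with nonempty interior. -/
def IsBody {n : ℕ} (K : Set (Euc n)) : Prop :=
  IsCompact K ∧ Convex ℝ K ∧ (interior K).Nonempty

/-- An ellipsoid: a translate of an invertible linear image of the Euclidean unit ball. -/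
def IsEll {n : ℕ} (K : Set (Euc n)) : Prop :=
  ∃ (a : Euc n) (T : Euc n ≃ₗ[ℝ] Euc n), K = (fun x => a + T x) '' closedBall 0 1

end Vale.Agent.P237.Stmt
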