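import Vale.Agent.P237.OneNorm
import Vale.Agent.P237.Cauchy

open MeasureTheory Metric Set Filter Topology
open scoped RealInnerProductSpace Pointwise ENNReal NNReal

namespace Vale.Agent.P237

section Scalar

open Finset

/-- The scalar inequality for `d = 1` with a loss depending on the degree. -/
theorem scalar_gen {M : ℕ} {a z c β' γ : ℕ → ℝ} {Q η m0 v : ℝ}
    (ha : ∀ m, 0 ≤ a m) (hγ : ∀ m, 0 ≤ γ m) (hc : ∀ m, 1 ≤ m → 0 ≤ c m) (hm0 : 0 < m0)
    (hη : 0 ≤ η) (hQ : 0 ≤ Q) (hQη : 1 / 4 + η * Q + η ^ 2 * Q ^ 2 ≤ 2 * η)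
    (hR : Q / 2 + η * Q ^ 2 < 1)
    (hv0 : 0 ≤ v)
    (hv : v * (1 - ∑ m ∈ Icc 1 M, c m * a m) ≤ 1 - ∑ m ∈ Icc 1 M, z m * a m)
    (hw : 0 ≤ 1 - ∑ m ∈ Icc 1 M, z m * a m)
    (hap : ∑ m ∈ Icc 1 M, β' m * a m ≤ 1) (hβ' : 0 ≤ β' 1)
    (hQ' : ∀ m, 2 ≤ m → γ m ≤ Q * β' m)
    (h1 : m0 ≤ z 1 - c 1)
    (h2 : ∀ m, 2 ≤ m → m0 + γ m / 2 ≤ z m - c m)
    (h3 : ∀ m, 2 ≤ m → m0 + γ m * (1 / 2 + Q * η) ≤ z m - (1 - Q / 2) * c m) :
    v ^ 2 + (m0 * ∑ m ∈ Icc 1 M, a m) ^ 2 + ∑ m ∈ Icc 2 M, γ m * a m ≤ 1 := by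
  have hG := sum_gam_le ha hQ hap hβ' hQ'
  have hG0 : 0 ≤ ∑ m ∈ Icc 2 M, γ m * a m := sum_nonneg fun m _ => mul_nonneg (hγ m) (ha m)
  have hV0 : 0 ≤ ∑ m ∈ Icc 1 M, a m := sum_nonneg fun m _ => ha m
  have hS0 : 0 ≤ ∑ m ∈ Icc 1 M, c m * a m :=
    sum_nonneg fun m hm => mul_nonneg (hc m (mem_Icc.1 hm).1) (ha m)
  have hVS : ∑ m ∈ Icc 1 M, a m = 0 → ∑ m ∈ Icc 1 M, c m * a m = 0 := by
    intro h
    rw [sum_eq_zero_iff_of_nonneg fun m _ => ha m] at h
    exact sum_eq_zero fun m hm => by rw [h m hm, mul_zero]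
  obtain ⟨P, hP⟩ : ∃ P, P = ∑ m ∈ Icc 1 M,
    max 0 (η * (if 2 ≤ m then γ m else 0) - c m / 2) * a m := ⟨_, rfl⟩
  have hP0 : 0 ≤ P := hP ▸ sum_nonneg fun m _ => mul_nonneg (le_max_left _ _) (ha m)
  have hP1 : η * ∑ m ∈ Icc 2 M, γ m * a m - (∑ m ∈ Icc 1 M, c m * a m) / 2 ≤ P := by
    rw [hP, sum_Icc_two, mul_sum, sum_div, ← sum_sub_distrib]
    refine sum_le_sum fun m _ => ?_
    have := mul_le_mul_of_nonneg_right
      (le_max_right 0 (η * (if 2 ≤ m then γ m else 0) - c m / 2)) (ha m)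
    refine le_trans (le_of_eq ?_) this
    split_ifs <;> ring
  have hP2 : m0 * ∑ m ∈ Icc 1 M, a m + (∑ m ∈ Icc 2 M, γ m * a m) / 2 + Q * P ≤
      ∑ m ∈ Icc 1 M, z m * a m - ∑ m ∈ Icc 1 M, c m * a m := by
    rw [hP, sum_Icc_two, mul_sum, mul_sum, sum_div, ← sum_sub_distrib,
      ← sum_add_distrib, ← sum_add_distrib]
    refine sum_le_sum fun m hm => ?_
    have hm1 := (mem_Icc.1 hm).1
    have key : m0 + (if 2 ≤ m then γ m else 0) / 2 +
        Q * max 0 (η * (if 2 ≤ m then γ m else 0) - c m / 2) ≤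
        z m - c m := by
      split_ifs with h
      · have k2 := h2 m h
        have k3 := h3 m h
        rcases le_total 0 (η * γ m - c m / 2) with h' | h'
        · rw [max_eq_right h']
          linarith
        · rw [max_eq_left h']
          linarith
      · have : m = 1 := by omega
        subst this
        have : 0 ≤ c 1 := hc 1 le_rfl
        rw [max_eq_left (by linarith)]
        linarith
    have := mul_le_mul_of_nonneg_right key (ha m)
    refine le_trans (le_of_eq ?_) (this.trans (le_of_eq (by ring)))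
    split_ifs <;> ring
  generalize ∑ m ∈ Icc 2 M, γ m * a m = G at *
  generalize ∑ m ∈ Icc 1 M, a m = V at *
  generalize ∑ m ∈ Icc 1 M, c m * a m = S at *
  generalize ∑ m ∈ Icc 1 M, z m * a m = A at *
  obtain ⟨C, hC⟩ : ∃ C, C = S := ⟨_, rfl⟩
  have hC0 : 0 ≤ C := hC ▸ hS0
  have hVC : V = 0 → C = 0 := fun h => by rw [hC, hVS h]
  rw [← hC] at hv hP1 hP2
  have hGG : η * G ^ 2 ≤ η * Q ^ 2 :=
    mul_le_mul_of_nonneg_left (pow_le_pow_left₀ hG0 hG 2) hη
  obtain ⟨R, hRd⟩ : ∃ R, R = 1 - G / 2 - η * G ^ 2 := ⟨_, rfl⟩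
  have hR0 : 0 < R := by linarith
  have hR2 : R ^ 2 ≤ 1 - G := by
    have k1 : η * G ≤ η * Q := mul_le_mul_of_nonneg_left hG hη
    have k2 : η ^ 2 * G ^ 2 ≤ η ^ 2 * Q ^ 2 :=
      mul_le_mul_of_nonneg_left (pow_le_pow_left₀ hG0 hG 2) (sq_nonneg _)
    have k3 : 0 ≤ G ^ 2 * (2 * η - 1 / 4 - η * G - η ^ 2 * G ^ 2) :=
      mul_nonneg (sq_nonneg _) (by linarith)
    have e : R ^ 2 = 1 - G - G ^ 2 * (2 * η - 1 / 4 - η * G - η ^ 2 * G ^ 2) := by
      rw [hRd]; ring
    linarith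
  have hmV : 0 ≤ m0 * V := mul_nonneg hm0.le hV0
  have hmain : 1 - A ≤ (1 - C) * R - m0 * V := by
    have k1 : G * (η * G - C / 2) ≤ G * P := mul_le_mul_of_nonneg_left hP1 hG0
    have k2 : G * P ≤ Q * P := mul_le_mul_of_nonneg_right hG hP0
    have k3 : 0 ≤ C * (η * G ^ 2) := mul_nonneg hC0 (mul_nonneg hη (sq_nonneg _))
    have e : (1 - C) * R = 1 - G / 2 - C - G * (η * G - C / 2) + C * (η * G ^ 2) := by
      rw [hRd]; ring
    linarith
  have hC1 : C < 1 := by
    by_contra hh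
    push Not at hh
    have k1 : (1 - C) * R ≤ 0 := mul_nonpos_of_nonpos_of_nonneg (by linarith) hR0.le
    have k2 : m0 * V = 0 := by linarith
    have k3 := hVC ((mul_eq_zero.1 k2).resolve_left hm0.ne')
    linarith
  have hRv : 0 ≤ R - v := by
    by_contra hh
    push Not at hh
    have := mul_pos_of_neg_of_neg hh (show C - 1 < 0 by linarith)
    nlinarith
  have hfin : v + m0 * V ≤ R := by
    have := mul_nonneg hRv hC0
    nlinarith
  have k1 : (v + m0 * V) ^ 2 ≤ R ^ 2 := pow_le_pow_left₀ (by linarith) hfin 2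
  have k2 := mul_nonneg hv0 hmV
  nlinarith

end Scalar

variable {n : ℕ}

/-- Reverse Hoelder inequality with a general weight. -/
theorem rev_holder_gen (hn : 0 < n) {f z : E n → ℝ} (hf : Continuous f) (hz : Continuous z)
    (hp : ∀ θ : Sph n, 0 < f θ) (hz1 : ∀ θ : Sph n, z θ ≤ 1) (h1 : av f = 1)
    {q : ℝ} (hq : 0 < q) :
    (∫ θ, f (θ : E n) ^ (-q) ∂sig n) ^ (-(1 / q)) *
        ((∫ θ, (1 - z (θ : E n)) ^ (q / (q + 1)) ∂sig n) - (1 - q / (q + 1))) ≤
      q / (q + 1) * (1 - ip z f) ∧ 0 ≤ 1 - ip z f := by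
  have := sig_prob hn
  have hq1 : 0 < q + 1 := by linarith
  have hα0 : 0 < q / (q + 1) := div_pos hq hq1
  have hα1 : q / (q + 1) < 1 := (div_lt_one hq1).2 (by linarith)
  have hα2 : 1 - q / (q + 1) = 1 / (q + 1) := by field_simp; ring
  have hcf : Continuous fun θ : Sph n => f θ ^ (-q) :=
    (hf.comp continuous_subtype_val).rpow_const fun θ => Or.inl (hp θ).ne'
  have hI := on_int_pos hn hcf fun θ => Real.rpow_pos_of_pos (hp θ) _
  set I := ∫ θ : Sph n, f (θ : E n) ^ (-q) ∂sig n with hId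
  set v := I ^ (-(1 / q)) with hvd
  have hv : 0 < v := Real.rpow_pos_of_pos hI _
  have hvq : v ^ q * I = 1 := by
    rw [hvd, ← Real.rpow_mul hI.le, show -(1 / q) * q = -1 by field_simp, Real.rpow_neg_one,
      inv_mul_cancel₀ hI.ne']
  set α := q / (q + 1) with hαd
  have young : ∀ (w : ℝ) (θ : Sph n), 0 ≤ w →
      w ^ α ≤ α / v * (w * f θ) + (1 - α) * v ^ q * f θ ^ (-q) := by
    intro w θ hw
    have hfp := hp θ
    have k1 := Real.geom_mean_le_arith_mean2_weighted (w₁ := α) (w₂ := 1 - α)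
      (p₁ := w * (f θ / v)) (p₂ := (f θ / v) ^ (-q)) hα0.le (by linarith) (by positivity)
      (by positivity) (by ring)
    have k2 : (w * (f θ / v)) ^ α * ((f θ / v) ^ (-q)) ^ (1 - α) = w ^ α := by
      rw [Real.mul_rpow hw (by positivity), ← Real.rpow_mul (by positivity), mul_assoc,
        ← Real.rpow_add (by positivity), hα2, show α + -q * (1 / (q + 1)) = 0 by
          rw [hαd]; ring, Real.rpow_zero, mul_one]
    have k3 : (f θ / v) ^ (-q) = v ^ q * f θ ^ (-q) := by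
      rw [Real.div_rpow hfp.le hv.le, Real.rpow_neg hv.le, div_inv_eq_mul, mul_comm]
    rw [k2, k3] at k1
    refine k1.trans (le_of_eq ?_)
    ring
  have hif : Integrable (fun θ : Sph n => f θ) (sig n) := integrable_sig (by fun_prop)
  have hiyf : Integrable (fun θ : Sph n => z θ * f θ) (sig n) := integrable_sig (by fun_prop)
  have hiq := integrable_sig hcf
  have hW : ∫ θ : Sph n, (f θ - z θ * f θ) ∂sig n = 1 - ip z f := by
    rw [integral_sub hif hiyf]
    unfold av at h1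
    rw [h1]
    rfl
  refine ⟨?_, ?_⟩
  · have k1 : ∫ θ : Sph n, (1 - z θ) ^ α ∂sig n ≤
        ∫ θ : Sph n, (α / v * (f θ - z θ * f θ) + (1 - α) * v ^ q * f θ ^ (-q)) ∂sig n := by
      refine integral_mono (integrable_sig ?_)
        (((hif.sub hiyf).const_mul _).add (hiq.const_mul _)) fun θ => ?_
      · exact (continuous_const.sub (hz.comp continuous_subtype_val)).rpow_const
          fun _ => Or.inr hα0.le
      · have k2 := young (1 - z θ) θ (by linarith [hz1 θ])
        simp only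
        refine k2.trans (le_of_eq ?_)
        ring
    rw [integral_add ((hif.sub' hiyf).const_mul _) (hiq.const_mul _),
      integral_const_mul, integral_const_mul, hW, ← hId, mul_assoc (1 - α), hvq] at k1
    have k2 : v * (α / v * (1 - ip z f)) = α * (1 - ip z f) := by field_simp
    have k3 := mul_le_mul_of_nonneg_left k1 hv.le
    nlinarith
  · rw [← hW]
    refine integral_nonneg fun θ => ?_
    have := mul_nonneg (show 0 ≤ 1 - z θ by linarith [hz1 θ]) (hp θ).le
    simp only [Pi.zero_apply]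
    linarith

theorem c0_three : c0 3 = 1 / 2 := by
  rw [c0_eq (by norm_num)]
  have h2 : kappa (3 - 1) = Real.pi := by
    unfold kappa
    rw [show 3 - 1 = 2 from rfl, EuclideanSpace.volume_closedBall_fin_two]
    simp [Real.pi_pos.le]
  have h3 : kappa 3 = Real.pi * 4 / 3 := by
    unfold kappa
    rw [EuclideanSpace.volume_closedBall_fin_three]
    simp only [ENNReal.ofReal_one, one_pow, one_mul]
    rw [ENNReal.toReal_ofReal (by positivity)]
  rw [h2, h3]
  have := Real.pi_pos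
  field_simp
  norm_num

theorem zon_three (p : ℕ) : zon 3 (fun t => |t| ^ p) = 1 / ((p : ℝ) + 1) := by
  induction p using Nat.twoStepInduction with
  | zero => simp [zon_const (n := 3) (by norm_num)]
  | one =>
    have := c0_three
    unfold c0 at this
    simp only [pow_one, this]
    norm_num
  | more p h _ =>
    rw [zon_abs_pow_succ (by norm_num), h]
    push_cast
    field_simp
    ring

theorem zon_three_even (j : ℕ) : zon 3 (fun t => t ^ (2 * j)) = 1 / (2 * (j : ℝ) + 1) := by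
  have := zon_three (2 * j)
  simp only [on_abs_pow] at this
  rw [this]
  push_cast
  ring

/-- The exact Jensen constant in dimension three. -/
noncomputable def t3 (j : ℕ) : ℝ := (2 * (j : ℝ) + 1) / (2 * (j : ℝ) + 2)

theorem t3_lt (j : ℕ) : t3 j < 1 := by
  unfold t3
  rw [div_lt_one (by positivity)]
  linarith

theorem t3_div (j : ℕ) : t3 j / (1 - t3 j) = 2 * (j : ℝ) + 1 := by
  have : 1 - t3 j = 1 / (2 * (j : ℝ) + 2) := by
    unfold t3; field_simp; ring
  rw [this]
  unfold t3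
  field_simp

theorem jensen_three {N : E 3 → ℝ} (hN : IsNorm N) (j : ℕ) {a : E 3} (ha : ‖a‖ = 1) :
    t3 j * N a ≤ Aop j N a := by
  have h1 := on_reflect hN j 1 ha (fun x y z _ _ _ h => by simpa using h)
  simp only [pow_one] at h1
  rw [zon_three] at h1
  unfold Aop t3
  rw [zon_three_even, inv_div, div_one]
  push_cast at h1
  have h2 := mul_le_mul_of_nonneg_left h1 (show (0 : ℝ) ≤ 2 * j + 1 by positivity)
  refine le_trans (le_of_eq ?_) h2
  field_simp
  ring

/-- A nonnegative kernel gives a nonnegative form on nonnegative functions. -/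
theorem copos {g : E 3 → ℝ} (hg : Continuous g) (h0 : ∀ x, 0 ≤ g x) {k : Fin 8 → ℝ}
    (hk : ∀ t : ℝ, |t| ≤ 1 → 0 ≤ ∑ i : Fin 8, k i * t ^ (2 * (i : ℕ))) :
    0 ≤ ∑ i : Fin 8, k i / (2 * ((i : ℕ) : ℝ) + 1) * ip g (Aop i g) := by
  have e1 : ∀ i : Fin 8, k i / (2 * ((i : ℕ) : ℝ) + 1) * ip g (Aop i g) =
      ∫ θ : Sph 3, g θ * (k i * Tk (fun t => t ^ (2 * (i : ℕ))) g θ) ∂sig 3 := by
    intro i
    unfold ip Aop
    rw [zon_three_even, ← integral_const_mul]
    congr 1
    funext θ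
    field_simp
  have hT : ∀ i : Fin 8, Continuous (Tk (fun t => t ^ (2 * (i : ℕ))) g) := fun i =>
    continuous_Tk (by fun_prop) hg
  simp only [e1]
  rw [← integral_finsetSum _ fun i _ => integrable_sig (by have := hT i; fun_prop)]
  refine integral_nonneg fun θ => ?_
  simp only [Pi.zero_apply, ← Finset.mul_sum]
  refine mul_nonneg (h0 _) ?_
  simp only [Tk, ← integral_const_mul]
  rw [← integral_finsetSum _ fun i _ => integrable_sig (by fun_prop)]
  refine integral_nonneg fun η => ?_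
  simp only [Pi.zero_apply, ← mul_assoc, ← Finset.sum_mul]
  refine mul_nonneg (hk _ ?_) (h0 _)
  have := abs_real_inner_le_norm (θ : E 3) (η : E 3)
  rwa [norm_coe, norm_coe, one_mul] at this

theorem parseval_pair {ι : Type*} (s : Finset ι) (α β : ι → ℝ) {F G : ι → E n → ℝ}
    (hF : ∀ m, Continuous (F m)) (hG : ∀ m, Continuous (G m))
    (ho : ∀ m ∈ s, ∀ l ∈ s, l ≠ m → ip (G l) (F m) = 0)
    {u v : E n → ℝ} (hv' : Continuous v) (hu : ∀ x, u x = ∑ m ∈ s, α m * F m x)
    (hv : ∀ x, v x = ∑ m ∈ s, β m * G m x) :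
    ip u v = ∑ m ∈ s, α m * β m * ip (F m) (G m) := by
  have h : ∀ w : E n → ℝ, ip (fun _ => 0) w = 0 := fun w => by simp [ip]
  rw [fk_ip_sum s α hF continuous_const hv' fun x _ => (hu x).trans (zero_add _).symm, h, zero_add]
  refine Finset.sum_congr rfl fun m hm => ?_
  rw [fk_comm, fk_ip_sum s β hG continuous_const (hF m) fun x _ => (hv x).trans (zero_add _).symm,
    h, zero_add, Finset.sum_eq_single_of_mem m hm fun l hl h' => by rw [ho m hm l hl h', mul_zero],
    mul_assoc, fk_comm]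

/-- The pieces of the decomposition of a function. -/
noncomputable def piece (D : ℕ) (f : E n → ℝ) (m : ℕ) : E n → ℝ :=
  if m ≤ D then comp m f else rest D f

theorem piece_cont {f : E n → ℝ} (hf : Continuous f) (D m : ℕ) : Continuous (piece D f m) := by
  simp only [piece]
  split_ifs
  exacts [continuous_comp hf m, continuous_rest hf D]

theorem piece_orth (hn : 2 ≤ n) {f g : E n → ℝ} (hf : Continuous f) (hg : Continuous g) (D : ℕ) :
    ∀ m ∈ Finset.range (D + 2), ∀ l ∈ Finset.range (D + 2), l ≠ m →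
      ip (piece D g l) (piece D f m) = 0 := fun m hm l hl h => by
  simp only [piece]
  split_ifs with h2 h3 h3
  · rw [fk_comp_comp hn hg hf, if_neg h]
  · rw [fk_comm, fk_rest_comp hn hf hg h2]
  · exact fk_rest_comp hn hg hf h3
  · simp at hm hl
    omega

theorem piece_sum (D : ℕ) (f : E n → ℝ) (c : ℕ → ℝ) (x : E n) :
    ∑ m ∈ Finset.range (D + 2), c m * piece D f m x =
      ∑ m ∈ Finset.range (D + 1), c m * comp m f x + c (D + 1) * rest D f x := by
  rw [Finset.sum_range_succ, Finset.sum_congr rfl fun m hm => by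
    rw [show piece D f m = comp m f from if_pos (Nat.lt_succ_iff.1 (Finset.mem_range.1 hm))]]
  simp [piece]

theorem piece_zero (hn : 2 ≤ n) (D : ℕ) (f : E n → ℝ) (x : E n) : piece D f 0 x = av f := by
  simp [piece, comp_zero hn]

theorem piece_self (D : ℕ) (f : E n → ℝ) (x : E n) :
    f x = ∑ m ∈ Finset.range (D + 2), 1 * piece D f m x := by
  rw [piece_sum D f fun _ => 1, one_mul, add_comm, ← fk_split]

theorem piece_Aop (hn : 2 ≤ n) {f : E n → ℝ} (hf : Continuous f) {j D : ℕ} (hj : j ≤ D)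
    (x : E n) : Aop j f x = ∑ m ∈ Finset.range (D + 2), rho n j m * piece D f m x := by
  rw [piece_sum, rho_eq_zero (Nat.lt_succ_of_le hj), zero_mul, add_zero, fk_Aop hn hf hj]

/-- Spectral data of a pair of functions. -/
theorem spectral_pair (hn : 2 ≤ n) {f g : E n → ℝ} (hf : Continuous f) (hg : Continuous g)
    (h1 : av f = 1) (D : ℕ) :
    ∃ a x b : ℕ → ℝ, (∀ m, 0 ≤ a m) ∧ (∀ m, 0 ≤ b m) ∧ (∀ m, x m ^ 2 ≤ a m * b m) ∧
      (∀ m, m ≤ D → a m = ip (comp m f) (comp m f)) ∧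
      ∑ m ∈ Finset.Icc 1 (D + 1), a m = ip f f - 1 ∧
      ∑ m ∈ Finset.Icc 1 (D + 1), b m = ip g g - av g ^ 2 ∧
      (∀ i, i ≤ D → ip g (Aop i g) =
        av g ^ 2 + ∑ m ∈ Finset.Icc 1 (D + 1), rho n i m * b m) ∧
      ∀ (j : ℕ) (τ : ℝ), j ≤ D → τ < 1 →
        av (yf j τ f) = 0 ∧
        ip (yf j τ f) f = ∑ m ∈ Finset.Icc 1 (D + 1), bet n j τ m * a m ∧
        ip (yf j τ f) (yf j τ f) = ∑ m ∈ Finset.Icc 1 (D + 1), bet n j τ m ^ 2 * a m ∧
        ip (yf j τ f) g = ∑ m ∈ Finset.Icc 1 (D + 1), bet n j τ m * x m := by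
  have := sig_prob (n := n) (by omega)
  have hF := piece_cont hf D
  have hG := piece_cont hg D
  have hff := piece_orth hn hf hf D
  have hgg := piece_orth hn hg hg D
  have hfg := piece_orth hn hf hg D
  have h0 : ∀ x, piece D f 0 x = 1 := fun x => by rw [piece_zero hn, h1]
  have h00 : ip (piece D f 0) (piece D f 0) = 1 := by simp [ip, h0]
  have g00 : ip (piece D g 0) (piece D g 0) = av g ^ 2 := by simp [ip, piece_zero hn, sq]
  have hρ : ∀ j, rho n j 0 = 1 := fun j => by simp [rho]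
  have h2 := parseval_pair _ _ _ hF hF hff hf (piece_self D f) (piece_self D f)
  have h2' := parseval_pair _ _ _ hG hG hgg hg (piece_self D g) (piece_self D g)
  simp only [one_mul, fk_range, h00, g00] at h2 h2'
  refine ⟨fun m => ip (piece D f m) (piece D f m), fun m => ip (piece D f m) (piece D g m),
    fun m => ip (piece D g m) (piece D g m), fun m => ip_self_nonneg _, fun m => ip_self_nonneg _,
    fun m => ?_, fun m hm => by simp [piece, hm], by linarith, by linarith, fun i hi => ?_,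
    fun j τ hj hτ => ?_⟩
  · have k := fk_abs_ip_le (hF m) (hG m)
    rw [← Real.sqrt_mul (ip_self_nonneg _)] at k
    have k2 := pow_le_pow_left₀ (abs_nonneg _) k 2
    rwa [sq_abs, Real.sq_sqrt (mul_nonneg (ip_self_nonneg _) (ip_self_nonneg _))] at k2
  · have k := parseval_pair _ _ _ hG hG hgg (continuous_Aop hg i) (piece_self D g)
      (piece_Aop hn hg hi)
    simpa only [one_mul, fk_range, g00, hρ] using k
  have hb : ∀ g : ℕ → ℝ, ∑ m ∈ Finset.range (D + 2), (if m = 0 then 0 else bet n j τ m) * g m =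
      ∑ m ∈ Finset.Icc 1 (D + 1), bet n j τ m * g m := fun g => by
    rw [fk_range, if_pos rfl, zero_mul, zero_add]
    exact Finset.sum_congr rfl fun m hm => by rw [if_neg (by simp at hm; omega)]
  have hc : ∀ g : ℕ → ℝ, ∑ m ∈ Finset.Icc 1 (D + 1), bet n j τ m * g m =
      (τ * ∑ m ∈ Finset.Icc 1 (D + 1), g m -
        ∑ m ∈ Finset.Icc 1 (D + 1), rho n j m * g m) / (1 - τ) := fun g => by
    rw [Finset.mul_sum, ← Finset.sum_sub_distrib, Finset.sum_div]
    exact Finset.sum_congr rfl fun m _ => by rw [bet]; ring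
  have hy : ∀ x, yf j τ f x = ∑ m ∈ Finset.range (D + 2),
      (if m = 0 then 0 else bet n j τ m) * piece D f m x := fun x => by
    rw [hb, hc, yf, piece_Aop hn hf hj, piece_self D f x]
    simp only [one_mul, fk_range, h0, hρ, add_sub_cancel_left]
  have hy' := on_yf_cont hf j τ
  have h3 := parseval_pair _ _ (Pi.single 0 1) hF hF hff (hF 0) hy
    fun x => by simp [Pi.single_apply]
  have h4 := parseval_pair _ _ _ hF hF hff hf hy (piece_self D f)
  have h5 := parseval_pair _ _ _ hF hF hff hy' hy hy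
  have h6 := parseval_pair _ _ _ hF hG hfg hg hy (piece_self D g)
  simp only [mul_one, hb] at h4 h6
  refine ⟨?_, h4, ?_, h6⟩
  · simpa [ip, av, h0, Pi.single_apply] using h3
  · simp only [mul_assoc, hb] at h5
    refine h5.trans (Finset.sum_congr rfl fun m hm => ?_)
    rw [if_neg (by simp at hm; omega), sq, mul_assoc]

end Vale.Agent.P237
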