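import Vale.Agent.P237.ThreeA

open MeasureTheory Metric Set Filter Topology
open scoped RealInnerProductSpace Pointwise ENNReal NNReal

namespace Vale.Agent.P237

/-- Multipliers of the main test function. -/
noncomputable def zz (m : ℕ) : ℝ := 11 / 20 * bet 3 4 (t3 4) m

/-- Multipliers of the nonnegative kernel. -/
noncomputable def khat (k : Fin 8 → ℝ) (m : ℕ) : ℝ :=
  ∑ i : Fin 8, k i / (2 * ((i : ℕ) : ℝ) + 1) * rho 3 i m

/-- The loss in degree `2 m`. -/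
noncomputable def cc (j' : ℕ) (P T U s' : ℝ) (k : Fin 8 → ℝ) (m : ℕ) : ℝ :=
  (P * zz m ^ 2 + (T * zz m - s' * bet 3 j' (t3 j') m / 2) ^ 2 / (U - khat k m)) / (3 / 4)

/-- The main test function. -/
noncomputable def z3 (N : E 3 → ℝ) (x : E 3) : ℝ := 11 / 20 * yf 4 (t3 4) N x

/-- The square of its positive part. -/
noncomputable def g3 (N : E 3 → ℝ) (x : E 3) : ℝ := max (z3 N x) 0 ^ 2

/-- A numerical certificate in dimension three, for one range of the mean of `g3`. -/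
structure Cert3 (l r : ℝ) (j' : ℕ) (P T U b ε e s' tm : ℝ) (k : Fin 8 → ℝ) : Prop where
  hneg : ∀ z : ℝ, z ≤ 0 → 1 - ε - (3 / 4 + b) * z - P * z ^ 2 ≤ (1 - z) ^ (3 / 4 : ℝ)
  hpos : ∀ z : ℝ, 0 ≤ z → z ≤ 11 / 20 →
    1 - ε - (3 / 4 + b) * z - (P + e) * z ^ 2 - 2 * T * z ^ 3 + U * z ^ 4 ≤ (1 - z) ^ (3 / 4 : ℝ)
  hg : ∀ g : ℝ, l ≤ g → g ≤ r → ε + (e + s') * g + (khat k 0 - U) * g ^ 2 ≤ 0
  hk : ∀ t : ℝ, |t| ≤ 1 → 0 ≤ ∑ i : Fin 8, k i * t ^ (2 * (i : ℕ))
  hs' : 0 ≤ s'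
  hP : 0 ≤ P
  hU0 : 0 < U
  hU : ∀ m ∈ ({1, 2, 3, 4, 5, 6, 7} : Finset ℕ), khat k m < U
  h1 : 1 / 1000 ≤ zz 1 - cc j' P T U s' k 1
  h2 : ∀ m ∈ ({2, 3, 4, 5, 6, 7} : Finset ℕ),
    1 / 1000 + gam 3 1 m / 2 ≤ zz m - cc j' P T U s' k m
  h3 : ∀ m ∈ ({2, 3, 4, 5, 6, 7} : Finset ℕ),
    1 / 1000 + gam 3 1 m * (1 / 2 + 189 / 500 * (79 / 500)) ≤
      zz m - (1 - 189 / 500 / 2) * cc j' P T U s' k m
  hlo : (T * (99 / 20) - s' * bet 3 j' (t3 j') 8 / 2) ^ 2 ≤ tm
  hhi : (T * (99 / 20) - s' * (2 * (j' : ℝ) + 1) / 2) ^ 2 ≤ tm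
  h2' : 1 / 1000 + gam 3 1 8 / 2 ≤ 99 / 20 - (P * (99 / 20) ^ 2 + tm / U) / (3 / 4)
  h3' : 1 / 1000 + gam 3 1 8 * (1 / 2 + 189 / 500 * (79 / 500)) ≤
    99 / 20 - (1 - 189 / 500 / 2) * ((P * (99 / 20) ^ 2 + tm / U) / (3 / 4))

theorem cross_le {T U a x b : ℝ} (hU : 0 < U) (ha : 0 ≤ a) (hb : 0 ≤ b) (h : x ^ 2 ≤ a * b) :
    2 * T * x - U * b ≤ T ^ 2 / U * a := by
  rw [div_mul_eq_mul_div, le_div_iff₀ hU]
  have h1 : 0 ≤ T ^ 2 * a + U ^ 2 * b := by positivity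
  have h2 : (2 * T * U * x) ^ 2 ≤ (T ^ 2 * a + U ^ 2 * b) ^ 2 := by
    have h3 : 0 ≤ 4 * T ^ 2 * U ^ 2 * (a * b - x ^ 2) :=
      mul_nonneg (by positivity) (by linarith)
    nlinarith [sq_nonneg (T ^ 2 * a - U ^ 2 * b)]
  have h4 := abs_le_of_sq_le_sq' h2 h1
  nlinarith [h4.2]

theorem khat_high (k : Fin 8 → ℝ) {m : ℕ} (hm : 8 ≤ m) : khat k m = 0 :=
  Finset.sum_eq_zero fun i _ => by rw [rho_eq_zero (by omega), mul_zero]

theorem zz_high {m : ℕ} (hm : 8 ≤ m) : zz m = 99 / 20 := by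
  unfold zz bet
  rw [rho_eq_zero (by omega), sub_zero, t3_div]
  norm_num

theorem z3_cont {N : E 3 → ℝ} (hN : IsNorm N) : Continuous (z3 N) :=
  continuous_const.mul (on_yf_cont hN.toIsGauge.continuous _ _)

theorem g3_cont {N : E 3 → ℝ} (hN : IsNorm N) : Continuous (g3 N) :=
  ((z3_cont hN).max continuous_const).pow 2

theorem z3_le {N : E 3 → ℝ} (hN : IsNorm N) (θ : Sph 3) : z3 N θ ≤ 11 / 20 := by
  have := on_yf_le (t3_lt 4) (jensen_three hN 4 (norm_coe θ))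
  unfold z3
  linarith

theorem av_g3 {N : E 3 → ℝ} (hN : IsNorm N) : 0 ≤ av (g3 N) ∧ av (g3 N) ≤ 121 / 400 := by
  have := sig_prob (n := 3) (by norm_num)
  refine ⟨integral_nonneg fun θ => sq_nonneg _, ?_⟩
  have h : av (g3 N) ≤ ∫ _θ : Sph 3, (121 / 400 : ℝ) ∂sig 3 := by
    have := g3_cont hN
    refine integral_mono (integrable_sig (by fun_prop)) (integrable_const _) fun θ => ?_
    have h1 : max (z3 N θ) 0 ≤ 11 / 20 := max_le (z3_le hN θ) (by norm_num)
    have h2 := pow_le_pow_left₀ (le_max_right _ _) h1 2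
    unfold g3
    linarith
  simpa using h

theorem Cert3.hU' {l r : ℝ} {j' : ℕ} {P T U b ε e s' tm : ℝ} {k : Fin 8 → ℝ}
    (h : Cert3 l r j' P T U b ε e s' tm k) : ∀ m, 1 ≤ m → 0 < U - khat k m := by
  intro m hm
  by_cases h8 : 8 ≤ m
  · rw [khat_high k h8, sub_zero]; exact h.hU0
  · exact sub_pos.2 (h.hU m (by simp only [Finset.mem_insert, Finset.mem_singleton]; omega))

theorem three_loss {l r : ℝ} {j' : ℕ} {P T U b ε e s' tm : ℝ} {k : Fin 8 → ℝ}
    (h : Cert3 l r j' P T U b ε e s' tm k) {N : E 3 → ℝ} (hN : IsNorm N) (h1 : av N = 1)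
    (hl : l ≤ av (g3 N)) (hr : av (g3 N) ≤ r) (D : ℕ) :
    ∃ (a : ℕ → ℝ) (D' : ℕ), D ≤ D' ∧ (∀ m, 0 ≤ a m) ∧
      (∀ m, m ≤ D' → a m = ip (comp m N) (comp m N)) ∧
      ∑ m ∈ Finset.Icc 1 (D' + 1), a m = ip N N - 1 ∧
      ∑ m ∈ Finset.Icc 1 (D' + 1), bet 3 1000 (t3 1000) m * a m ≤ 1 ∧
      ip (z3 N) N = ∑ m ∈ Finset.Icc 1 (D' + 1), zz m * a m ∧
      3 / 4 * (1 - ∑ m ∈ Finset.Icc 1 (D' + 1), cc j' P T U s' k m * a m) ≤
        (∫ θ : Sph 3, (1 - z3 N θ) ^ (3 / 4 : ℝ) ∂sig 3) - (1 - 3 / 4) := by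
  have hn : 2 ≤ 3 := by norm_num
  have hprob := sig_prob (n := 3) (by norm_num)
  have hc := hN.toIsGauge.continuous
  have hz := z3_cont hN
  have hg := g3_cont hN
  have hg0 : ∀ x, 0 ≤ g3 N x := fun x => sq_nonneg _
  obtain ⟨a, x, bb, ha, hb, hx, haD, hV, hB, hA, hsp⟩ :=
    spectral_pair hn hc hg h1 (max D (max j' 1000))
  set M := max D (max j' 1000) + 1 with hM
  obtain ⟨y0, y1, y2, y3⟩ := hsp 4 (t3 4) (by omega) (t3_lt _)
  obtain ⟨-, -, -, w3⟩ := hsp j' (t3 j') (by omega) (t3_lt _)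
  obtain ⟨-, u1, -, -⟩ := hsp 1000 (t3 1000) (by omega) (t3_lt _)
  have hy := on_yf_cont hc 4 (t3 4)
  have z0 : ∫ θ : Sph 3, z3 N θ ∂sig 3 = 0 := by
    unfold z3
    rw [integral_const_mul]
    exact mul_eq_zero_of_right _ y0
  have z1 : ip (z3 N) N = ∑ m ∈ Finset.Icc 1 M, zz m * a m := by
    have : ip (z3 N) N = 11 / 20 * ip (yf 4 (t3 4) N) N := by
      simp only [ip, z3, mul_assoc, integral_const_mul]
    rw [this, y1, Finset.mul_sum]
    exact Finset.sum_congr rfl fun m _ => by rw [zz]; ring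
  have z2 : ∫ θ : Sph 3, z3 N θ ^ 2 ∂sig 3 = ∑ m ∈ Finset.Icc 1 M, zz m ^ 2 * a m := by
    have : ∫ θ : Sph 3, z3 N θ ^ 2 ∂sig 3 =
        (11 / 20) ^ 2 * ip (yf 4 (t3 4) N) (yf 4 (t3 4) N) := by
      simp only [ip, z3, mul_pow, integral_const_mul, sq (yf _ _ _ _)]
    rw [this, y2, Finset.mul_sum]
    exact Finset.sum_congr rfl fun m _ => by rw [zz]; ring
  have z4 : ∫ θ : Sph 3, z3 N θ * g3 N θ ∂sig 3 = ∑ m ∈ Finset.Icc 1 M, zz m * x m := by
    have : ∫ θ : Sph 3, z3 N θ * g3 N θ ∂sig 3 = 11 / 20 * ip (yf 4 (t3 4) N) (g3 N) := by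
      simp only [ip, z3, mul_assoc, integral_const_mul]
    rw [this, y3, Finset.mul_sum]
    exact Finset.sum_congr rfl fun m _ => by rw [zz]; ring
  have hpt : ∫ θ : Sph 3, (1 - ε - (3 / 4 + b) * z3 N θ - P * z3 N θ ^ 2 -
      2 * T * (z3 N θ * g3 N θ) + U * (g3 N θ * g3 N θ) - e * g3 N θ) ∂sig 3 ≤
      ∫ θ : Sph 3, (1 - z3 N θ) ^ (3 / 4 : ℝ) ∂sig 3 := by
    refine integral_mono (integrable_sig (by fun_prop)) (integrable_sig ?_) fun θ => ?_
    · exact (continuous_const.sub (hz.comp continuous_subtype_val)).rpow_const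
        fun _ => Or.inr (by norm_num)
    · simp only [g3]
      rcases le_total (z3 N θ) 0 with h0 | h0
      · have := h.hneg _ h0
        rw [max_eq_right h0]
        linarith
      · have := h.hpos _ h0 (z3_le hN θ)
        rw [max_eq_left h0]
        linarith
  have i1 : Integrable (fun θ : Sph 3 => z3 N θ) (sig 3) := integrable_sig (by fun_prop)
  have i2 : Integrable (fun θ : Sph 3 => z3 N θ ^ 2) (sig 3) := integrable_sig (by fun_prop)
  have i3 : Integrable (fun θ : Sph 3 => z3 N θ * g3 N θ) (sig 3) := integrable_sig (by fun_prop)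
  have i4 : Integrable (fun θ : Sph 3 => g3 N θ * g3 N θ) (sig 3) := integrable_sig (by fun_prop)
  have i5 : Integrable (fun θ : Sph 3 => g3 N θ) (sig 3) := integrable_sig (by fun_prop)
  have j1 := (integrable_const (1 - ε)).sub' (i1.const_mul (3 / 4 + b))
  have j2 := j1.sub' (i2.const_mul P)
  have j3 := j2.sub' (i3.const_mul (2 * T))
  have j4 : Integrable (fun θ : Sph 3 => 1 - ε - (3 / 4 + b) * z3 N θ - P * z3 N θ ^ 2 -
      2 * T * (z3 N θ * g3 N θ) + U * (g3 N θ * g3 N θ)) (sig 3) := j3.add (i4.const_mul U)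
  rw [integral_sub j4 (i5.const_mul e), integral_add j3 (i4.const_mul U),
    integral_sub j2 (i3.const_mul _), integral_sub j1 (i2.const_mul P),
    integral_sub (integrable_const _) (i1.const_mul _), integral_const_mul, integral_const_mul,
    integral_const_mul, integral_const_mul, integral_const_mul, z0, z2, z4] at hpt
  simp only [integral_const, probReal_univ, smul_eq_mul, one_mul] at hpt
  change _ - _ - _ - _ + U * ip (g3 N) (g3 N) - e * av (g3 N) ≤ _ at hpt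
  have hJ : ip (yf j' (t3 j') N) (g3 N) ≤ av (g3 N) := by
    have := on_yf_cont hc j' (t3 j')
    refine integral_mono (integrable_sig (by fun_prop)) i5 fun θ => ?_
    have := mul_le_mul_of_nonneg_right
      (on_yf_le (t3_lt j') (jensen_three hN j' (norm_coe θ))) (hg0 θ)
    simpa using this
  rw [w3] at hJ
  have hK := copos hg hg0 h.hk
  have hK' : ∑ i : Fin 8, k i / (2 * ((i : ℕ) : ℝ) + 1) * ip (g3 N) (Aop i (g3 N)) =
      khat k 0 * av (g3 N) ^ 2 + ∑ m ∈ Finset.Icc 1 M, khat k m * bb m := by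
    simp only [khat, Finset.sum_mul]
    rw [Finset.sum_comm, ← Finset.sum_add_distrib]
    refine Finset.sum_congr rfl fun i _ => ?_
    rw [hA i (by omega), mul_add, Finset.mul_sum]
    simp only [rho, Finset.prod_range_zero, mul_one, mul_assoc]
  rw [hK'] at hK
  have hU := h.hU'
  have hsum : P * ∑ m ∈ Finset.Icc 1 M, zz m ^ 2 * a m +
      2 * T * ∑ m ∈ Finset.Icc 1 M, zz m * x m -
      s' * ∑ m ∈ Finset.Icc 1 M, bet 3 j' (t3 j') m * x m -
      U * ∑ m ∈ Finset.Icc 1 M, bb m + ∑ m ∈ Finset.Icc 1 M, khat k m * bb m ≤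
      3 / 4 * ∑ m ∈ Finset.Icc 1 M, cc j' P T U s' k m * a m := by
    simp only [Finset.mul_sum, ← Finset.sum_add_distrib, ← Finset.sum_sub_distrib]
    refine Finset.sum_le_sum fun m hm => ?_
    have := cross_le (T := T * zz m - s' * bet 3 j' (t3 j') m / 2) (hU m (Finset.mem_Icc.1 hm).1)
      (ha m) (hb m) (hx m)
    unfold cc
    linarith
  have hgr := h.hg _ hl hr
  have hs := mul_le_mul_of_nonneg_left hJ h.hs'
  have hap : ip (yf 1000 (t3 1000) N) N ≤ 1 := by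
    rw [← h1]
    have := on_yf_cont hc 1000 (t3 1000)
    refine integral_mono (integrable_sig (by fun_prop)) (integrable_sig (by fun_prop)) fun θ => ?_
    have := mul_le_mul_of_nonneg_right
      (on_yf_le (t3_lt 1000) (jensen_three hN 1000 (norm_coe θ))) (on_pos hN θ).le
    simpa using this
  rw [u1] at hap
  refine ⟨a, max D (max j' 1000), le_max_left _ _, ha, haD, hV, hap, z1, ?_⟩
  have : ip (g3 N) (g3 N) = av (g3 N) ^ 2 + ∑ m ∈ Finset.Icc 1 M, bb m := by linarith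
  rw [this] at hpt
  linarith

theorem three_range {l r : ℝ} {j' : ℕ} {P T U b ε e s' tm : ℝ} {k : Fin 8 → ℝ}
    (h : Cert3 l r j' P T U b ε e s' tm k) {N : E 3 → ℝ} (hN : IsNorm N) (h1 : av N = 1)
    (hl : l ≤ av (g3 N)) (hr : av (g3 N) ≤ r) (D : ℕ) :
    tau 1 N ^ 2 + (1 / 1000 * (ip N N - 1)) ^ 2 + Wsum 1 D N ≤ 1 := by
  have hn : 2 ≤ 3 := by norm_num
  have hprob := sig_prob (n := 3) (by norm_num)
  have hc := hN.toIsGauge.continuous
  have hz := z3_cont hN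
  have hU := h.hU'
  obtain ⟨a, D', hD, ha, haD, hV, hap, z1, hlow⟩ := three_loss h hN h1 hl hr D
  set M := D' + 1 with hM
  obtain ⟨r1, r2⟩ := rev_holder_gen (n := 3) (by norm_num) hc hz (on_pos hN)
    (fun θ => (z3_le hN θ).trans (by norm_num)) h1 (q := 3) (by norm_num)
  have hv : (∫ θ : Sph 3, N (θ : E 3) ^ (-(3 : ℝ)) ∂sig 3) ^ (-(1 / (3 : ℝ))) = tau 1 N := by
    unfold tau hm
    simp only [Nat.sub_self, pow_zero, integral_const, probReal_univ, smul_eq_mul, one_mul,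
      Nat.cast_ofNat]
    congr 2
    funext θ
    rw [Real.rpow_neg (on_pos hN θ).le, inv_pow]
    norm_cast
  have hv0 : 0 ≤ tau 1 N := by
    rw [← hv]
    exact Real.rpow_nonneg (integral_nonneg fun θ => Real.rpow_nonneg (on_pos hN θ).le _) _
  rw [hv, z1, show (3 : ℝ) / (3 + 1) = 3 / 4 by norm_num] at r1
  rw [z1] at r2
  have r3 : tau 1 N * (1 - ∑ m ∈ Finset.Icc 1 M, cc j' P T U s' k m * a m) ≤
      1 - ∑ m ∈ Finset.Icc 1 M, zz m * a m := by
    have := mul_le_mul_of_nonneg_left hlow hv0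
    linarith
  have hcc : ∀ m, 8 ≤ m → cc j' P T U s' k m ≤ (P * (99 / 20) ^ 2 + tm / U) / (3 / 4) := by
    intro m hm
    unfold cc
    rw [zz_high hm, khat_high k hm, sub_zero]
    refine div_le_div_of_nonneg_right (add_le_add le_rfl
      (div_le_div_of_nonneg_right ?_ h.hU0.le)) (by norm_num)
    have k1 := mul_le_mul_of_nonneg_left (on_bet_mono hn j' (t3_lt j') hm) h.hs'
    have k2 := mul_le_mul_of_nonneg_left (on_bet_le hn j' (t3_lt j') m) h.hs'
    rw [t3_div] at k2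
    have := quad_between (p := T * (99 / 20)) (q := 1 / 4) (t := (T * (99 / 20)) ^ 2 - tm)
      (by norm_num) (by nlinarith [h.hlo]) (by nlinarith [h.hhi]) k1 k2
    nlinarith
  have hQ : gam 3 1 2 ≤ 189 / 500 * bet 3 1000 (t3 1000) 2 := by
    simp only [gam, bet, rho, t3, Finset.prod_range_succ, Finset.prod_range_zero]
    norm_num [abs_of_nonneg, abs_of_nonpos]
  have hβ : 0 ≤ bet 3 1000 (t3 1000) 1 := by
    simp only [bet, rho, t3, Finset.prod_range_succ, Finset.prod_range_zero]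
    norm_num
  have key := scalar_gen (γ := gam 3 1) (c := cc j' P T U s' k) (z := zz) (Q := 189 / 500) (η := 79 / 500) (m0 := 1 / 1000) ha
    (gam_nonneg hn le_rfl)
    (fun m hm => div_nonneg (add_nonneg (mul_nonneg h.hP (sq_nonneg _))
      (div_nonneg (sq_nonneg _) (hU m hm).le)) (by norm_num))
    (by norm_num) (by norm_num) (by norm_num) (by norm_num) (by norm_num) hv0 r3 r2 hap hβ
    (fun m hm => (gam_anti hn le_rfl hm).trans (hQ.trans
      (mul_le_mul_of_nonneg_left (on_bet_mono hn 1000 (t3_lt _) hm) (by norm_num))))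
    h.h1
    (fun m hm => by
      by_cases h8 : 8 ≤ m
      · have := gam_anti hn (d := 1) le_rfl h8
        have := hcc m h8
        have := h.h2'
        rw [zz_high h8]
        linarith
      · exact h.h2 m (by simp only [Finset.mem_insert, Finset.mem_singleton]; omega))
    (fun m hm => by
      by_cases h8 : 8 ≤ m
      · have := gam_anti hn (d := 1) le_rfl h8
        have := hcc m h8
        have := h.h3'
        rw [zz_high h8]
        linarith
      · exact h.h3 m (by simp only [Finset.mem_insert, Finset.mem_singleton]; omega))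
  rw [hV] at key
  have := on_Wsum_le hn (d := 1) le_rfl hD ha haD
  linarith

end Vale.Agent.P237
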